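import Vale.Agent.P183.R2.H139.Alg
import Mathlib.Order.Cover

/-!
# Gluing unary algebras over edges
-/

namespace Vale.Agent.P183.R2.H139

open Vale.Agent.P183

/-- The quotient of `(X, M)` by `c` is the algebra `(B, N)`, up to constant maps. -/
def TopT {X : Type} (M : Set (X → X)) (c : Setoid X) (B : Type) (N : Set (B → B)) : Prop :=
  ∃ π : X → B, Function.Surjective π ∧ (∀ p q, c p q ↔ π p = π q) ∧
    (∀ m ∈ M, (∃ n ∈ N, ∀ x, π (m x) = n (π x)) ∨ ∃ y, ∀ x, π (m x) = y) ∧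
    ∀ n ∈ N, ∃ m ∈ M, ∀ x, π (m x) = n (π x)

/-- The nontrivial classes of `d` are copies of the algebra `(B, N)`. -/
def BotT {X : Type} (M : Set (X → X)) (d : Setoid X) (B : Type) (N : Set (B → B)) : Prop :=
  ∃ (T : Type) (_ : Nonempty T) (ι : T → B → X), (∀ t, Function.Injective (ι t)) ∧
    (∀ t y y', d (ι t y) (ι t y')) ∧
    (∀ t t' y y', d (ι t y) (ι t' y') → t = t') ∧
    (∀ t y q, d (ι t y) q → ∃ y', ι t y' = q) ∧
    (∀ p q, p ≠ q → d p q → ∃ t y, ι t y = p) ∧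
    (∀ t t', ∃ m ∈ M, ∀ y, m (ι t y) = ι t' y) ∧
    (∀ m ∈ M, ∀ t, (∃ c, ∀ y, m (ι t y) = c) ∨ ∃ t', ∃ n ∈ N, ∀ y, m (ι t y) = ι t' (n y)) ∧
    (∀ n ∈ N, ∀ t, ∃ m ∈ M, ∀ y, m (ι t y) = ι t (n y))

theorem glues_of_types {L X X' : Type} [Lattice L] {M : Set (X → X)} {F : L → Setoid X}
    {M' : Set (X' → X')} {F' : L → Setoid X'} {a v u b' : L} (hB : UBlock M F a v)
    (hB' : UBlock M' F' u b') (huv : u ⋖ v) {B : Type} {N : Set (B → B)}
    (h1 : TopT M (F u) B N) (h2 : BotT M' (F' v) B N) : Glues M F M' F' u v := by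
  obtain ⟨π, hπ, hc, hd, hl⟩ := h1
  obtain ⟨T, iT, ι, hinj, hsame, hdisj, honto, hcover, hmove, hdown, hup⟩ := h2
  refine ⟨T, iT, fun t x => ι t (π x), ?_, ?_, ?_, ?_, ?_, ?_, ?_⟩
  · intro t x hx hx' p q
    rcases huv.eq_or_eq hx hx' with rfl | rfl
    · rw [hc]
      constructor
      · intro h
        rw [h]
      · intro h
        exact hinj t (hB'.bot _ _ h)
    · exact ⟨fun _ => hsame _ _ _, fun _ => hB.top _ _⟩
  · intro t t' p p' h
    exact hdisj t t' _ _ h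
  · intro t p q h
    obtain ⟨y, hy⟩ := honto t _ _ h
    obtain ⟨p', rfl⟩ := hπ y
    exact ⟨p', hy⟩
  · intro p q hne h
    obtain ⟨t, y, hy⟩ := hcover p q hne h
    obtain ⟨s, rfl⟩ := hπ y
    exact ⟨t, s, hy⟩
  · intro t t'
    obtain ⟨m, hm, hmt⟩ := hmove t t'
    exact ⟨m, hm, fun s => hmt _⟩
  · intro m hm t
    rcases hdown m hm t with ⟨c, hc'⟩ | ⟨t', nn, hn, hnt⟩
    · exact Or.inl ⟨c, fun s => hc' _⟩
    · obtain ⟨h, hh, hhn⟩ := hl nn hn
      exact Or.inr ⟨t', h, hh, fun s => by rw [hnt, hhn]⟩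
  · intro h hh t
    rcases hd h hh with ⟨nn, hn, hnx⟩ | ⟨y, hy⟩
    · obtain ⟨m, hm, hmt⟩ := hup nn hn t
      exact Or.inr ⟨m, hm, fun s => by rw [hmt, hnx]⟩
    · exact Or.inl ⟨ι t y, fun s => by rw [hy]⟩

/-- A block with a representation in which the atoms `c` of the block with `inn c` have type
`(B, N)` and the coatoms with `out c` have type `(B', N')`. -/
def TBlock {L : Type} [Lattice L] (a b : L) (inn : L → Prop) (B : Type) (N : Set (B → B))
    (out : L → Prop) (B' : Type) (N' : Set (B' → B')) : Prop :=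
  ∃ (X : Type) (_ : Finite X) (_ : Nonempty X) (M : Set (X → X)) (F : L → Setoid X),
    UBlock M F a b ∧ (∀ c, a ⋖ c → c ≤ b → inn c → BotT M (F c) B N) ∧
    ∀ c, a ≤ c → c ⋖ b → out c → TopT M (F c) B' N'

/-- **Ladders over edges, one type.** -/
theorem typed_ladder {L : Type} [Lattice L] {n : ℕ} {a b : Fin (n + 1) → L} (ha : Monotone a)
    (hb : Monotone b) (hab : ∀ i : Fin n, a i.succ ⋖ b i.castSucc)
    (hcov : ∀ x, ∃ i, a i ≤ x ∧ x ≤ b i) (B : Type) (N : Set (B → B))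
    (hT : ∀ i, TBlock (a i) (b i) (fun c => ∃ j : Fin n, j.succ = i ∧ c = b j.castSucc) B N
      (fun c => ∃ j : Fin n, j.castSucc = i ∧ c = a j.succ) B N) : Representable L := by
  choose X iX iX' M F hB hin hout using hT
  refine alg_ladder (X := X) (M := M) (F := F) ha hb (fun i => (hab i).le) hcov hB ?_
  intro i
  exact glues_of_types (hB i.castSucc) (hB i.succ) (hab i)
    (hout i.castSucc _ (ha (Fin.castSucc_lt_succ).le) (hab i) ⟨i, rfl, rfl⟩)
    (hin i.succ _ (hab i) (hb (Fin.castSucc_lt_succ).le) ⟨i, rfl, rfl⟩)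

end Vale.Agent.P183.R2.H139
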