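import Mathlib.GroupTheory.Index
import Mathlib.GroupTheory.SpecificGroups.Cyclic
import Mathlib.Algebra.Field.ZMod
import Mathlib.Algebra.Module.Submodule.Basic
import Mathlib.Tactic.LinearCombination
import Mathlib.FieldTheory.Finite.Basic
import Mathlib.GroupTheory.Perm.Cycle.Type

/-!
# Affine groups `V ⋊ C`, `C` a group of scalars
-/

namespace Vale.Agent.P183.R2.H139

/-- The group of all maps `x ↦ v + c x` with `v` in `V` and `c` in `C`. -/
@[ext]
structure Aff (K V : Type) [Field K] [AddCommGroup V] [Module K V] (C : Subgroup Kˣ) where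
  /-- the translation part -/
  v : V
  /-- the linear part -/
  c : C

namespace Aff

variable {K V : Type} [Field K] [AddCommGroup V] [Module K V] {C : Subgroup Kˣ}

instance : One (Aff K V C) := ⟨⟨0, 1⟩⟩
instance : Mul (Aff K V C) := ⟨fun x y => ⟨x.v + ((x.c : Kˣ) : K) • y.v, x.c * y.c⟩⟩
instance : Inv (Aff K V C) := ⟨fun x => ⟨-((((x.c)⁻¹ : C) : Kˣ) : K) • x.v, x.c⁻¹⟩⟩

@[simp] theorem one_v : (1 : Aff K V C).v = 0 := rfl
@[simp] theorem one_c : (1 : Aff K V C).c = 1 := rfl
@[simp] theorem mul_v (x y : Aff K V C) : (x * y).v = x.v + ((x.c : Kˣ) : K) • y.v := rfl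
@[simp] theorem mul_c (x y : Aff K V C) : (x * y).c = x.c * y.c := rfl
@[simp] theorem inv_v (x : Aff K V C) : (x⁻¹).v = -((((x.c)⁻¹ : C) : Kˣ) : K) • x.v := rfl
@[simp] theorem inv_c (x : Aff K V C) : (x⁻¹).c = x.c⁻¹ := rfl

instance : Group (Aff K V C) where
  mul_assoc x y z := by
    apply Aff.ext
    · simp only [mul_v, mul_c, Subgroup.coe_mul, Units.val_mul, smul_add, mul_smul]
      rw [add_assoc]
    · simp [mul_assoc]
  one_mul x := by
    apply Aff.ext
    · simp
    · simp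
  mul_one x := by
    apply Aff.ext
    · simp
    · simp
  inv_mul_cancel x := by
    apply Aff.ext
    · simp
    · simp

instance [Finite K] [Finite V] : Finite (Aff K V C) := by
  have hf : Function.Injective (fun x : Aff K V C => (x.v, x.c)) := by
    intro x y h
    simp only [Prod.mk.injEq] at h
    exact Aff.ext h.1 h.2
  exact Finite.of_injective _ hf

/-- The linear part. -/
def pr : Aff K V C →* C where
  toFun x := x.c
  map_one' := rfl
  map_mul' _ _ := rfl

theorem pr_surjective : Function.Surjective (pr : Aff K V C →* C) := fun c => ⟨⟨0, c⟩, rfl⟩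

/-- the translations -/
def tr (K V : Type) [Field K] [AddCommGroup V] [Module K V] (C : Subgroup Kˣ) :
    Subgroup (Aff K V C) := pr.ker

theorem mem_tr {x : Aff K V C} : x ∈ tr K V C ↔ x.c = 1 := Iff.rfl

theorem tr_index : (tr K V C).index = Nat.card C := by
  unfold tr
  rw [Subgroup.index_ker, MonoidHom.range_eq_top.2 pr_surjective, Subgroup.card_top]

instance : (tr K V C).Normal := by unfold tr; infer_instance

/-- the stabilizer of a point -/
def st (C : Subgroup Kˣ) (x₀ : V) : Subgroup (Aff K V C) where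
  carrier := {x | x.v + ((x.c : Kˣ) : K) • x₀ = x₀}
  one_mem' := by simp
  mul_mem' := by
    intro x y hx hy
    show x.v + ((x.c : Kˣ) : K) • y.v + (((x.c * y.c : C) : Kˣ) : K) • x₀ = x₀
    have hy' : y.v + ((y.c : Kˣ) : K) • x₀ = x₀ := hy
    have hx' : x.v + ((x.c : Kˣ) : K) • x₀ = x₀ := hx
    rw [Subgroup.coe_mul, Units.val_mul, mul_smul, add_assoc, ← smul_add, hy', hx']
  inv_mem' := by
    intro x hx
    have hx' : x.v + ((x.c : Kˣ) : K) • x₀ = x₀ := hx
    show -((((x.c)⁻¹ : C) : Kˣ) : K) • x.v + ((((x.c)⁻¹ : C) : Kˣ) : K) • x₀ = x₀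
    have h1 : x₀ - x.v = ((x.c : Kˣ) : K) • x₀ := by
      rw [sub_eq_iff_eq_add, add_comm]; exact hx'.symm
    rw [neg_smul, neg_add_eq_sub, ← smul_sub, h1, smul_smul]
    simp

theorem mem_st {x₀ : V} {x : Aff K V C} : x ∈ st C x₀ ↔ x.v + ((x.c : Kˣ) : K) • x₀ = x₀ :=
  Iff.rfl

theorem st_card (x₀ : V) : Nat.card (st C x₀) = Nat.card C := by
  refine Nat.card_congr (Equiv.ofBijective (fun x : st C x₀ => x.1.c) ⟨?_, ?_⟩)
  · intro x y h
    have h' : x.1.c = y.1.c := h
    apply Subtype.ext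
    refine Aff.ext ?_ h'
    have h1 := mem_st.1 x.2
    have h2 := mem_st.1 y.2
    rw [h'] at h1
    exact add_right_cancel (h1.trans h2.symm)
  · intro c
    refine ⟨⟨⟨x₀ - ((c : Kˣ) : K) • x₀, c⟩, ?_⟩, rfl⟩
    rw [mem_st]
    simp

end Aff

open Aff

section Prime

variable {p : ℕ} [Fact p.Prime] {C : Subgroup (ZMod p)ˣ}

/-- the middle subgroups -/
def fsub (C : Subgroup (ZMod p)ˣ) : Option (ZMod p) → Subgroup (Aff (ZMod p) (ZMod p) C)
  | none => tr (ZMod p) (ZMod p) C
  | some x => st C x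

theorem exists_ne_one {r : ℕ} (hr : r.Prime) (hC : Nat.card C = r) : ∃ c : C, c ≠ 1 := by
  have : Nontrivial C := by
    rw [← Finite.one_lt_card_iff_nontrivial, hC]
    exact hr.one_lt
  exact exists_ne 1

theorem coe_ne_one {c : C} (h : c ≠ 1) : (1 : ZMod p) - ((c : (ZMod p)ˣ) : ZMod p) ≠ 0 := by
  intro h1
  apply h
  apply Subtype.ext
  apply Units.ext
  exact (sub_eq_zero.1 h1).symm

theorem fsub_le {r : ℕ} (hr : r.Prime) (hC : Nat.card C = r) {o o' : Option (ZMod p)}
    (h : fsub C o ≤ fsub C o') : o = o' := by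
  obtain ⟨c, hc⟩ := exists_ne_one hr hC
  rcases o with _ | x <;> rcases o' with _ | y
  · rfl
  · exfalso
    have h1 : (⟨1, 1⟩ : Aff (ZMod p) (ZMod p) C) ∈ st C y := h (show _ ∈ tr _ _ C from rfl)
    rw [mem_st] at h1
    simp at h1
  · exfalso
    have h1 : (⟨x - ((c : (ZMod p)ˣ) : ZMod p) • x, c⟩ : Aff (ZMod p) (ZMod p) C) ∈ tr _ _ C :=
      h (show _ ∈ st C x from by rw [mem_st]; simp)
    exact hc h1
  · have h1 : (⟨x - ((c : (ZMod p)ˣ) : ZMod p) • x, c⟩ : Aff (ZMod p) (ZMod p) C) ∈ st C y :=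
      h (show _ ∈ st C x from by rw [mem_st]; simp)
    rw [mem_st] at h1
    have h2 : (1 - ((c : (ZMod p)ˣ) : ZMod p)) * (x - y) = 0 := by
      simp only [smul_eq_mul] at h1
      linear_combination h1
    rcases mul_eq_zero.1 h2 with h3 | h3
    · exact absurd h3 (coe_ne_one hc)
    · rw [sub_eq_zero.1 h3]

theorem fsub_ne_bot {r : ℕ} (hr : r.Prime) (hC : Nat.card C = r) (o : Option (ZMod p)) :
    fsub C o ≠ ⊥ := by
  obtain ⟨c, hc⟩ := exists_ne_one hr hC
  intro h
  rcases o with _ | x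
  · have h1 : (⟨1, 1⟩ : Aff (ZMod p) (ZMod p) C) ∈ (⊥ : Subgroup _) := by
      rw [← h]
      exact (show _ ∈ tr _ _ C from rfl)
    rw [Subgroup.mem_bot] at h1
    have h2 := congrArg Aff.v h1
    simp at h2
  · have h1 : (⟨x - ((c : (ZMod p)ˣ) : ZMod p) • x, c⟩ : Aff (ZMod p) (ZMod p) C) ∈
        (⊥ : Subgroup _) := by
      rw [← h]
      exact (show _ ∈ st C x from by rw [mem_st]; simp)
    rw [Subgroup.mem_bot] at h1
    exact hc (congrArg Aff.c h1)

theorem fsub_ne_top {r : ℕ} (hr : r.Prime) (hC : Nat.card C = r) (o : Option (ZMod p)) :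
    fsub C o ≠ ⊤ := by
  obtain ⟨c, hc⟩ := exists_ne_one hr hC
  intro h
  rcases o with _ | x
  · have h1 : (⟨0, c⟩ : Aff (ZMod p) (ZMod p) C) ∈ tr _ _ C := by
      have : fsub C none = tr _ _ C := rfl
      rw [← this, h]
      exact Subgroup.mem_top _
    exact hc h1
  · have h1 : (⟨1, 1⟩ : Aff (ZMod p) (ZMod p) C) ∈ st C x := by
      have : fsub C (some x) = st C x := rfl
      rw [← this, h]
      exact Subgroup.mem_top _
    rw [mem_st] at h1
    simp at h1

/-- a subgroup which contains an element with nontrivial linear part maps onto `C` -/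
theorem image_all {r : ℕ} (hr : r.Prime) (hC : Nat.card C = r)
    {S : Subgroup (Aff (ZMod p) (ZMod p) C)} {g : Aff (ZMod p) (ZMod p) C} (hg : g ∈ S)
    (hgc : g.c ≠ 1) (d : C) : ∃ s, (⟨s, d⟩ : Aff (ZMod p) (ZMod p) C) ∈ S := by
  have h1 : S.map pr ≠ ⊥ := by
    intro h
    have h2 : g.c ∈ S.map (pr : Aff (ZMod p) (ZMod p) C →* C) := ⟨g, hg, rfl⟩
    rw [h, Subgroup.mem_bot] at h2
    exact hgc h2
  have : Fact r.Prime := ⟨hr⟩
  have h3 : S.map pr = ⊤ := by
    have : IsSimpleGroup C := isSimpleGroup_of_prime_card hC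
    rcases (Subgroup.Normal.eq_bot_or_eq_top (H := S.map pr) (by
      have := isCyclic_of_prime_card hC
      have : CommGroup C := inferInstance
      exact ⟨fun n hn g => by
        have : g * n * g⁻¹ = n := by rw [mul_comm g n, mul_inv_cancel_right]
        rw [this]; exact hn⟩)) with h | h
    · exact absurd h h1
    · exact h
  have h4 : d ∈ S.map (pr : Aff (ZMod p) (ZMod p) C →* C) := by rw [h3]; exact Subgroup.mem_top _
  obtain ⟨x, hx, rfl⟩ := h4
  exact ⟨x.v, hx⟩

theorem fsub_cases {r : ℕ} (hr : r.Prime) (hC : Nat.card C = r)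
    (S : Subgroup (Aff (ZMod p) (ZMod p) C)) : S = ⊥ ∨ S = ⊤ ∨ ∃ o, S = fsub C o := by
  by_cases hA : ∃ v : ZMod p, v ≠ 0 ∧ (⟨v, 1⟩ : Aff (ZMod p) (ZMod p) C) ∈ S
  · obtain ⟨v, hv, hvS⟩ := hA
    have hpow : ∀ k : ℕ, (⟨v, 1⟩ : Aff (ZMod p) (ZMod p) C) ^ k = ⟨k * v, 1⟩ := by
      intro k
      induction k with
      | zero =>
        rw [pow_zero]
        apply Aff.ext <;> simp
      | succ k ih =>
        rw [pow_succ, ih]
        apply Aff.ext
        · simp; ring
        · simp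
    have htr : ∀ w : ZMod p, (⟨w, 1⟩ : Aff (ZMod p) (ZMod p) C) ∈ S := by
      intro w
      have h1 := S.pow_mem hvS (w * v⁻¹).val
      rw [hpow] at h1
      have h2 : (((w * v⁻¹).val : ℕ) : ZMod p) * v = w := by
        rw [ZMod.natCast_val, ZMod.cast_id, inv_mul_cancel_right₀ hv]
      rwa [h2] at h1
    by_cases hB : ∃ g ∈ S, g.c ≠ 1
    · obtain ⟨g, hg, hgc⟩ := hB
      right; left
      rw [← top_le_iff]
      rintro ⟨w, d⟩ _
      obtain ⟨s, hs⟩ := image_all hr hC hg hgc d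
      have h3 := S.mul_mem (htr (w - s)) hs
      have h4 : (⟨w - s, 1⟩ : Aff (ZMod p) (ZMod p) C) * ⟨s, d⟩ = ⟨w, d⟩ := by
        apply Aff.ext <;> simp
      rwa [h4] at h3
    · right; right
      refine ⟨none, le_antisymm ?_ ?_⟩
      · intro g hg
        by_contra h
        exact hB ⟨g, hg, h⟩
      · rintro ⟨w, d⟩ hw
        have hd : d = 1 := hw
        subst hd
        exact htr w
  · have hA' : ∀ v : ZMod p, (⟨v, 1⟩ : Aff (ZMod p) (ZMod p) C) ∈ S → v = 0 := by
      intro v hv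
      by_contra h
      exact hA ⟨v, h, hv⟩
    by_cases hB : ∃ g ∈ S, g.c ≠ 1
    · obtain ⟨g, hg, hgc⟩ := hB
      have hg1 := coe_ne_one hgc
      right; right
      let x₀ : ZMod p := g.v * (1 - ((g.c : (ZMod p)ˣ) : ZMod p))⁻¹
      have hx₀ : x₀ * (1 - ((g.c : (ZMod p)ˣ) : ZMod p)) = g.v :=
        inv_mul_cancel_right₀ hg1 _
      have hle : S ≤ st C x₀ := by
        intro y hy
        have h1 : g * y * g⁻¹ * y⁻¹ ∈ S :=
          S.mul_mem (S.mul_mem (S.mul_mem hg hy) (S.inv_mem hg)) (S.inv_mem hy)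
        have h2 : (g * y * g⁻¹ * y⁻¹).c = 1 := by
          have := isCyclic_of_prime_card hC (hp := ⟨hr⟩)
          simp only [mul_c, inv_c]
          rw [mul_comm g.c y.c]
          group
        have h3 : (g * y * g⁻¹ * y⁻¹).v = 0 := by
          apply hA'
          have : g * y * g⁻¹ * y⁻¹ = ⟨(g * y * g⁻¹ * y⁻¹).v, 1⟩ := Aff.ext rfl h2
          rw [← this]
          exact h1
        have h4 : g * y * g⁻¹ * y⁻¹ = 1 := Aff.ext h3 h2
        have h5 : g * y = y * g := by
          have := congrArg (fun z => z * y * g) h4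
          simpa [mul_assoc] using this
        have h6 := congrArg Aff.v h5
        simp only [mul_v, smul_eq_mul] at h6
        rw [mem_st, smul_eq_mul]
        have h7 : (1 - ((g.c : (ZMod p)ˣ) : ZMod p)) *
            (y.v + ((y.c : (ZMod p)ˣ) : ZMod p) * x₀ - x₀) = 0 := by
          linear_combination (-1 : ZMod p) * h6 + (((y.c : (ZMod p)ˣ) : ZMod p) - 1) * hx₀
        rcases mul_eq_zero.1 h7 with h8 | h8
        · exact absurd h8 hg1
        · exact sub_eq_zero.1 h8
      refine ⟨some x₀, le_antisymm hle ?_⟩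
      rintro ⟨w, d⟩ hw
      obtain ⟨s, hs⟩ := image_all hr hC hg hgc d
      have h1 := mem_st.1 (hle hs)
      have h2 := mem_st.1 hw
      have h3 : w = s := add_right_cancel (h2.trans h1.symm)
      rw [h3]
      exact hs
    · left
      rw [← le_bot_iff]
      rintro ⟨w, d⟩ hw
      have hd : d = 1 := by
        by_contra h
        exact hB ⟨_, hw, h⟩
      subst hd
      rw [hA' w hw]
      exact Subgroup.one_mem _

end Prime

/-- If `r` divides `p - 1` there is a group of scalars of order `r`. -/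
theorem exists_scalars {p r : ℕ} [Fact p.Prime] (hr : r.Prime) (h : r ∣ p - 1) :
    ∃ C : Subgroup (ZMod p)ˣ, Nat.card C = r := by
  have : Fact r.Prime := ⟨hr⟩
  have hcard : Nat.card (ZMod p)ˣ = p - 1 := by
    rw [Nat.card_eq_fintype_card, ZMod.card_units]
  obtain ⟨x, hx⟩ := exists_prime_orderOf_dvd_card' (G := (ZMod p)ˣ) r (by rw [hcard]; exact h)
  exact ⟨Subgroup.zpowers x, by rw [Nat.card_zpowers, hx]⟩

end Vale.Agent.P183.R2.H139
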