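import Vale.Agent.P183.Defs
import Mathlib.Order.Fin.Basic
import Mathlib.Data.Fintype.Pi
import Mathlib.Data.Finite.Sum
import Mathlib.Data.Finite.Prod
import Mathlib.Data.Setoid.Basic

/-!
# Gluing congruence lattices of arbitrary finite unary algebras along a ladder
-/

namespace Vale.Agent.P183.R2.H139

open Vale.Agent.P183

/-- The map `f` preserves the relation `r`. -/
def Keeps {X : Type} (f : X → X) (r : Setoid X) : Prop := ∀ x y, r x y → r (f x) (f y)

/-- `F` identifies the interval `[a, b]` with the congruence lattice of the algebra `(X, M)`. -/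
structure UBlock {L X : Type} [Lattice L] (M : Set (X → X)) (F : L → Setoid X) (a b : L) :
    Prop where
  le : ∀ x y, a ≤ x → x ≤ b → a ≤ y → y ≤ b → (F x ≤ F y ↔ x ≤ y)
  keep : ∀ x, a ≤ x → x ≤ b → ∀ m ∈ M, Keeps m (F x)
  full : ∀ r : Setoid X, (∀ m ∈ M, Keeps m r) → ∃ x, a ≤ x ∧ x ≤ b ∧ F x = r

/-- The charts of a gluing over the interval `[u, v]`. -/
structure Charts {L X X' : Type} [Lattice L] (M : Set (X → X)) (F : L → Setoid X)
    (M' : Set (X' → X')) (F' : L → Setoid X') (u v : L) (T : Type) (γ : T → X → X') : Prop where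
  rel : ∀ t x, u ≤ x → x ≤ v → ∀ p q, F x p q ↔ F' x (γ t p) (γ t q)
  disj : ∀ t t' p p', F' v (γ t p) (γ t' p') → t = t'
  onto : ∀ t p q, F' v (γ t p) q → ∃ p', γ t p' = q
  cover : ∀ p q, p ≠ q → F' v p q → ∃ t s, γ t s = p
  move : ∀ t t', ∃ m ∈ M', ∀ s, m (γ t s) = γ t' s
  down : ∀ m ∈ M', ∀ t, (∃ c, ∀ s, m (γ t s) = c) ∨
    ∃ t', ∃ h ∈ M, ∀ s, m (γ t s) = γ t' (h s)
  up : ∀ h ∈ M, ∀ t, (∃ c, ∀ s, γ t (h s) = c) ∨ ∃ m ∈ M', ∀ s, m (γ t s) = γ t (h s)

/-- The maps which preserve all relations `E x`, `x ≤ b`, and which descend along `ρ` to a map in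
`M` or to a constant map. -/
def Nmaps {L X Y : Type} [Lattice L] (M : Set (X → X)) (E : L → Setoid Y) (ρ : Y → X) (b : L) :
    Set (Y → Y) :=
  {f | (∀ x, x ≤ b → Keeps f (E x)) ∧
    ((∃ m ∈ M, ∀ y, ρ (f y) = m (ρ y)) ∨ ∃ c, ∀ y, ρ (f y) = c)}

/-- The induction statement. -/
structure UGood {L X Y : Type} [Lattice L] (M : Set (X → X)) (F : L → Setoid X) (a b : L)
    (E : L → Setoid Y) (ρ : Y → X) : Prop where
  surj : Function.Surjective ρ
  le : ∀ x y, x ≤ b → y ≤ b → (E x ≤ E y ↔ x ≤ y)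
  rel : ∀ x, a ≤ x → x ≤ b → ∀ p q, E x p q ↔ F x (ρ p) (ρ q)
  lift : ∀ m ∈ M, ∃ f : Y → Y, (∀ x, x ≤ b → Keeps f (E x)) ∧ ∀ y, ρ (f y) = m (ρ y)
  full : ∀ r : Setoid Y, (∀ f ∈ Nmaps M E ρ b, Keeps f r) → ∃ x, x ≤ b ∧ E x = r

theorem UBlock.bot {L X : Type} [Lattice L] {M : Set (X → X)} {F : L → Setoid X} {a b : L}
    (h : UBlock M F a b) : ∀ p q, F a p q → p = q := by
  obtain ⟨x, hx1, hx2, hx3⟩ := h.full ⊥ (fun m _ x y hxy => by
    have : x = y := hxy
    subst this
    exact Setoid.refl' _ _)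
  intro p q hpq
  have h1 : F a ≤ F x := (h.le a x le_rfl (hx1.trans hx2) hx1 hx2).2 hx1
  have h2 : F x p q := h1 hpq
  rw [hx3] at h2
  exact h2

theorem UBlock.top {L X : Type} [Lattice L] {M : Set (X → X)} {F : L → Setoid X} {a b : L}
    (h : UBlock M F a b) : ∀ p q, F b p q := by
  obtain ⟨x, hx1, hx2, hx3⟩ := h.full ⊤ (fun m _ x y _ => trivial)
  intro p q
  have h1 : F x ≤ F b := (h.le x b hx1 hx2 (hx1.trans hx2) le_rfl).2 hx2
  apply h1
  rw [hx3]
  trivial

theorem UBlock.inf {L X : Type} [Lattice L] {M : Set (X → X)} {F : L → Setoid X} {a b : L}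
    (h : UBlock M F a b) {x y : L} (hx : a ≤ x) (hx' : x ≤ b) (hy : a ≤ y) (hy' : y ≤ b)
    {p q : X} (h1 : F x p q) (h2 : F y p q) : F (x ⊓ y) p q := by
  obtain ⟨z, hz1, hz2, hz3⟩ := h.full (F x ⊓ F y) (fun m hm p q hpq =>
    ⟨h.keep x hx hx' m hm _ _ hpq.1, h.keep y hy hy' m hm _ _ hpq.2⟩)
  have hzx : z ≤ x := (h.le z x hz1 hz2 hx hx').1 (hz3 ▸ inf_le_left)
  have hzy : z ≤ y := (h.le z y hz1 hz2 hy hy').1 (hz3 ▸ inf_le_right)
  have h3 : F z ≤ F (x ⊓ y) := (h.le z _ hz1 hz2 (le_inf hx hy) (inf_le_left.trans hx')).2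
    (le_inf hzx hzy)
  apply h3
  rw [hz3]
  exact ⟨h1, h2⟩

theorem UGood.top {L X Y : Type} [Lattice L] {M : Set (X → X)} {F : L → Setoid X} {a b : L}
    {E : L → Setoid Y} {ρ : Y → X} (h : UGood M F a b E ρ) : ∀ p q, E b p q := by
  obtain ⟨x, hx1, hx2⟩ := h.full ⊤ (fun m _ x y _ => trivial)
  intro p q
  have h1 : E x ≤ E b := (h.le x b hx1 le_rfl).2 hx1
  apply h1
  rw [hx2]
  trivial

section Step

variable {L X X' Y T : Type} [Lattice L] {M : Set (X → X)} {F : L → Setoid X}
  {M' : Set (X' → X')} {F' : L → Setoid X'} {a b a' b' : L} {E : L → Setoid Y} {ρ : Y → X}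
  {γ : T → X → X'}

/-- the new carrier -/
abbrev NewY (Y : Type) {T X X' : Type} (γ : T → X → X') : Type :=
  (T × Y) ⊕ {q : X' // ∀ t s, γ t s ≠ q}

/-- the new projection -/
def newρ (γ : T → X → X') (ρ : Y → X) : NewY Y γ → X'
  | Sum.inl p => γ p.1 (ρ p.2)
  | Sum.inr q => q.1

/-- low relations -/
def lowR (γ : T → X → X') (r : Setoid Y) : NewY Y γ → NewY Y γ → Prop
  | Sum.inl p, Sum.inl q => p.1 = q.1 ∧ r p.2 q.2
  | Sum.inr p, Sum.inr q => p = q
  | Sum.inl _, Sum.inr _ => False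
  | Sum.inr _, Sum.inl _ => False

/-- low relations, as equivalence relations -/
def low (γ : T → X → X') (r : Setoid Y) : Setoid (NewY Y γ) where
  r := lowR γ r
  iseqv := {
    refl := fun x => by
      rcases x with p | p
      · exact ⟨rfl, Setoid.refl' _ _⟩
      · exact rfl
    symm := fun {x y} h => by
      rcases x with p | p <;> rcases y with q | q
      · exact ⟨h.1.symm, Setoid.symm' _ h.2⟩
      · exact h
      · exact h
      · exact Eq.symm h
    trans := fun {x y z} h h' => by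
      rcases x with p | p <;> rcases y with q | q <;> rcases z with s | s
      · exact ⟨h.1.trans h'.1, Setoid.trans' _ h.2 h'.2⟩
      · exact h'
      · exact absurd h id
      · exact absurd h id
      · exact absurd h id
      · exact absurd h id
      · exact absurd h' id
      · exact Eq.trans h h' }

theorem low_inl {r : Setoid Y} {t t' : T} {y y' : Y} :
    low γ r (Sum.inl (t, y)) (Sum.inl (t', y')) ↔ t = t' ∧ r y y' := Iff.rfl

open Classical in
/-- the new relations -/
noncomputable def newE (γ : T → X → X') (ρ : Y → X) (E : L → Setoid Y) (F' : L → Setoid X')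
    (b : L) (x : L) : Setoid (NewY Y γ) :=
  if x ≤ b then low γ (E x) else (F' x).comap (newρ γ ρ)

theorem newE_low {x : L} (hx : x ≤ b) : newE γ ρ E F' b x = low γ (E x) := by
  classical
  exact if_pos hx

variable (hC : Charts M F M' F' a' b T γ) (hG : UGood M F a b E ρ) (hB : UBlock M' F' a' b')
  (haa : a ≤ a') (hab : a' ≤ b) (hbb : b ≤ b') [Nonempty T]

omit [Nonempty T] in
include hC hG haa in
theorem low_eq {x : L} (hx : a' ≤ x) (hx' : x ≤ b) (hle : F' x ≤ F' b) (p q : NewY Y γ) :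
    low γ (E x) p q ↔ F' x (newρ γ ρ p) (newρ γ ρ q) := by
  rcases p with ⟨t, y⟩ | p <;> rcases q with ⟨t', y'⟩ | q
  · rw [low_inl]
    show _ ↔ F' x (γ t (ρ y)) (γ t' (ρ y'))
    constructor
    · rintro ⟨rfl, h⟩
      exact (hC.rel t x hx hx' _ _).1 ((hG.rel x (haa.trans hx) hx' _ _).1 h)
    · intro h
      have := hC.disj t t' _ _ (hle h)
      subst this
      exact ⟨rfl, (hG.rel x (haa.trans hx) hx' _ _).2 ((hC.rel t x hx hx' _ _).2 h)⟩
  · constructor
    · intro h
      exact absurd h id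
    · intro h
      obtain ⟨s, hs⟩ := hC.onto t _ _ (hle h)
      exact absurd hs (q.2 t s)
  · constructor
    · intro h
      exact absurd h id
    · intro h
      obtain ⟨s, hs⟩ := hC.onto t' _ _ (hle (Setoid.symm' _ h))
      exact absurd hs (p.2 t' s)
  · constructor
    · intro h
      have h' : p = q := h
      subst h'
      exact Setoid.refl' _ _
    · intro h
      show p = q
      by_contra hne
      have h1 : p.1 ≠ q.1 := fun h2 => hne (Subtype.ext h2)
      obtain ⟨t, s, hs⟩ := hC.cover p.1 q.1 h1 (hle h)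
      exact p.2 t s hs

omit [Nonempty T] in
include hC hG hB haa hab hbb in
theorem newE_high {x : L} (hx : a' ≤ x) (hx' : x ≤ b') (p q : NewY Y γ) :
    newE γ ρ E F' b x p q ↔ F' x (newρ γ ρ p) (newρ γ ρ q) := by
  classical
  by_cases h : x ≤ b
  · rw [newE_low h]
    exact low_eq hC hG haa hx h ((hB.le x b hx hx' hab hbb).2 h) p q
  · unfold newE
    rw [if_neg h]
    exact Iff.rfl

theorem low_le {r r' : Setoid Y} : low γ r ≤ low γ r' ↔ r ≤ r' := by
  constructor
  · intro h y y' hy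
    have t := Classical.arbitrary T
    exact (h (show low γ r (Sum.inl (t, y)) (Sum.inl (t, y')) from ⟨rfl, hy⟩)).2
  · intro h p q hpq
    rcases p with p | p <;> rcases q with q | q
    · exact ⟨hpq.1, h hpq.2⟩
    · exact hpq
    · exact hpq
    · exact hpq

omit [Nonempty T] in
include hG in
theorem newρ_surj : Function.Surjective (newρ γ ρ) := by
  classical
  intro q
  by_cases h : ∃ t s, γ t s = q
  · obtain ⟨t, s, hs⟩ := h
    obtain ⟨y, hy⟩ := hG.surj s
    exact ⟨Sum.inl (t, y), by show γ t (ρ y) = q; rw [hy, hs]⟩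
  · push Not at h
    exact ⟨Sum.inr ⟨q, h⟩, rfl⟩

include hC hG hB haa hab hbb in
theorem newE_le (hcov : ∀ x, x ≤ b' → x ≤ b ∨ a' ≤ x) (x y : L) (hx : x ≤ b') (hy : y ≤ b') :
    newE γ ρ E F' b x ≤ newE γ ρ E F' b y ↔ x ≤ y := by
  have hFle : ∀ {u v : L}, a' ≤ u → a' ≤ v → v ≤ b' → u ≤ v → F' u ≤ F' v :=
    fun {u v} hu hv hv' h => (hB.le u v hu (h.trans hv') hv hv').2 h
  by_cases hxb : x ≤ b
  · by_cases hyb : y ≤ b
    · rw [newE_low hxb, newE_low hyb, low_le, hG.le x y hxb hyb]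
    · have hya : a' ≤ y := (hcov y hy).resolve_left hyb
      constructor
      · intro h
        have h1 : low γ (E x) ≤ low γ (E (y ⊓ b)) := by
          intro p q hpq
          have h2 : F' y (newρ γ ρ p) (newρ γ ρ q) :=
            (newE_high hC hG hB haa hab hbb hya hy p q).1 (h (by rw [newE_low hxb]; exact hpq))
          have h3 : low γ (E b) p q := low_le.2 ((hG.le x b hxb le_rfl).2 hxb) hpq
          have h4 : F' b (newρ γ ρ p) (newρ γ ρ q) :=
            (low_eq hC hG haa hab le_rfl le_rfl p q).1 h3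
          have h5 := hB.inf hya hy hab hbb h2 h4
          exact (low_eq hC hG haa (le_inf hya hab) inf_le_right
            (hFle (le_inf hya hab) hab hbb inf_le_right) p q).2 h5
        rw [low_le, hG.le x _ hxb inf_le_right] at h1
        exact h1.trans inf_le_left
      · intro h p q hpq
        have hz1 : x ⊔ a' ≤ b := sup_le hxb hab
        have hz2 : x ⊔ a' ≤ y := sup_le h hya
        rw [newE_low hxb] at hpq
        have h1 : low γ (E (x ⊔ a')) p q := low_le.2 ((hG.le _ _ hxb hz1).2 le_sup_left) hpq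
        have h2 : F' (x ⊔ a') (newρ γ ρ p) (newρ γ ρ q) :=
          (low_eq hC hG haa le_sup_right hz1 (hFle le_sup_right hab hbb hz1) p q).1 h1
        exact (newE_high hC hG hB haa hab hbb hya hy p q).2 (hFle le_sup_right hya hy hz2 h2)
  · have hxa : a' ≤ x := (hcov x hx).resolve_left hxb
    constructor
    · intro h
      have key : ∀ z, a' ≤ z → z ≤ b' → newE γ ρ E F' b x ≤ newE γ ρ E F' b z → x ≤ z := by
        intro z hz hz' hle
        refine (hB.le x z hxa hx hz hz').1 ?_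
        intro p q hpq
        obtain ⟨p', rfl⟩ := newρ_surj (Y := Y) (ρ := ρ) (γ := γ) hG p
        obtain ⟨q', rfl⟩ := newρ_surj (Y := Y) (ρ := ρ) (γ := γ) hG q
        exact (newE_high hC hG hB haa hab hbb hz hz' p' q').1
          (hle ((newE_high hC hG hB haa hab hbb hxa hx p' q').2 hpq))
      by_cases hyb : y ≤ b
      · exfalso
        apply hxb
        refine key b hab hbb (h.trans ?_)
        rw [newE_low hyb, newE_low le_rfl, low_le, hG.le y b hyb le_rfl]
        exact hyb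
      · exact key y ((hcov y hy).resolve_left hyb) hy h
    · intro h p q hpq
      have hya : a' ≤ y := hxa.trans h
      exact (newE_high hC hG hB haa hab hbb hya hy p q).2
        (hFle hxa hya hy h ((newE_high hC hG hB haa hab hbb hxa hx p q).1 hpq))

omit [Nonempty T] in
include hC hG hB haa hab hbb in
/-- A criterion for maps of the new carrier. -/
theorem keeps_new (f : NewY Y γ → NewY Y γ) (m : X' → X')
    (hm : ∀ x, a' ≤ x → x ≤ b' → Keeps m (F' x))
    (hf : ∀ y, newρ γ ρ (f y) = m (newρ γ ρ y))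
    (hf' : ∀ t, (∃ c, ∀ y, f (Sum.inl (t, y)) = c) ∨
      ∃ t' h, (∀ x, x ≤ b → Keeps h (E x)) ∧ ∀ y, f (Sum.inl (t, y)) = Sum.inl (t', h y))
    (hcov : ∀ x, x ≤ b' → x ≤ b ∨ a' ≤ x) (x : L) (hx : x ≤ b') :
    Keeps f (newE γ ρ E F' b x) := by
  intro p q hpq
  by_cases hxb : x ≤ b
  · rw [newE_low hxb] at hpq ⊢
    rcases p with ⟨t, y⟩ | p <;> rcases q with ⟨t', y'⟩ | q
    · obtain ⟨h1, h2⟩ := low_inl.1 hpq
      subst h1
      rcases hf' t with ⟨c, hc⟩ | ⟨t', h, hh, hc⟩
      · rw [hc, hc]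
      · rw [hc, hc]
        exact ⟨rfl, hh x hxb _ _ h2⟩
    · exact absurd hpq id
    · exact absurd hpq id
    · have h : p = q := hpq
      subst h
      exact Setoid.refl' _ _
  · have hxa : a' ≤ x := (hcov x hx).resolve_left hxb
    rw [newE_high hC hG hB haa hab hbb hxa hx] at hpq ⊢
    rw [hf, hf]
    exact hm x hxa hx _ _ hpq

omit [Nonempty T] in
include hC hG in
/-- The local lifts. -/
theorem local_lift (m : X' → X') (hm : m ∈ M') (t : T) :
    ∃ g : Y → NewY Y γ, (∀ y, newρ γ ρ (g y) = m (γ t (ρ y))) ∧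
      ((∃ c, ∀ y, g y = c) ∨
        ∃ t' h, (∀ x, x ≤ b → Keeps h (E x)) ∧ ∀ y, g y = Sum.inl (t', h y)) := by
  rcases hC.down m hm t with ⟨c, hc⟩ | ⟨t', h, hh, hc⟩
  · obtain ⟨z, hz⟩ := newρ_surj (Y := Y) (ρ := ρ) (γ := γ) hG c
    exact ⟨fun _ => z, fun y => by rw [hz, hc], Or.inl ⟨z, fun _ => rfl⟩⟩
  · obtain ⟨f, hf1, hf2⟩ := hG.lift h hh
    refine ⟨fun y => Sum.inl (t', f y), fun y => ?_, Or.inr ⟨t', f, hf1, fun _ => rfl⟩⟩
    show γ t' (ρ (f y)) = _
    rw [hf2, hc]

omit [Nonempty T] in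
include hC hG hB haa hab hbb in
/-- Lifts with a prescribed value on one sheet. -/
theorem lift_at (hcov : ∀ x, x ≤ b' → x ≤ b ∨ a' ≤ x) (m : X' → X') (hm : m ∈ M') (t0 : T)
    (g0 : Y → NewY Y γ) (hg0 : ∀ y, newρ γ ρ (g0 y) = m (γ t0 (ρ y)))
    (hg0' : (∃ c, ∀ y, g0 y = c) ∨
        ∃ t' h, (∀ x, x ≤ b → Keeps h (E x)) ∧ ∀ y, g0 y = Sum.inl (t', h y)) :
    ∃ f : NewY Y γ → NewY Y γ, (∀ x, x ≤ b' → Keeps f (newE γ ρ E F' b x)) ∧
      (∀ y, newρ γ ρ (f y) = m (newρ γ ρ y)) ∧ ∀ y, f (Sum.inl (t0, y)) = g0 y := by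
  classical
  have h1 : ∀ t, ∃ g : Y → NewY Y γ, (∀ y, newρ γ ρ (g y) = m (γ t (ρ y))) ∧
      ((∃ c, ∀ y, g y = c) ∨
        ∃ t' h, (∀ x, x ≤ b → Keeps h (E x)) ∧ ∀ y, g y = Sum.inl (t', h y)) ∧
      (t = t0 → g = g0) := by
    intro t
    by_cases ht : t = t0
    · subst ht
      exact ⟨g0, hg0, hg0', fun _ => rfl⟩
    · obtain ⟨g, hg, hg'⟩ := local_lift hC hG m hm t
      exact ⟨g, hg, hg', fun h => absurd h ht⟩
  choose g hg hg' hg'' using h1
  choose z hz using fun q : {q : X' // ∀ t s, γ t s ≠ q} =>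
    newρ_surj (Y := Y) (ρ := ρ) (γ := γ) hG (m q.1)
  let f : NewY Y γ → NewY Y γ := Sum.elim (fun p => g p.1 p.2) z
  have hf : ∀ y, newρ γ ρ (f y) = m (newρ γ ρ y) := by
    intro y
    rcases y with ⟨t, y⟩ | q
    · exact hg t y
    · exact hz q
  refine ⟨f, ?_, hf, ?_⟩
  · exact fun x hx => keeps_new hC hG hB haa hab hbb f m
      (fun x hx hx' => hB.keep x hx hx' m hm) hf hg' hcov x hx
  · intro y
    show g t0 y = g0 y
    rw [hg'' t0 rfl]

omit [Nonempty T] in
include hC hG hB haa hab hbb in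
/-- Maps of the new carrier which become constant. -/
theorem const_at (hcov : ∀ x, x ≤ b' → x ≤ b ∨ a' ≤ x) (c : X')
    (f : NewY Y γ → NewY Y γ) (hf : ∀ y, newρ γ ρ (f y) = c)
    (hf' : ∀ t, (∃ c, ∀ y, f (Sum.inl (t, y)) = c) ∨
      ∃ t' h, (∀ x, x ≤ b → Keeps h (E x)) ∧ ∀ y, f (Sum.inl (t, y)) = Sum.inl (t', h y)) :
    f ∈ Nmaps M' (newE γ ρ E F' b) (newρ γ ρ) b' := by
  refine ⟨fun x hx => keeps_new hC hG hB haa hab hbb f (fun _ => c)
    (fun x _ _ p q _ => Setoid.refl' _ _) hf hf' hcov x hx, Or.inr ⟨c, hf⟩⟩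

include hC hG hB haa hab hbb in
theorem newE_full (hcov : ∀ x, x ≤ b' → x ≤ b ∨ a' ≤ x) (r : Setoid (NewY Y γ))
    (hr : ∀ f ∈ Nmaps M' (newE γ ρ E F' b) (newρ γ ρ) b', Keeps f r) :
    ∃ x, x ≤ b' ∧ newE γ ρ E F' b x = r := by
  classical
  by_cases hA : r ≤ low γ (E b)
  · -- the relation lives on the sheets
    let rt : T → Setoid Y := fun t => r.comap (fun y => (Sum.inl (t, y) : NewY Y γ))
    have h1 : ∀ t, ∃ x, x ≤ b ∧ E x = rt t := by
      intro t
      apply hG.full
      rintro f ⟨hf1, hf2⟩ y y' hyy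
      have key : ∃ f' ∈ Nmaps M' (newE γ ρ E F' b) (newρ γ ρ) b',
          ∀ y, f' (Sum.inl (t, y)) = Sum.inl (t, f y) := by
        have hconst : ∀ c, (∀ y, γ t (ρ (f y)) = c) →
            ∃ f' ∈ Nmaps M' (newE γ ρ E F' b) (newρ γ ρ) b',
              ∀ y, f' (Sum.inl (t, y)) = Sum.inl (t, f y) := by
          intro c hc
          have z0 : NewY Y γ := Sum.inl (t, f y)
          refine ⟨fun z => match z with
            | Sum.inl p => if p.1 = t then Sum.inl (t, f p.2) else Sum.inl (t, f y)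
            | Sum.inr _ => Sum.inl (t, f y), const_at hC hG hB haa hab hbb hcov c _ ?_ ?_, ?_⟩
          · intro z
            rcases z with ⟨t', z⟩ | z
            · by_cases ht : t' = t
              · simp only [ht, if_true]
                exact hc z
              · simp only [ht, if_false]
                exact hc y
            · exact hc y
          · intro t'
            by_cases ht : t' = t
            · right
              refine ⟨t, f, hf1, fun y => ?_⟩
              simp only [ht, if_true]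
            · left
              refine ⟨Sum.inl (t, f y), fun z => ?_⟩
              simp only [ht, if_false]
          · intro z
            simp only [if_true]
        rcases hf2 with ⟨h, hh, hfh⟩ | ⟨c, hc⟩
        · rcases hC.up h hh t with ⟨c, hc⟩ | ⟨m, hm, hmt⟩
          · exact hconst c (fun y => by rw [hfh, hc])
          · obtain ⟨f', hf'1, hf'2, hf'3⟩ := lift_at hC hG hB haa hab hbb hcov m hm t
              (fun y => Sum.inl (t, f y)) (fun y => by
                show γ t (ρ (f y)) = _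
                rw [hfh, hmt]) (Or.inr ⟨t, f, hf1, fun _ => rfl⟩)
            exact ⟨f', ⟨hf'1, Or.inl ⟨m, hm, hf'2⟩⟩, hf'3⟩
        · exact hconst (γ t c) (fun y => by rw [hc])
      obtain ⟨f', hf', hf't⟩ := key
      have := hr f' hf' _ _ hyy
      rw [hf't, hf't] at this
      exact this
    choose x hx1 hx2 using h1
    have h2 : ∀ t t', rt t ≤ rt t' := by
      intro t t' y y' hyy
      obtain ⟨m, hm, hmt⟩ := hC.move t t'
      obtain ⟨f', hf'1, hf'2, hf'3⟩ := lift_at hC hG hB haa hab hbb hcov m hm t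
        (fun y => Sum.inl (t', y)) (fun y => by
          show γ t' (ρ y) = _
          rw [hmt]) (Or.inr ⟨t', id, fun x _ p q h => h, fun _ => rfl⟩)
      have := hr f' ⟨hf'1, Or.inl ⟨m, hm, hf'2⟩⟩ _ _ hyy
      rw [hf'3, hf'3] at this
      exact this
    let t0 : T := Classical.arbitrary T
    refine ⟨x t0, (hx1 t0).trans hbb, ?_⟩
    rw [newE_low (hx1 t0)]
    apply le_antisymm
    · intro p q hpq
      rcases p with ⟨t, y⟩ | p <;> rcases q with ⟨t', y'⟩ | q
      · obtain ⟨h3, h4⟩ := low_inl.1 hpq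
        subst h3
        rw [hx2] at h4
        exact h2 t0 t h4
      · exact absurd hpq id
      · exact absurd hpq id
      · have h : p = q := hpq
        subst h
        exact Setoid.refl' _ _
    · intro p q hpq
      have h3 := hA hpq
      rcases p with ⟨t, y⟩ | p <;> rcases q with ⟨t', y'⟩ | q
      · obtain ⟨h4, _⟩ := low_inl.1 h3
        subst h4
        refine ⟨rfl, ?_⟩
        rw [hx2]
        exact h2 t t0 hpq
      · exact absurd h3 id
      · exact absurd h3 id
      · exact h3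
  · -- the relation contains the kernel of the projection
    obtain ⟨p, q, hpq, hnpq⟩ : ∃ p q, r p q ∧ ¬ low γ (E b) p q := by
      by_contra hcon
      push Not at hcon
      exact hA (fun {p q} h => hcon p q h)
    have hker : ∀ z w, newρ γ ρ z = newρ γ ρ w → r z w := by
      intro z w hzw
      let f : NewY Y γ → NewY Y γ := fun v => if low γ (E b) v p then z else w
      have hf : f ∈ Nmaps M' (newE γ ρ E F' b) (newρ γ ρ) b' := by
        refine const_at hC hG hB haa hab hbb hcov (newρ γ ρ w) f ?_ ?_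
        · intro v
          by_cases hv : low γ (E b) v p
          · simp only [f, hv, if_true]
            exact hzw
          · simp only [f, hv, if_false]
        · intro t
          left
          -- constant on sheets
          by_cases ht : ∃ y, low γ (E b) (Sum.inl (t, y)) p
          · refine ⟨z, fun y => ?_⟩
            obtain ⟨y0, hy0⟩ := ht
            have : low γ (E b) (Sum.inl (t, y)) p := by
              refine Setoid.trans' _ ?_ hy0
              exact ⟨rfl, hG.top y y0⟩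
            simp only [f, this, if_true]
          · refine ⟨w, fun y => ?_⟩
            have : ¬ low γ (E b) (Sum.inl (t, y)) p := fun h => ht ⟨y, h⟩
            simp only [f, this, if_false]
      have h1 := hr f hf p q hpq
      have h2 : f p = z := by
        have : low γ (E b) p p := Setoid.refl' _ _
        simp only [f, this, if_true]
      have h3 : f q = w := by
        have : ¬ low γ (E b) q p := fun h => hnpq (Setoid.symm' _ h)
        simp only [f, this, if_false]
      rw [h2, h3] at h1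
      exact h1
    let s : X' → NewY Y γ := Function.surjInv (newρ_surj (Y := Y) (ρ := ρ) (γ := γ) hG)
    have hs : ∀ q, newρ γ ρ (s q) = q := Function.surjInv_eq _
    have hrs : ∀ z, r z (s (newρ γ ρ z)) := fun z => hker _ _ (hs _).symm
    obtain ⟨x, hx1, hx2, hx3⟩ := hB.full (r.comap s) (by
      intro m hm u v huv
      obtain ⟨g, hg, hg'⟩ := local_lift hC hG m hm (Classical.arbitrary T)
      obtain ⟨f, hf1, hf2, _⟩ := lift_at hC hG hB haa hab hbb hcov m hm (Classical.arbitrary T)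
        g hg hg'
      have h1 : r (f (s u)) (f (s v)) := hr f ⟨hf1, Or.inl ⟨m, hm, hf2⟩⟩ _ _ huv
      have h2 : r (f (s u)) (s (m u)) := hker _ _ (by rw [hf2, hs, hs])
      have h3 : r (f (s v)) (s (m v)) := hker _ _ (by rw [hf2, hs, hs])
      exact r.trans' (r.trans' (r.symm' h2) h1) h3)
    refine ⟨x, hx2, ?_⟩
    ext z w
    rw [newE_high hC hG hB haa hab hbb hx1 hx2, hx3]
    show r (s _) (s _) ↔ r z w
    constructor
    · intro h
      exact Setoid.trans' _ (Setoid.trans' _ (hrs z) h) (Setoid.symm' _ (hrs w))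
    · intro h
      exact Setoid.trans' _ (Setoid.trans' _ (Setoid.symm' _ (hrs z)) h) (hrs w)

include hC hG hB haa hab hbb in
theorem newE_good (hcov : ∀ x, x ≤ b' → x ≤ b ∨ a' ≤ x) :
    UGood M' F' a' b' (newE γ ρ E F' b) (newρ γ ρ) where
  surj := newρ_surj hG
  le := fun x y hx hy => newE_le hC hG hB haa hab hbb hcov x y hx hy
  rel := fun x hx hx' p q => newE_high hC hG hB haa hab hbb hx hx' p q
  lift := by
    intro m hm
    obtain ⟨g, hg, hg'⟩ := local_lift hC hG m hm (Classical.arbitrary T)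
    obtain ⟨f, hf1, hf2, _⟩ := lift_at hC hG hB haa hab hbb hcov m hm (Classical.arbitrary T)
      g hg hg'
    exact ⟨f, hf1, hf2⟩
  full := fun r hr => newE_full hC hG hB haa hab hbb hcov r hr

end Step

/-- Gluing data between `(X, M, F)` and `(X', M', F')` over the interval `[u, v]`. -/
def Glues {L X X' : Type} [Lattice L] (M : Set (X → X)) (F : L → Setoid X)
    (M' : Set (X' → X')) (F' : L → Setoid X') (u v : L) : Prop :=
  ∃ (T : Type) (_ : Nonempty T) (γ : T → X → X'), Charts M F M' F' u v T γ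

section Main

variable {L : Type} [Lattice L] {n : ℕ} {a b : Fin (n + 1) → L}
  {X : Fin (n + 1) → Type} [∀ i, Finite (X i)] [∀ i, Nonempty (X i)]
  {M : ∀ i, Set (X i → X i)} {F : ∀ i, L → Setoid (X i)}

theorem good_ind (ha : Monotone a) (hb : Monotone b) (h0 : ∀ x, a 0 ≤ x)
    (hab : ∀ i : Fin n, a i.succ ≤ b i.castSucc)
    (hcov : ∀ x, ∃ i, a i ≤ x ∧ x ≤ b i)
    (hB : ∀ i, UBlock (M i) (F i) (a i) (b i))
    (hgl : ∀ i : Fin n, Glues (M i.castSucc) (F i.castSucc) (M i.succ) (F i.succ) (a i.succ)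
      (b i.castSucc)) (k : Fin (n + 1)) :
    ∃ (Y : Type) (_ : Finite Y) (_ : Nonempty Y) (E : L → Setoid Y) (ρ : Y → X k),
      UGood (M k) (F k) (a k) (b k) E ρ := by
  induction k using Fin.induction with
  | zero =>
    refine ⟨X 0, inferInstance, inferInstance, F 0, id, ?_⟩
    refine ⟨fun x => ⟨x, rfl⟩, fun x y hx hy => (hB 0).le x y (h0 x) hx (h0 y) hy,
      fun x _ _ p q => Iff.rfl, fun m hm => ⟨m, fun x hx => (hB 0).keep x (h0 x) hx m hm,
        fun y => rfl⟩, ?_⟩
    intro r hr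
    obtain ⟨x, _, hx2, hx3⟩ := (hB 0).full r (fun m hm => hr m
      ⟨fun x hx => (hB 0).keep x (h0 x) hx m hm, Or.inl ⟨m, hm, fun y => rfl⟩⟩)
    exact ⟨x, hx2, hx3⟩
  | succ i ih =>
    obtain ⟨Y, iY, iY', E, ρ, hG⟩ := ih
    obtain ⟨T, iT, γ, hC⟩ := hgl i
    have hle : i.castSucc ≤ i.succ := (Fin.castSucc_lt_succ).le
    have hcov' : ∀ x, x ≤ b i.succ → x ≤ b i.castSucc ∨ a i.succ ≤ x := by
      intro x _
      obtain ⟨j, hj1, hj2⟩ := hcov x
      rcases le_or_gt j i.castSucc with h | h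
      · exact Or.inl (hj2.trans (hb h))
      · exact Or.inr ((ha (Fin.castSucc_lt_iff_succ_le.1 h)).trans hj1)
    have : Finite T := by
      have s0 : X i.castSucc := Classical.arbitrary _
      refine Finite.of_injective (fun t => γ t s0) ?_
      intro t t' h
      exact hC.disj t t' s0 s0 (by
        have h' : γ t s0 = γ t' s0 := h
        rw [h'])
    have hnY : Nonempty (NewY Y γ) := ⟨Sum.inl (Classical.arbitrary T, Classical.arbitrary Y)⟩
    exact ⟨NewY Y γ, inferInstance, hnY, newE γ ρ E (F i.succ) (b i.castSucc), newρ γ ρ,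
      newE_good hC hG (hB i.succ) (ha hle) (hab i) (hb hle) hcov'⟩

/-- **The ladder theorem for unary algebras.** -/
theorem alg_ladder (ha : Monotone a) (hb : Monotone b)
    (hab : ∀ i : Fin n, a i.succ ≤ b i.castSucc)
    (hcov : ∀ x, ∃ i, a i ≤ x ∧ x ≤ b i)
    (hB : ∀ i, UBlock (M i) (F i) (a i) (b i))
    (hgl : ∀ i : Fin n, Glues (M i.castSucc) (F i.castSucc) (M i.succ) (F i.succ) (a i.succ)
      (b i.castSucc)) : Representable L := by
  classical
  have h0 : ∀ x, a 0 ≤ x := by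
    intro x
    obtain ⟨i, h1, _⟩ := hcov x
    exact (ha (Fin.zero_le _)).trans h1
  have h1 : ∀ x, x ≤ b (Fin.last n) := by
    intro x
    obtain ⟨i, _, h2⟩ := hcov x
    exact h2.trans (hb (Fin.le_last _))
  obtain ⟨Y, iY, iY', E, ρ, hG⟩ := good_ind ha hb h0 hab hcov hB hgl (Fin.last n)
  let N : Set (Y → Y) := Nmaps (M (Fin.last n)) E ρ (b (Fin.last n))
  let A : FiniteAlgebra :=
    { carrier := Y
      index := N
      arity := fun _ => 1
      op := fun f x => f.1 (x 0)
      finite_carrier := iY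
      nonempty_carrier := iY'
      finite_index := inferInstance }
  have hcon : ∀ r : Setoid Y, A.IsCongruence r ↔ ∀ f ∈ N, Keeps f r := by
    intro r
    constructor
    · intro h f hf x y hxy
      exact h ⟨f, hf⟩ (fun _ => x) (fun _ => y) (fun _ => hxy)
    · intro h f x y hxy
      exact h f.1 f.2 _ _ (hxy 0)
  let ψ : L → A.Con := fun x => ⟨E x, (hcon _).2 (fun f hf => hf.1 x (h1 x))⟩
  have hψ : ∀ x y, ψ x ≤ ψ y ↔ x ≤ y := fun x y => hG.le x y (h1 x) (h1 y)
  have hψi : Function.Injective ψ := fun x y h =>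
    le_antisymm ((hψ x y).1 h.le) ((hψ y x).1 h.ge)
  have hψs : Function.Surjective ψ := by
    rintro ⟨r, hr⟩
    obtain ⟨x, _, hx⟩ := hG.full r ((hcon r).1 hr)
    exact ⟨x, Subtype.ext hx⟩
  exact ⟨A, ⟨{ Equiv.ofBijective ψ ⟨hψi, hψs⟩ with map_rel_iff' := fun {x y} => hψ x y }⟩⟩

end Main

end Vale.Agent.P183.R2.H139
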