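import Vale.Agent.P183.R2.H139.Semi
import Mathlib.RingTheory.SimpleModule.Basic
import Mathlib.FieldTheory.Finite.GaloisField
import Mathlib.LinearAlgebra.Quotient.Basic

/-!
# Ladders of submodule lattices
-/

namespace Vale.Agent.P183.R2.H139

open Vale.Agent.P183 Vale.Agent.P183.R2.H332

/-- affine maps of a module -/
def affM (R M : Type) [CommRing R] [AddCommGroup M] [Module R M] : Set (M → M) :=
  {m | ∃ (r : R) (s : M), m = fun x => r • x + s}

/-- the equivalence relation of a submodule -/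
def relN {R M : Type} [CommRing R] [AddCommGroup M] [Module R M] (N : Submodule R M) :
    Setoid M where
  r x y := x - y ∈ N
  iseqv := {
    refl := fun x => by simp
    symm := fun {x y} h => by
      have := N.neg_mem h
      simpa using this
    trans := fun {x y z} h h' => by
      have := N.add_mem h h'
      simpa using this }

theorem relN_iff {R M : Type} [CommRing R] [AddCommGroup M] [Module R M] {N : Submodule R M}
    {x y : M} : relN N x y ↔ x - y ∈ N := Iff.rfl

/-- congruences of the affine maps are submodules -/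
def subIso (R M : Type) [CommRing R] [AddCommGroup M] [Module R M] :
    Submodule R M ≃o {r : Setoid M // ∀ m ∈ affM R M, Keeps m r} where
  toFun N := ⟨relN N, by
    rintro m ⟨r, s, rfl⟩ x y h
    have h' : x - y ∈ N := h
    show (r • x + s) - (r • y + s) ∈ N
    have h2 : (r • x + s) - (r • y + s) = r • (x - y) := by
      rw [smul_sub]; abel
    rw [h2]
    exact N.smul_mem r h'⟩
  invFun r :=
    { carrier := {x | r.1 x 0}
      zero_mem' := Setoid.refl' _ _
      add_mem' := by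
        intro x y hx hy
        have h1 : r.1 ((1 : R) • x + y) ((1 : R) • 0 + y) := r.2 _ ⟨1, y, rfl⟩ _ _ hx
        have h2 : r.1 (x + y) y := by simpa using h1
        exact Setoid.trans' _ h2 hy
      smul_mem' := by
        intro c x hx
        have h1 : r.1 (c • x + 0) (c • 0 + 0) := r.2 _ ⟨c, 0, rfl⟩ _ _ hx
        simpa using h1 }
  left_inv N := by
    ext x
    show x - 0 ∈ N ↔ x ∈ N
    rw [sub_zero]
  right_inv r := by
    apply Subtype.ext
    ext x y
    show r.1 (x - y) 0 ↔ r.1 x y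
    constructor
    · intro h
      have h1 : r.1 ((1 : R) • (x - y) + y) ((1 : R) • 0 + y) := r.2 _ ⟨1, y, rfl⟩ _ _ h
      simpa using h1
    · intro h
      have h1 : r.1 ((1 : R) • x + (-y)) ((1 : R) • y + (-y)) := r.2 _ ⟨1, -y, rfl⟩ _ _ h
      simpa [sub_eq_add_neg] using h1
  map_rel_iff' := by
    intro N N'
    constructor
    · intro h x hx
      have h1 : relN N' x 0 := h (show relN N x 0 by rw [relN_iff, sub_zero]; exact hx)
      rw [relN_iff, sub_zero] at h1
      exact h1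
    · intro h x y hxy
      exact h hxy

theorem topT_mod {R M : Type} [CommRing R] [AddCommGroup M] [Module R M] {N : Submodule R M}
    {I : Ideal R} (e : (M ⧸ N) ≃ₗ[R] R ⧸ I) {K : Type} [CommRing K] (φ : (R ⧸ I) ≃+* K) :
    TopT (affM R M) (relN N) K (affM K K) := by
  have hπ : ∀ (r : R) (x : M), φ (e (N.mkQ (r • x))) = φ (Ideal.Quotient.mk I r) * φ (e (N.mkQ x)) := by
    intro r x
    rw [map_smul, map_smul, ← map_mul]
    rfl
  refine ⟨fun x => φ (e (N.mkQ x)), ?_, ?_, ?_, ?_⟩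
  · intro y
    obtain ⟨x, hx⟩ := N.mkQ_surjective (e.symm (φ.symm y))
    exact ⟨x, by simp only [hx]; simp⟩
  · intro p q
    rw [relN_iff]
    simp only [EmbeddingLike.apply_eq_iff_eq]
    rw [Submodule.mkQ_apply, Submodule.mkQ_apply, Submodule.Quotient.eq]
  · rintro m ⟨r, s, rfl⟩
    left
    refine ⟨_, ⟨φ (Ideal.Quotient.mk I r), φ (e (N.mkQ s)), rfl⟩, fun x => ?_⟩
    show φ (e (N.mkQ (r • x + s))) = _
    rw [map_add, map_add, map_add, hπ]
    rfl
  · rintro m ⟨u, v, rfl⟩
    obtain ⟨r, hr⟩ := Ideal.Quotient.mk_surjective (φ.symm u)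
    obtain ⟨s, hs⟩ := N.mkQ_surjective (e.symm (φ.symm v))
    refine ⟨_, ⟨r, s, rfl⟩, fun x => ?_⟩
    show φ (e (N.mkQ (r • x + s))) = _
    rw [map_add, map_add, map_add, hπ, hr, hs]
    simp

theorem botT_mod {R M : Type} [CommRing R] [AddCommGroup M] [Module R M] {S : Submodule R M}
    {I : Ideal R} (e : S ≃ₗ[R] R ⧸ I) {K : Type} [CommRing K] (φ : (R ⧸ I) ≃+* K) :
    BotT (affM R M) (relN S) K (affM K K) := by
  let j : K → M := fun y => (e.symm (φ.symm y) : M)
  have hj : ∀ y, j y ∈ S := fun y => (e.symm (φ.symm y)).2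
  have hj' : ∀ s ∈ S, ∃ y, j y = s := fun s hs => ⟨φ (e ⟨s, hs⟩), by simp [j]⟩
  have hinj : Function.Injective j := by
    intro y y' h
    have h1 : e.symm (φ.symm y) = e.symm (φ.symm y') := Subtype.ext h
    simpa using h1
  have hadd : ∀ y y', j (y + y') = j y + j y' := by
    intro y y'
    simp [j]
  have hmul : ∀ (r : R) (y : K), j (φ (Ideal.Quotient.mk I r) * y) = r • j y := by
    intro r y
    show ((e.symm (φ.symm (φ (Ideal.Quotient.mk I r) * y)) : S) : M) = _
    rw [map_mul, RingEquiv.symm_apply_apply]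
    have : (Ideal.Quotient.mk I r) * φ.symm y = r • φ.symm y := rfl
    rw [this, map_smul]
    rfl
  let o : (M ⧸ S) → M := fun t => (S.mkQ_surjective t).choose
  have ho : ∀ t, S.mkQ (o t) = t := fun t => (S.mkQ_surjective t).choose_spec
  have hmk : ∀ x y : M, S.mkQ x = S.mkQ y ↔ x - y ∈ S := by
    intro x y
    rw [Submodule.mkQ_apply, Submodule.mkQ_apply, Submodule.Quotient.eq]
  have hoS : ∀ x, x - o (S.mkQ x) ∈ S := fun x => (hmk _ _).1 (ho _).symm
  refine ⟨M ⧸ S, ⟨0⟩, fun t y => o t + j y, ?_, ?_, ?_, ?_, ?_, ?_, ?_, ?_⟩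
  · intro t y y' h
    exact hinj (add_left_cancel h)
  · intro t y y'
    rw [relN_iff, add_sub_add_left_eq_sub]
    exact S.sub_mem (hj _) (hj _)
  · intro t t' y y' h
    rw [relN_iff, ← hmk, map_add, map_add, ho, ho] at h
    have h1 : ∀ y, S.mkQ (j y) = 0 := fun y => by
      rw [Submodule.mkQ_apply, Submodule.Quotient.mk_eq_zero]
      exact hj y
    rwa [h1, h1, add_zero, add_zero] at h
  · intro t y q h
    rw [relN_iff] at h
    obtain ⟨y', hy'⟩ := hj' (q - o t) (by
      have h2 := S.sub_mem (hj y) h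
      have h3 : j y - (o t + j y - q) = q - o t := by abel
      rwa [h3] at h2)
    exact ⟨y', by show o t + j y' = q; rw [hy']; abel⟩
  · intro p q _ _
    obtain ⟨y, hy⟩ := hj' _ (hoS p)
    exact ⟨S.mkQ p, y, by show o (S.mkQ p) + j y = p; rw [hy]; abel⟩
  · intro t t'
    refine ⟨_, ⟨1, o t' - o t, rfl⟩, fun y => ?_⟩
    show (1 : R) • (o t + j y) + (o t' - o t) = o t' + j y
    rw [one_smul]
    abel
  · rintro m ⟨r, s, rfl⟩ t
    right
    obtain ⟨y0, hy0⟩ := hj' _ (hoS (r • o t + s))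
    refine ⟨S.mkQ (r • o t + s), _, ⟨φ (Ideal.Quotient.mk I r), y0, rfl⟩, fun y => ?_⟩
    show r • (o t + j y) + s = o _ + j (φ (Ideal.Quotient.mk I r) * y + y0)
    rw [hadd, hmul, hy0, smul_add]
    abel
  · rintro m ⟨u, v, rfl⟩ t
    obtain ⟨r, hr⟩ := Ideal.Quotient.mk_surjective (φ.symm u)
    refine ⟨_, ⟨r, o t - r • o t + j v, rfl⟩, fun y => ?_⟩
    show r • (o t + j y) + (o t - r • o t + j v) = o t + j (u * y + v)
    have hu : u = φ (Ideal.Quotient.mk I r) := by rw [hr]; simp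
    rw [hadd, hu, hmul, smul_add]
    abel

/-- Ladders over edges, types depending on the edge. -/
theorem edge_types_ladder {L : Type} [Lattice L] {n : ℕ} {a b : Fin (n + 1) → L}
    (ha : Monotone a) (hb : Monotone b) (hab : ∀ i : Fin n, a i.succ ⋖ b i.castSucc)
    (hcov : ∀ x, ∃ i, a i ≤ x ∧ x ≤ b i) (X : Fin (n + 1) → Type) [∀ i, Finite (X i)]
    [∀ i, Nonempty (X i)] (M : ∀ i, Set (X i → X i)) (F : ∀ i, L → Setoid (X i))
    (hB : ∀ i, UBlock (M i) (F i) (a i) (b i))
    (hE : ∀ i : Fin n, ∃ (B : Type) (N : Set (B → B)),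
      TopT (M i.castSucc) (F i.castSucc (a i.succ)) B N ∧
      BotT (M i.succ) (F i.succ (b i.castSucc)) B N) : Representable L := by
  refine alg_ladder (X := X) (M := M) (F := F) ha hb (fun i => (hab i).le) hcov hB ?_
  intro i
  obtain ⟨B, N, h1, h2⟩ := hE i
  exact glues_of_types (hB i.castSucc) (hB i.succ) (hab i) h1 h2

theorem exists_top_mod {R M : Type} [CommRing R] [AddCommGroup M] [Module R M]
    {N : Submodule R M} (hN : IsCoatom N) :
    ∃ I : Ideal R, I.IsMaximal ∧ Nonempty ((M ⧸ N) ≃ₗ[R] R ⧸ I) := by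
  have := isSimpleModule_iff_isCoatom.2 hN
  exact isSimpleModule_iff_quot_maximal.1 this

theorem exists_bot_mod {R M : Type} [CommRing R] [AddCommGroup M] [Module R M]
    {N : Submodule R M} (hN : IsAtom N) :
    ∃ I : Ideal R, I.IsMaximal ∧ Nonempty (N ≃ₗ[R] R ⧸ I) := by
  have := isSimpleModule_iff_isAtom.2 hN
  exact isSimpleModule_iff_quot_maximal.1 this

theorem exists_ringEquiv {R R' : Type} [CommRing R] [CommRing R'] [Finite R] [Finite R']
    {I : Ideal R} {I' : Ideal R'} (h : I.IsMaximal) (h' : I'.IsMaximal)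
    (hc : Nat.card (R ⧸ I) = Nat.card (R' ⧸ I')) : Nonempty ((R ⧸ I) ≃+* (R' ⧸ I')) := by
  classical
  let _ := Ideal.Quotient.field I
  let _ := Ideal.Quotient.field I'
  have : Finite (R ⧸ I) := Quotient.finite _
  have : Finite (R' ⧸ I') := Quotient.finite _
  let _ := Fintype.ofFinite (R ⧸ I)
  let _ := Fintype.ofFinite (R' ⧸ I')
  exact ⟨FiniteField.ringEquivOfCardEq
    (by rw [Fintype.card_eq_nat_card, Fintype.card_eq_nat_card, hc])⟩

/-- **Ladders of submodule lattices.** -/
theorem mod_ladder {L : Type} [Lattice L] {k : ℕ} (S : Ladder L k)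
    (he : ∀ i : Fin k, S.a i.succ ⋖ S.b i.castSucc)
    (R M : Fin (k + 1) → Type) [∀ i, CommRing (R i)] [∀ i, Finite (R i)]
    [∀ i, AddCommGroup (M i)] [∀ i, Module (R i) (M i)] [∀ i, Finite (M i)]
    (f : ∀ i, Set.Icc (S.a i) (S.b i) ≃o Submodule (R i) (M i))
    (hq : ∀ i : Fin k, Nat.card (M i.castSucc ⧸ f i.castSucc
        ⟨S.a i.succ, S.mono_a Fin.castSucc_lt_succ.le, S.overlap i⟩) =
      Nat.card (f i.succ ⟨S.b i.castSucc, S.overlap i, S.mono_b Fin.castSucc_lt_succ.le⟩)) :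
    Representable L := by
  have hF := fun i => ublock_of_iso (M := affM (R i) (M i)) (fun r => Iff.rfl)
    ((f i).trans (subIso (R i) (M i)))
  choose F hB hFv using hF
  have hFv' : ∀ i x (h : x ∈ Set.Icc (S.a i) (S.b i)), F i x = relN (f i ⟨x, h⟩) := hFv
  refine edge_types_ladder S.mono_a S.mono_b he S.cover M (fun i => affM (R i) (M i)) F hB ?_
  intro i
  have hu : S.a i.succ ∈ Set.Icc (S.a i.castSucc) (S.b i.castSucc) :=
    ⟨S.mono_a Fin.castSucc_lt_succ.le, S.overlap i⟩
  have hv : S.b i.castSucc ∈ Set.Icc (S.a i.succ) (S.b i.succ) :=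
    ⟨S.overlap i, S.mono_b Fin.castSucc_lt_succ.le⟩
  have hcoat : IsCoatom (f i.castSucc ⟨S.a i.succ, hu⟩) := by
    have hv1 : S.b i.castSucc ∈ Set.Icc (S.a i.castSucc) (S.b i.castSucc) :=
      ⟨hu.1.trans hu.2, le_rfl⟩
    have htop : f i.castSucc ⟨_, hv1⟩ = ⊤ := by
      apply top_le_iff.1
      rw [← (f i.castSucc).symm_apply_le]
      exact ((f i.castSucc).symm ⊤).2.2
    constructor
    · intro h
      rw [← htop] at h
      exact (he i).lt.ne (congrArg Subtype.val ((f i.castSucc).injective h))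
    · intro Y hY
      have h1 : (⟨S.a i.succ, hu⟩ : Set.Icc (S.a i.castSucc) (S.b i.castSucc)) <
          (f i.castSucc).symm Y := by
        rw [← (f i.castSucc).lt_iff_lt, OrderIso.apply_symm_apply]
        exact hY
      have h2 : ((f i.castSucc).symm Y).1 = S.b i.castSucc := by
        rcases (he i).eq_or_eq h1.le ((f i.castSucc).symm Y).2.2 with h | h
        · exact absurd (Subtype.ext h) h1.ne'
        · exact h
      have h3 : (f i.castSucc).symm Y = ⟨_, hv1⟩ := Subtype.ext h2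
      rw [← (f i.castSucc).apply_symm_apply Y, h3, htop]
  have hatom : IsAtom (f i.succ ⟨S.b i.castSucc, hv⟩) := by
    have hv1 : S.a i.succ ∈ Set.Icc (S.a i.succ) (S.b i.succ) :=
      ⟨le_rfl, hv.1.trans hv.2⟩
    have hbot : f i.succ ⟨_, hv1⟩ = ⊥ := by
      apply le_bot_iff.1
      rw [← (f i.succ).le_symm_apply]
      exact ((f i.succ).symm ⊥).2.1
    constructor
    · intro h
      rw [← hbot] at h
      exact (he i).lt.ne' (congrArg Subtype.val ((f i.succ).injective h))
    · intro Y hY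
      have h1 : (f i.succ).symm Y <
          (⟨S.b i.castSucc, hv⟩ : Set.Icc (S.a i.succ) (S.b i.succ)) := by
        rw [← (f i.succ).lt_iff_lt, OrderIso.apply_symm_apply]
        exact hY
      have h2 : ((f i.succ).symm Y).1 = S.a i.succ := by
        rcases (he i).eq_or_eq ((f i.succ).symm Y).2.1 h1.le with h | h
        · exact h
        · exact absurd (Subtype.ext h) h1.ne
      have h3 : (f i.succ).symm Y = ⟨_, hv1⟩ := Subtype.ext h2
      rw [← (f i.succ).apply_symm_apply Y, h3, hbot]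
  obtain ⟨I, hI, ⟨e⟩⟩ := exists_top_mod hcoat
  obtain ⟨I', hI', ⟨e'⟩⟩ := exists_bot_mod hatom
  obtain ⟨φ⟩ := exists_ringEquiv hI' hI (by
    rw [← Nat.card_congr e.toEquiv, ← Nat.card_congr e'.toEquiv]
    exact (hq i).symm)
  refine ⟨R i.castSucc ⧸ I, affM (R i.castSucc ⧸ I) (R i.castSucc ⧸ I), ?_, ?_⟩
  · rw [hFv' _ _ hu]
    exact topT_mod e (RingEquiv.refl _)
  · rw [hFv' _ _ hv]
    exact botT_mod e' φ

end Vale.Agent.P183.R2.H139
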