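import Vale.Agent.P183.R2.H139.Five
import Vale.Agent.P183.R2.H139.Mod

/-!
# The ladder theorem for algebras, with order isomorphisms; ladders of ordered type
-/

namespace Vale.Agent.P183.R2.H139

open Vale.Agent.P183 Vale.Agent.P183.R2.H332

/-- **The ladder theorem for unary algebras**, with order isomorphisms. -/
theorem glued_ladder {L : Type} [Lattice L] {k : ℕ} (S : Ladder L k) (X : Fin (k + 1) → Type)
    [∀ i, Finite (X i)] [∀ i, Nonempty (X i)] (M : ∀ i, Set (X i → X i))
    (f : ∀ i, Set.Icc (S.a i) (S.b i) ≃o UCon (M i))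
    (h : ∀ i : Fin k, Glued (f i.castSucc) (f i.succ)) : Representable L := by
  have hF := fun i => ublock_of_iso (M := M i) (fun r => Iff.rfl) (f i)
  choose F hB hFv using hF
  refine alg_ladder (X := X) (M := M) (F := F) S.mono_a S.mono_b S.overlap S.cover hB ?_
  intro i
  obtain ⟨hv, T, iT, γ, h1, h2, h3, h4, h5, h6, h7⟩ := h i
  have hFb : F i.succ (S.b i.castSucc) = (f i.succ ⟨_, hv⟩).1 := hFv _ _ hv
  refine ⟨T, iT, γ, ?_, ?_, ?_, ?_, h5, h6, h7⟩
  · intro t x hx hx' p q
    have hx1 : x ∈ Set.Icc (S.a i.castSucc) (S.b i.castSucc) :=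
      ⟨(S.mono_a Fin.castSucc_lt_succ.le).trans hx, hx'⟩
    have hx2 : x ∈ Set.Icc (S.a i.succ) (S.b i.succ) :=
      ⟨hx, hx'.trans (S.mono_b Fin.castSucc_lt_succ.le)⟩
    rw [hFv _ _ hx1, hFv _ _ hx2]
    exact h1 t x hx1 hx2 p q
  · rw [hFb]
    exact h2
  · rw [hFb]
    exact h3
  · rw [hFb]
    exact h4

theorem ladder_le {L : Type} [Lattice L] {k : ℕ} (S : Ladder L k) (i : Fin (k + 1)) :
    S.a i ≤ S.b i := by
  induction i using Fin.cases with
  | zero =>
    obtain ⟨j, h1, h2⟩ := S.cover (S.a 0)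
    rcases Fin.eq_zero_or_eq_succ j with rfl | ⟨l, rfl⟩
    · exact h2
    · have hk : 0 < k := lt_of_le_of_lt (Nat.zero_le _) l.2
      let o : Fin k := ⟨0, hk⟩
      have h3 := S.overlap o
      have h4 : S.a o.castSucc ≤ S.a o.succ := S.mono_a Fin.castSucc_lt_succ.le
      exact h4.trans h3
  | succ i => exact (S.overlap i).trans (S.mono_b Fin.castSucc_lt_succ.le)

/-- **Ladders of blocks of ordered type**, with blocks of at most five elements. -/
theorem order_ladder5 {L : Type} [Lattice L] {k : ℕ} (S : Ladder L k)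
    (he : ∀ i : Fin k, S.a i.succ ⋖ S.b i.castSucc)
    (hB : ∀ i, IsDistr (S.a i) (S.b i) ∨ IsSemiCon (S.a i) (S.b i) ∨ IsPart (S.a i) (S.b i) ∨
      (Set.Icc (S.a i) (S.b i)).encard ≤ 5) :
    Representable L := by
  refine typed_ladder S.mono_a S.mono_b he S.cover Bool {id} ?_
  intro i
  rcases hB i with h | h | h | h
  · exact tblock_dist h _ _
  · exact tblock_semi h _ _
  · exact tblock_part h _ _
  · have hfin : (Set.Icc (S.a i) (S.b i)).Finite := by
      exact Set.finite_of_encard_le_coe (k := 5) h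
    have hc : (Set.Icc (S.a i) (S.b i)).ncard ≤ 5 := by
      rw [← hfin.cast_ncard_eq] at h
      exact_mod_cast h
    exact tblock_five (ladder_le S i) hfin hc _ _

/-- **Ladders of blocks of ordered type.** -/
theorem order_ladder {L : Type} [Lattice L] {k : ℕ} (S : Ladder L k)
    (he : ∀ i : Fin k, S.a i.succ ⋖ S.b i.castSucc)
    (hB : ∀ i, IsDistr (S.a i) (S.b i) ∨ IsSemiCon (S.a i) (S.b i) ∨ IsPart (S.a i) (S.b i)) :
    Representable L := by
  refine order_ladder5 S he (fun i => ?_)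
  rcases hB i with h | h | h
  · exact Or.inl h
  · exact Or.inr (Or.inl h)
  · exact Or.inr (Or.inr (Or.inl h))

end Vale.Agent.P183.R2.H139
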