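import Vale.Agent.P183.Defs
import Mathlib.GroupTheory.GroupAction.Quotient
import Mathlib.Data.Fintype.Pi
import Mathlib.Data.Fintype.Quotient
import Mathlib.Data.Finite.Sum
import Mathlib.Data.Finite.Prod
import Mathlib.Tactic.Group

/-!
# Cutting down an interval of a subgroup lattice by unary operations

`W` finite group, `H ≤ W`, finitely many pairs `(A i, B i)` of subgroups with `H ≤ B i`.  The
ordered set of all subgroups `X ≥ H` with `X ≤ B i` or `A i ≤ X` for every `i` is representable.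
-/

namespace Vale.Agent.P183.R2.H139

open Vale.Agent.P183

section

variable {W : Type} [Group W] (H : Subgroup W) {I : Type} (A B : I → Subgroup W)

/-- the coset lies in `B` -/
def InB (B : Subgroup W) (x : W ⧸ H) : Prop := ∃ w ∈ B, (w : W ⧸ H) = x

theorem inB_mk {H : Subgroup W} {B : Subgroup W} (h : H ≤ B) (w : W) :
    InB H B (w : W ⧸ H) ↔ w ∈ B := by
  constructor
  · rintro ⟨v, hv, hvw⟩
    have h1 : v⁻¹ * w ∈ H := QuotientGroup.eq.1 hvw
    have h2 : v * (v⁻¹ * w) ∈ B := B.mul_mem hv (h h1)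
    simpa using h2
  · intro hw
    exact ⟨w, hw, rfl⟩

open Classical in
/-- the algebra on the cosets of `H` -/
noncomputable def cutAlg [Finite W] [Finite I] : FiniteAlgebra where
  carrier := W ⧸ H
  index := W ⊕ (I × W)
  arity _ := 1
  op i x := match i with
    | Sum.inl g => g • x 0
    | Sum.inr (i, u) => if InB H (B i) (x 0) ∨ u ∉ A i then ((1 : W) : W ⧸ H) else (u : W ⧸ H)
  finite_carrier := Quotient.finite _
  nonempty_carrier := ⟨((1 : W) : W ⧸ H)⟩
  finite_index := inferInstance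

/-- the equivalence relation of a subgroup -/
def relOf (X : Subgroup W) (hX : H ≤ X) : Setoid (W ⧸ H) where
  r x y := ∃ a b : W, (a : W ⧸ H) = x ∧ (b : W ⧸ H) = y ∧ a⁻¹ * b ∈ X
  iseqv := {
    refl := fun x => by
      obtain ⟨a, rfl⟩ := QuotientGroup.mk_surjective x
      exact ⟨a, a, rfl, rfl, by simp⟩
    symm := fun {x y} h => by
      obtain ⟨a, b, h1, h2, h3⟩ := h
      refine ⟨b, a, h2, h1, ?_⟩
      have := X.inv_mem h3
      simpa using this
    trans := fun {x y z} h h' => by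
      obtain ⟨a, b, h1, h2, h3⟩ := h
      obtain ⟨b', c, h1', h2', h3'⟩ := h'
      refine ⟨a, c, h1, h2', ?_⟩
      have h4 : b⁻¹ * b' ∈ H := QuotientGroup.eq.1 (h2.trans h1'.symm)
      have h5 := X.mul_mem (X.mul_mem h3 (hX h4)) h3'
      have h6 : a⁻¹ * b * (b⁻¹ * b') * (b'⁻¹ * c) = a⁻¹ * c := by group
      rwa [h6] at h5 }

theorem relOf_mk {H : Subgroup W} {X : Subgroup W} (hX : H ≤ X) (a b : W) :
    relOf H X hX (a : W ⧸ H) (b : W ⧸ H) ↔ a⁻¹ * b ∈ X := by
  constructor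
  · rintro ⟨a', b', h1, h2, h3⟩
    have h4 : a⁻¹ * a' ∈ H := QuotientGroup.eq.1 h1.symm
    have h5 : b'⁻¹ * b ∈ H := QuotientGroup.eq.1 h2
    have h6 := X.mul_mem (X.mul_mem (hX h4) h3) (hX h5)
    have h7 : a⁻¹ * a' * (a'⁻¹ * b') * (b'⁻¹ * b) = a⁻¹ * b := by group
    rwa [h7] at h6
  · intro h
    exact ⟨a, b, rfl, rfl, h⟩

/-- the subgroup of an invariant equivalence relation -/
def subOf (r : Setoid (W ⧸ H)) (hr : ∀ (g : W) (x y : W ⧸ H), r x y → r (g • x) (g • y)) :
    Subgroup W where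
  carrier := {w | r ((1 : W) : W ⧸ H) (w : W ⧸ H)}
  one_mem' := r.refl _
  mul_mem' := by
    intro a b ha hb
    have h1 := hr a _ _ hb
    have h2 : a • ((1 : W) : W ⧸ H) = (a : W ⧸ H) := by
      show ((a * 1 : W) : W ⧸ H) = _
      rw [mul_one]
    have h3 : a • (b : W ⧸ H) = ((a * b : W) : W ⧸ H) := rfl
    rw [h2, h3] at h1
    exact r.trans ha h1
  inv_mem' := by
    intro a ha
    have h1 := hr a⁻¹ _ _ ha
    have h2 : a⁻¹ • ((1 : W) : W ⧸ H) = ((a⁻¹ : W) : W ⧸ H) := by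
      show ((a⁻¹ * 1 : W) : W ⧸ H) = _
      rw [mul_one]
    have h3 : a⁻¹ • (a : W ⧸ H) = ((1 : W) : W ⧸ H) := by
      show ((a⁻¹ * a : W) : W ⧸ H) = _
      rw [inv_mul_cancel]
    rw [h2, h3] at h1
    exact r.symm h1

theorem mem_subOf {H : Subgroup W} {r : Setoid (W ⧸ H)}
    (hr : ∀ (g : W) (x y : W ⧸ H), r x y → r (g • x) (g • y)) (w : W) :
    w ∈ subOf H r hr ↔ r ((1 : W) : W ⧸ H) (w : W ⧸ H) := Iff.rfl

theorem le_subOf {H : Subgroup W} {r : Setoid (W ⧸ H)}
    (hr : ∀ (g : W) (x y : W ⧸ H), r x y → r (g • x) (g • y)) : H ≤ subOf H r hr := by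
  intro h hh
  rw [mem_subOf]
  have : ((1 : W) : W ⧸ H) = (h : W ⧸ H) := QuotientGroup.eq.2 (by simpa using hh)
  rw [this]

theorem rel_iff {H : Subgroup W} {r : Setoid (W ⧸ H)}
    (hr : ∀ (g : W) (x y : W ⧸ H), r x y → r (g • x) (g • y)) (a b : W) :
    r (a : W ⧸ H) (b : W ⧸ H) ↔ a⁻¹ * b ∈ subOf H r hr := by
  rw [mem_subOf]
  have h2 : a⁻¹ • (a : W ⧸ H) = ((1 : W) : W ⧸ H) := by
    show ((a⁻¹ * a : W) : W ⧸ H) = _
    rw [inv_mul_cancel]
  have h3 : a⁻¹ • (b : W ⧸ H) = ((a⁻¹ * b : W) : W ⧸ H) := rfl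
  have h4 : a • ((1 : W) : W ⧸ H) = (a : W ⧸ H) := by
    show ((a * 1 : W) : W ⧸ H) = _
    rw [mul_one]
  have h5 : a • ((a⁻¹ * b : W) : W ⧸ H) = (b : W ⧸ H) := by
    show ((a * (a⁻¹ * b) : W) : W ⧸ H) = _
    rw [mul_inv_cancel_left]
  constructor
  · intro h
    have := hr a⁻¹ _ _ h
    rwa [h2, h3] at this
  · intro h
    have := hr a _ _ h
    rwa [h4, h5] at this

variable {H A B}

theorem isCong_relOf [Finite W] [Finite I] (hB : ∀ i, H ≤ B i) {X : Subgroup W} (hX : H ≤ X)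
    (hc : ∀ i, X ≤ B i ∨ A i ≤ X) : (cutAlg H A B).IsCongruence (relOf H X hX) := by
  intro i x' y' hxy
  let x : W ⧸ H := x' (0 : Fin 1)
  let y : W ⧸ H := y' (0 : Fin 1)
  have h0 : relOf H X hX x y := hxy (0 : Fin 1)
  obtain ⟨a, ha⟩ := QuotientGroup.mk_surjective x
  obtain ⟨b, hb⟩ := QuotientGroup.mk_surjective y
  rw [← ha, ← hb] at h0
  have h1 : a⁻¹ * b ∈ X := (relOf_mk hX a b).1 h0
  rcases i with g | ⟨i, u⟩
  · show relOf H X hX (g • x) (g • y)
    rw [← ha, ← hb]
    show relOf H X hX ((g * a : W) : W ⧸ H) ((g * b : W) : W ⧸ H)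
    rw [relOf_mk]
    have : (g * a)⁻¹ * (g * b) = a⁻¹ * b := by group
    rwa [this]
  · classical
    show relOf H X hX
      (if InB H (B i) x ∨ u ∉ A i then ((1 : W) : W ⧸ H) else (u : W ⧸ H))
      (if InB H (B i) y ∨ u ∉ A i then ((1 : W) : W ⧸ H) else (u : W ⧸ H))
    rw [← ha, ← hb]
    simp only [inB_mk (hB i)]
    by_cases hu : u ∈ A i
    · simp only [hu, not_true_eq_false, or_false]
      rcases hc i with hXB | hAX
      · have h2 : a⁻¹ * b ∈ B i := hXB h1
        have h3 : a ∈ B i ↔ b ∈ B i := by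
          constructor
          · intro h
            have := (B i).mul_mem h h2
            simpa using this
          · intro h
            have := (B i).mul_mem h ((B i).inv_mem h2)
            simpa using this
        by_cases h : a ∈ B i
        · rw [if_pos h, if_pos (h3.1 h)]
        · rw [if_neg h, if_neg (fun h' => h (h3.2 h'))]
      · have h2 : u ∈ X := hAX hu
        split_ifs
        · exact (relOf H X hX).refl _
        · rw [relOf_mk]; simpa using h2
        · rw [relOf_mk]; simpa using h2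
        · exact (relOf H X hX).refl _
    · simp only [hu, not_false_eq_true, or_true, if_true]
      exact (relOf H X hX).refl _

theorem smul_of_isCong [Finite W] [Finite I] {r : Setoid (W ⧸ H)}
    (hr : (cutAlg H A B).IsCongruence r) (g : W) (x y : W ⧸ H) (h : r x y) :
    r (g • x) (g • y) :=
  hr (Sum.inl g) (fun _ => x) (fun _ => y) (fun _ => h)

theorem cut_of_isCong [Finite W] [Finite I] (hB : ∀ i, H ≤ B i) {r : Setoid (W ⧸ H)}
    (hr : (cutAlg H A B).IsCongruence r) (i : I) :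
    subOf H r (smul_of_isCong hr) ≤ B i ∨ A i ≤ subOf H r (smul_of_isCong hr) := by
  classical
  by_contra hcon
  rw [not_or] at hcon
  obtain ⟨h1, h2⟩ := hcon
  obtain ⟨w, hw, hwB⟩ := SetLike.not_le_iff_exists.1 h1
  obtain ⟨u, hu, huX⟩ := SetLike.not_le_iff_exists.1 h2
  apply huX
  have h3 := hr (Sum.inr (i, u)) (fun _ => ((1 : W) : W ⧸ H)) (fun _ => (w : W ⧸ H)) (fun _ => hw)
  have h4 : r
      (if InB H (B i) ((1 : W) : W ⧸ H) ∨ u ∉ A i then ((1 : W) : W ⧸ H) else (u : W ⧸ H))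
      (if InB H (B i) (w : W ⧸ H) ∨ u ∉ A i then ((1 : W) : W ⧸ H) else (u : W ⧸ H)) := h3
  simp only [inB_mk (hB i)] at h4
  rw [if_pos (Or.inl (B i).one_mem), if_neg (by simp [hwB, hu])] at h4
  exact h4

end

/-- **Cut lemma.** -/
theorem cut {W : Type} [Group W] [Finite W] (H : Subgroup W) {I : Type} [Finite I]
    (A B : I → Subgroup W) (hB : ∀ i, H ≤ B i) :
    Representable {X : Subgroup W // H ≤ X ∧ ∀ i, X ≤ B i ∨ A i ≤ X} := by
  refine ⟨cutAlg H A B, ⟨?_⟩⟩
  exact
    { toFun := fun X => ⟨relOf H X.1 X.2.1, isCong_relOf hB X.2.1 X.2.2⟩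
      invFun := fun r => ⟨subOf H r.1 (smul_of_isCong r.2), le_subOf _, cut_of_isCong hB r.2⟩
      left_inv := by
        intro X
        apply Subtype.ext
        ext w
        show relOf H X.1 X.2.1 ((1 : W) : W ⧸ H) (w : W ⧸ H) ↔ _
        rw [relOf_mk]
        simp
      right_inv := by
        intro r
        apply Subtype.ext
        apply Setoid.ext
        intro x y
        obtain ⟨a, rfl⟩ := QuotientGroup.mk_surjective x
        obtain ⟨b, rfl⟩ := QuotientGroup.mk_surjective y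
        show relOf H (subOf H r.1 (smul_of_isCong r.2)) (le_subOf _) (a : W ⧸ H) (b : W ⧸ H) ↔ _
        rw [relOf_mk]
        exact (rel_iff (smul_of_isCong r.2) a b).symm
      map_rel_iff' := by
        intro X Y
        constructor
        · intro h w hw
          have h1 : relOf H X.1 X.2.1 ((1 : W) : W ⧸ H) (w : W ⧸ H) := by
            rw [relOf_mk]; simpa using hw
          have h2 : relOf H Y.1 Y.2.1 ((1 : W) : W ⧸ H) (w : W ⧸ H) := h h1
          rw [relOf_mk] at h2
          simpa using h2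
        · intro h x y hxy
          obtain ⟨a, b, h1, h2, h3⟩ := hxy
          exact ⟨a, b, h1, h2, h h3⟩ }

end Vale.Agent.P183.R2.H139
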