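import Vale.Agent.P183.R2.H139.Semi
import Mathlib.Order.Birkhoff
import Mathlib.Order.LatticeIntervals
import Mathlib.Data.Fintype.Pi

/-!
# Distributive blocks are of ordered type
-/

namespace Vale.Agent.P183.R2.H139

open Vale.Agent.P183

section

variable {J : Type} [PartialOrder J]

/-- agreement outside a lower set -/
def agr (U : LowerSet J) : Setoid (J → Bool) where
  r x y := ∀ j, j ∉ U → x j = y j
  iseqv := ⟨fun _ _ _ => rfl, fun h j hj => (h j hj).symm, fun h h' j hj => (h j hj).trans (h' j hj)⟩

/-- monotone maps which preserve all these relations -/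
def disM (J : Type) [PartialOrder J] : Set ((J → Bool) → (J → Bool)) :=
  {m | Monotone m ∧ ∀ U : LowerSet J, Keeps m (agr U)}

theorem agr_le {U V : LowerSet J} : agr U ≤ agr V ↔ U ≤ V := by
  classical
  constructor
  · intro h j hj
    by_contra hjV
    have h1 : agr U (fun _ => false) (fun i => decide (i = j)) := by
      intro i hi
      have : i ≠ j := fun h' => hi (h' ▸ hj)
      simp [this]
    have h2 := h h1 j hjV
    simp at h2
  · intro h x y hxy j hj
    exact hxy j (fun h' => hj (h h'))

theorem agr_full [Finite J] (r : Setoid (J → Bool)) (hr : ∀ m ∈ disM J, Keeps m r) :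
    ∃ U : LowerSet J, agr U = r := by
  classical
  have := Fintype.ofFinite J
  -- pairs which differ at one place
  have key : ∀ j, (∃ x y, r x y ∧ x j ≠ y j) → ∀ i, i ≤ j → ∀ z w : J → Bool,
      (∀ k, k ≠ i → z k = w k) → r z w := by
    rintro j ⟨x, y, hxy, hne⟩ i hij z w hzw
    -- order the two pairs
    wlog h1 : x j = false generalizing x y
    · refine this y x (Setoid.symm' _ hxy) hne.symm ?_
      have h2 : x j = true := by simpa using h1
      rw [h2] at hne
      by_contra h3
      have h4 : y j = true := by simpa using h3
      exact hne h4.symm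
    have h2 : y j = true := by
      rw [h1] at hne
      by_contra h3
      have h4 : y j = false := by simpa using h3
      exact hne h4.symm
    wlog h3 : z i = false generalizing z w
    · have hz : z i = true := by simpa using h3
      by_cases hw : w i = false
      · exact Setoid.symm' _ (this w z (fun k hk => (hzw k hk).symm) hw)
      · have hw' : w i = true := by simpa using hw
        have : z = w := by
          funext k
          by_cases hk : k = i
          · rw [hk, hz, hw']
          · exact hzw k hk
        rw [this]
    by_cases hw : w i = false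
    · have : z = w := by
        funext k
        by_cases hk : k = i
        · rw [hk, h3, hw]
        · exact hzw k hk
      rw [this]
    have hw' : w i = true := by simpa using hw
    let m : (J → Bool) → (J → Bool) := fun v => if v j = true then w else z
    have hzw' : z ≤ w := by
      intro k
      by_cases hk : k = i
      · rw [hk, h3]
        exact Bool.false_le _
      · rw [hzw k hk]
    have hm : m ∈ disM J := by
      constructor
      · intro v v' hv
        by_cases h4 : v j = true
        · have h5 : v' j = true := by
            have := hv j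
            rw [h4] at this
            exact top_le_iff.1 this
          simp only [m, h4, h5, if_true]
          exact le_rfl
        · by_cases h5 : v' j = true
          · simp only [m, h4, h5, if_true, if_false]
            exact hzw'
          · simp only [m, h4, h5, if_false]
            exact le_rfl
      · intro U v v' hv k hk
        by_cases hki : k = i
        · have hjU : j ∉ U := fun h => hk (hki ▸ U.lower hij h)
          have h4 : v j = v' j := hv j hjU
          simp only [m, h4]
        · have h5 : ∀ v, m v k = w k := by
            intro v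
            by_cases h4 : v j = true
            · simp only [m, h4, if_true]
            · simp only [m, h4, if_false]
              exact hzw k hki
          rw [h5, h5]
    have h6 := hr m hm x y hxy
    have h7 : m x = z := by simp [m, h1]
    have h8 : m y = w := by simp [m, h2]
    rw [h7, h8] at h6
    exact h6
  let U : LowerSet J :=
    { carrier := {j | ∃ x y, r x y ∧ x j ≠ y j}
      lower' := by
        intro j i hij hj
        refine ⟨fun _ => false, fun k => decide (k = i), key j hj i hij _ _ ?_, ?_⟩
        · intro k hk
          simp [hk]
        · simp }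
  refine ⟨U, le_antisymm ?_ ?_⟩
  · -- change the places one after the other
    have hstep : ∀ (s : Finset J) (x y : J → Bool), (∀ j ∈ s, j ∈ U) →
        (∀ j, j ∉ s → x j = y j) → r x y := by
      intro s
      induction s using Finset.induction with
      | empty =>
        intro x y _ h
        have : x = y := funext (fun j => h j (by simp))
        rw [this]
      | insert i s his ih =>
        intro x y hs h
        have h1 : r x (Function.update y i (x i)) := by
          refine ih _ _ (fun j hj => hs j (Finset.mem_insert_of_mem hj)) ?_
          intro j hj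
          by_cases hji : j = i
          · rw [hji, Function.update_self]
          · rw [Function.update_of_ne hji]
            exact h j (by simp [hji, hj])
        have h2 : r (Function.update y i (x i)) y := by
          refine key i (hs i (Finset.mem_insert_self _ _)) i le_rfl _ _ ?_
          intro k hk
          rw [Function.update_of_ne hk]
        exact Setoid.trans' _ h1 h2
    intro x y hxy
    refine hstep (Finset.univ.filter (fun j => x j ≠ y j)) x y ?_ ?_
    · intro j hj
      by_contra hjU
      exact (Finset.mem_filter.1 hj).2 (hxy j hjU)
    · intro j hj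
      by_contra hne
      exact hj (Finset.mem_filter.2 ⟨Finset.mem_univ _, hne⟩)
  · intro x y hxy j hj
    by_contra hne
    exact hj ⟨x, y, hxy, hne⟩

/-- the order isomorphism -/
noncomputable def agrIso [Finite J] :
    LowerSet J ≃o {r : Setoid (J → Bool) // ∀ m ∈ disM J, Keeps m r} :=
  { Equiv.ofBijective (fun U => (⟨agr U, fun m hm => hm.2 U⟩ :
        {r : Setoid (J → Bool) // ∀ m ∈ disM J, Keeps m r}))
      ⟨fun U V h => le_antisymm (agr_le.1 (congrArg Subtype.val h).le)
        (agr_le.1 (congrArg Subtype.val h).ge),
      fun r => (agr_full r.1 r.2).imp fun _ h => Subtype.ext h⟩ with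
    map_rel_iff' := agr_le }

theorem dis_top [Finite J] {c : Setoid (J → Bool)} {U : LowerSet J} (hc : c = agr U)
    (hne : ∃ p q, ¬ c p q)
    (hmax : ∀ r : Setoid (J → Bool), (∀ m ∈ disM J, Keeps m r) → c ≤ r → (∃ p q, ¬ r p q) →
      r ≤ c) : TopT (disM J) c Bool {id} := by
  classical
  subst hc
  have hex : {j : J | j ∉ U}.Nonempty := by
    by_contra hcon
    rw [Set.not_nonempty_iff_eq_empty] at hcon
    obtain ⟨p, q, hpq⟩ := hne
    apply hpq
    intro j hj
    exact absurd (show j ∈ {j : J | j ∉ U} from hj) (hcon ▸ Set.notMem_empty j)
  obtain ⟨j1, hj1, hmx⟩ := (Set.toFinite {j : J | j ∉ U}).exists_maximal hex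
  have hmx' : ∀ i, j1 ≤ i → i = j1 := fun i hi =>
    le_antisymm (hmx (fun h => hj1 (U.lower hi h)) hi) hi
  let V : LowerSet J := ⟨{i | i ≠ j1}, fun i i' hii hi h => hi (hmx' i (h ▸ hii))⟩
  have hV : ∀ x y, agr V x y ↔ x j1 = y j1 := by
    intro x y
    constructor
    · intro h
      exact h j1 (fun h' => h' rfl)
    · intro h i hi
      have : i = j1 := by
        by_contra h'
        exact hi h'
      rw [this]
      exact h
  have hle : agr U ≤ agr V := fun {x y} h => (hV x y).2 (h j1 hj1)
  have hge : agr V ≤ agr U := hmax _ (fun m hm => hm.2 V) hle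
    ⟨fun _ => false, fun _ => true, fun h => by simpa using (hV _ _).1 h⟩
  have hkeep : ∀ m ∈ disM J, Keeps m (agr U) := fun m hm => hm.2 U
  have hid : (id : (J → Bool) → (J → Bool)) ∈ disM J := ⟨monotone_id, fun U x y h => h⟩
  refine topT_two (fun x => ⟨id, hid, rfl, fun _ => rfl⟩) (fun x => x j1 = true) ?_
    ⟨fun _ => true, rfl⟩ ⟨fun _ => false, by simp⟩ hkeep ?_
  · intro p q
    constructor
    · intro h
      have h1 := (hV _ _).1 (hle h)
      rw [h1]
    · intro h
      apply hge
      rw [hV]
      exact Bool.eq_iff_iff.2 h
  · intro m hm p q hp hq hmp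
    have h1 : p ≤ p ⊔ q := le_sup_left
    have h2 : m p j1 ≤ m (p ⊔ q) j1 := hm.1 h1 j1
    have h3 : m (p ⊔ q) j1 = true := by
      rw [hmp] at h2
      exact top_le_iff.1 h2
    have h4 : agr V (p ⊔ q) q := by
      rw [hV]
      show p j1 ⊔ q j1 = q j1
      rw [hq]
      exact sup_top_eq _
    have h5 := (hV _ _).1 (hm.2 V _ _ h4)
    rw [← h5]
    exact h3

theorem dis_bot [Finite J] {d : Setoid (J → Bool)} {U : LowerSet J} (hd : d = agr U)
    (hne : ∃ p q, p ≠ q ∧ d p q)
    (hmin : ∀ r : Setoid (J → Bool), (∀ m ∈ disM J, Keeps m r) → r ≤ d →
      (∃ p q, p ≠ q ∧ r p q) → d ≤ r) : BotT (disM J) d Bool {id} := by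
  classical
  subst hd
  have hex : {j : J | j ∈ U}.Nonempty := by
    by_contra hcon
    rw [Set.not_nonempty_iff_eq_empty] at hcon
    obtain ⟨p, q, hpq, h⟩ := hne
    apply hpq
    funext j
    apply h j
    intro hj
    exact absurd (show j ∈ {j : J | j ∈ U} from hj) (hcon ▸ Set.notMem_empty j)
  obtain ⟨j0, hj0, hmn⟩ := (Set.toFinite {j : J | j ∈ U}).exists_minimal hex
  have hmn' : ∀ i, i ≤ j0 → i = j0 := fun i hi =>
    le_antisymm hi (hmn (U.lower hi hj0) hi)
  let V : LowerSet J := ⟨{i | i = j0}, fun i i' hii hi => hmn' i' (by
    have : i = j0 := hi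
    rw [← this]
    exact hii)⟩
  have hV : ∀ x y, agr V x y ↔ ∀ j, j ≠ j0 → x j = y j := by
    intro x y
    exact Iff.rfl
  have hle : agr V ≤ agr U := by
    intro x y h j hj
    refine h j (fun h' => hj ?_)
    have : j = j0 := h'
    rw [this]
    exact hj0
  have hge : agr U ≤ agr V := hmin _ (fun m hm => hm.2 V) hle
    ⟨fun _ => false, fun k => decide (k = j0), fun h => by
      have := congrFun h j0
      simp at this, fun k hk => by
      have : k ≠ j0 := hk
      simp [this]⟩
  have hU : agr U = agr V := le_antisymm hge hle
  rw [hU]
  have hup : ∀ (z : J → Bool) (y : Bool) (q : J → Bool),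
      agr V (Function.update z j0 y) q → q = Function.update z j0 (q j0) := by
    intro z y q h
    funext k
    by_cases hk : k = j0
    · rw [hk, Function.update_self]
    · have := h k hk
      rw [Function.update_of_ne hk] at this
      rw [Function.update_of_ne hk, this]
  refine ⟨{z : J → Bool // z j0 = false}, ⟨⟨fun _ => false, rfl⟩⟩,
    fun z y => Function.update z.1 j0 y, ?_, ?_, ?_, ?_, ?_, ?_, ?_, ?_⟩
  · intro z y y' h
    have := congrFun h j0
    simpa using this
  · intro z y y' k hk
    have hk' : k ≠ j0 := hk
    simp only [Function.update_of_ne hk']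
  · intro z z' y y' h
    apply Subtype.ext
    funext k
    by_cases hk : k = j0
    · rw [hk, z.2, z'.2]
    · have := h k hk
      simpa only [Function.update_of_ne hk] using this
  · intro z y q h
    exact ⟨q j0, (hup _ _ _ h).symm⟩
  · intro p q _ _
    refine ⟨⟨Function.update p j0 false, by simp⟩, p j0, ?_⟩
    simp
  · intro z z'
    refine ⟨fun x => Function.update z'.1 j0 (x j0), ⟨?_, ?_⟩, ?_⟩
    · intro x y hxy k
      by_cases hk : k = j0
      · rw [hk]
        simp only [Function.update_self]
        exact hxy j0
      · simp only [Function.update_of_ne hk]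
        exact le_rfl
    · intro W x y hxy k hk
      by_cases hkj : k = j0
      · subst hkj
        simp only [Function.update_self]
        exact hxy k hk
      · simp only [Function.update_of_ne hkj]
    · intro y
      simp
  · intro m hm z
    have h1 : Function.update z.1 j0 false ≤ Function.update z.1 j0 true := by
      intro k
      by_cases hk : k = j0
      · rw [hk]
        simp
      · simp only [Function.update_of_ne hk]
        exact le_rfl
    have h2 := hm.1 h1
    have h3 : agr V (m (Function.update z.1 j0 false)) (m (Function.update z.1 j0 true)) := by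
      apply hm.2 V
      intro k hk
      have hk' : k ≠ j0 := hk
      simp only [Function.update_of_ne hk']
    by_cases h4 : m (Function.update z.1 j0 false) j0 = m (Function.update z.1 j0 true) j0
    · left
      refine ⟨m (Function.update z.1 j0 false), fun y => ?_⟩
      have h5 : m (Function.update z.1 j0 false) = m (Function.update z.1 j0 true) := by
        funext k
        by_cases hk : k = j0
        · rw [hk, h4]
        · exact h3 k hk
      cases y
      · rfl
      · exact h5.symm
    · right
      have h5 : m (Function.update z.1 j0 false) j0 = false := by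
        by_contra h6
        have h7 : m (Function.update z.1 j0 false) j0 = true := by simpa using h6
        have h8 := h2 j0
        rw [h7] at h8
        exact h4 (by rw [h7]; exact (top_le_iff.1 h8).symm)
      have h6 : m (Function.update z.1 j0 true) j0 = true := by
        by_contra h7
        have h8 : m (Function.update z.1 j0 true) j0 = false := by simpa using h7
        exact h4 (by rw [h5, h8])
      refine ⟨⟨m (Function.update z.1 j0 false), h5⟩, id, rfl, fun y => ?_⟩
      show m (Function.update z.1 j0 y) = Function.update (m (Function.update z.1 j0 false)) j0 y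
      funext k
      by_cases hk : k = j0
      · rw [hk, Function.update_self]
        cases y
        · exact h5
        · exact h6
      · rw [Function.update_of_ne hk]
        cases y
        · rfl
        · exact (h3 k hk).symm
  · rintro nn rfl z
    exact ⟨id, ⟨monotone_id, fun U x y h => h⟩, fun y => rfl⟩

end

theorem tblock_dist {L : Type} [Lattice L] {a b : L} (h : IsDistr a b)
    (inn out : L → Prop) : TBlock a b inn Bool {id} out Bool {id} := by
  classical
  obtain ⟨hab, hfin, hd⟩ := h
  have : Fact (a ≤ b) := ⟨hab⟩
  let iD : DistribLattice (Set.Icc a b) := DistribLattice.ofInfSupLe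
    (fun x y z => hd x.1 y.1 z.1 x.2 y.2 z.2)
  have : Fintype (Set.Icc a b) := hfin.fintype
  let J := {x : Set.Icc a b // SupIrred x}
  have : Finite J := inferInstance
  let f : Set.Icc a b ≃o LowerSet J := OrderIso.lowerSetSupIrred
  obtain ⟨F, hB, hFv⟩ := ublock_of_iso (M := disM J) (fun r => Iff.rfl) (f.trans agrIso)
  refine ⟨J → Bool, inferInstance, inferInstance, disM J, F, hB, ?_, ?_⟩
  · intro c hc hcb _
    have h1 := hB.mini hc hcb
    exact dis_bot (U := f ⟨c, hc.le, hcb⟩) (hFv c ⟨hc.le, hcb⟩) h1.1 h1.2
  · intro c hc hcb _
    have h1 := hB.maxi hc hcb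
    exact dis_top (U := f ⟨c, hc, hcb.le⟩) (hFv c ⟨hc, hcb.le⟩) h1.1 h1.2

end Vale.Agent.P183.R2.H139
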