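import Vale.Agent.P183.R2.H139.Dist
import Mathlib.Tactic.FinCases
import Mathlib.Data.Set.Card

/-!
# Blocks with at most five elements are of ordered type
-/

namespace Vale.Agent.P183.R2.H139

open Vale.Agent.P183

/-- A block given by a table. -/
theorem ublock_of_table {L X : Type} [Lattice L] {a b : L} {n : ℕ} (g : Fin n → L)
    (R : Fin n → Fin n → Prop) (hg : ∀ i j, g i ≤ g j ↔ R i j)
    (hcov : ∀ w ∈ Set.Icc a b, ∃ i, g i = w) (hmem : ∀ i, g i ∈ Set.Icc a b)
    {M : Set (X → X)} (Φ : Fin n → Setoid X) (hΦ : ∀ i j, Φ i ≤ Φ j ↔ R i j)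
    (hk : ∀ i, ∀ m ∈ M, Keeps m (Φ i))
    (hfull : ∀ r : Setoid X, (∀ m ∈ M, Keeps m r) → ∃ i, Φ i = r) :
    ∃ F : L → Setoid X, UBlock M F a b ∧ ∀ i, F (g i) = Φ i := by
  classical
  let F : L → Setoid X := fun w => if h : ∃ i, g i = w then Φ h.choose else ⊤
  have hinj : ∀ i j, g i = g j → Φ i = Φ j := by
    intro i j h
    apply le_antisymm
    · rw [hΦ, ← hg]
      exact h.le
    · rw [hΦ, ← hg]
      exact h.ge
  have hF : ∀ i, F (g i) = Φ i := by
    intro i
    have h : ∃ j, g j = g i := ⟨i, rfl⟩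
    show (if h : ∃ j, g j = g i then Φ h.choose else ⊤) = Φ i
    rw [dif_pos h]
    exact hinj _ _ h.choose_spec
  refine ⟨F, ⟨?_, ?_, ?_⟩, hF⟩
  · intro x y hx hx' hy hy'
    obtain ⟨i, rfl⟩ := hcov x ⟨hx, hx'⟩
    obtain ⟨j, rfl⟩ := hcov y ⟨hy, hy'⟩
    rw [hF, hF, hΦ, hg]
  · intro x hx hx' m hm
    obtain ⟨i, rfl⟩ := hcov x ⟨hx, hx'⟩
    rw [hF]
    exact hk i m hm
  · intro r hr
    obtain ⟨i, hi⟩ := hfull r hr
    exact ⟨g i, (hmem i).1, (hmem i).2, by rw [hF, hi]⟩

/-! ## The pentagon -/

/-- the equivalence relations of the pentagon on `Bool × Bool` -/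
def penT : Fin 5 → Bool × Bool → Bool × Bool → Bool
  | 0, x, y => decide (x = y)
  | 1, x, y => decide (x = y) || (decide (x.2 = false) && decide (y.2 = false))
  | 2, x, y => decide (x.2 = y.2)
  | 3, x, y => decide (x.1 = y.1)
  | 4, _, _ => true

/-- as setoids -/
def penS (i : Fin 5) : Setoid (Bool × Bool) where
  r x y := penT i x y = true
  iseqv := by
    refine ⟨?_, ?_, ?_⟩
    · revert i; decide
    · intro x y
      revert i x y
      decide
    · intro x y z
      revert i x y z
      decide

/-- the order of the pentagon -/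
def penR : Fin 5 → Fin 5 → Bool
  | 0, _ => true
  | 1, 1 => true
  | 1, 2 => true
  | 1, 4 => true
  | 2, 2 => true
  | 2, 4 => true
  | 3, 3 => true
  | 3, 4 => true
  | 4, 4 => true
  | _, _ => false

theorem penS_le (i j : Fin 5) : penS i ≤ penS j ↔ penR i j = true := by
  have h : (∀ x y, penT i x y = true → penT j x y = true) ↔ penR i j = true := by
    revert i j
    decide
  rw [← h]
  constructor
  · intro h' x y hxy
    exact h' hxy
  · intro h' x y hxy
    exact h' x y hxy

/-- monotone maps which keep the relations of the pentagon -/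
def penM : Set (Bool × Bool → Bool × Bool) := {m | Monotone m ∧ ∀ i, Keeps m (penS i)}

theorem pen_full (r : Setoid (Bool × Bool)) (hr : ∀ m ∈ penM, Keeps m r) :
    ∃ i, penS i = r := by
  classical
  have hm1 : (fun x : Bool × Bool => (x.1, false)) ∈ penM := by
    constructor
    · intro x y h
      exact ⟨h.1, le_rfl⟩
    · intro i x y
      show penT i x y = true → penT i (x.1, false) (y.1, false) = true
      revert i x y
      decide
  have hm2 : (fun x : Bool × Bool => (false, x.2)) ∈ penM := by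
    constructor
    · intro x y h
      exact ⟨le_rfl, h.2⟩
    · intro i x y
      show penT i x y = true → penT i (false, x.2) (false, y.2) = true
      revert i x y
      decide
  have hm3 : (fun x : Bool × Bool => (true, x.2)) ∈ penM := by
    constructor
    · intro x y h
      exact ⟨le_rfl, h.2⟩
    · intro i x y
      show penT i x y = true → penT i (true, x.2) (true, y.2) = true
      revert i x y
      decide
  have k1 := hr _ hm1
  have k2 := hr _ hm2
  have k3 := hr _ hm3
  have s : ∀ {x y}, r x y → r y x := fun h => Setoid.symm' r h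
  have t : ∀ {x y z}, r x y → r y z → r x z := fun h h' => Setoid.trans' r h h'
  -- O = (f,f), A = (t,f), B = (f,t), I = (t,t)
  have hOB_AI : r (false, false) (false, true) → r (true, false) (true, true) := fun h => k3 _ _ h
  have hAI_OB : r (true, false) (true, true) → r (false, false) (false, true) := fun h => k2 _ _ h
  have hBI_OA : r (false, true) (true, true) → r (false, false) (true, false) := fun h => k1 _ _ h
  have hAB_OA : r (true, false) (false, true) → r (true, false) (false, false) := fun h => k1 _ _ h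
  have hAB_OB : r (true, false) (false, true) → r (false, false) (false, true) := fun h => k2 _ _ h
  have hOI_OA : r (false, false) (true, true) → r (false, false) (true, false) := fun h => k1 _ _ h
  have hOI_OB : r (false, false) (true, true) → r (false, false) (false, true) := fun h => k2 _ _ h
  have fin : ∀ i : Fin 5,
      (r (false, false) (true, false) ↔ penT i (false, false) (true, false) = true) →
      (r (false, false) (false, true) ↔ penT i (false, false) (false, true) = true) →
      (r (false, false) (true, true) ↔ penT i (false, false) (true, true) = true) →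
      (r (true, false) (false, true) ↔ penT i (true, false) (false, true) = true) →
      (r (true, false) (true, true) ↔ penT i (true, false) (true, true) = true) →
      (r (false, true) (true, true) ↔ penT i (false, true) (true, true) = true) →
      penS i = r := by
    intro i h1 h2 h3 h4 h5 h6
    ext x y
    show penT i x y = true ↔ r x y
    have hs : ∀ x y, (penT i x y = true ↔ r x y) → (penT i y x = true ↔ r y x) := by
      intro x y h
      have e : penT i y x = penT i x y := by
        clear h h1 h2 h3 h4 h5 h6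
        revert i x y
        decide
      rw [e, h]
      exact ⟨s, s⟩
    have hrefl : ∀ x, (penT i x x = true ↔ r x x) := by
      intro x
      have e : penT i x x = true := by
        clear h1 h2 h3 h4 h5 h6 hs
        revert i x
        decide
      exact ⟨fun _ => Setoid.refl' _ _, fun _ => e⟩
    obtain ⟨x1, x2⟩ := x
    obtain ⟨y1, y2⟩ := y
    cases x1 <;> cases x2 <;> cases y1 <;> cases y2 <;>
      first
      | exact hrefl _
      | exact h1.symm
      | exact h2.symm
      | exact h3.symm
      | exact h4.symm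
      | exact h5.symm
      | exact h6.symm
      | exact hs _ _ h1.symm
      | exact hs _ _ h2.symm
      | exact hs _ _ h3.symm
      | exact hs _ _ h4.symm
      | exact hs _ _ h5.symm
      | exact hs _ _ h6.symm
  by_cases hOB : r (false, false) (false, true)
  · have hAI := hOB_AI hOB
    by_cases hOA : r (false, false) (true, false)
    · refine ⟨4, fin 4 ?_ ?_ ?_ ?_ ?_ ?_⟩
      · exact ⟨fun _ => rfl, fun _ => hOA⟩
      · exact ⟨fun _ => rfl, fun _ => hOB⟩
      · exact ⟨fun _ => rfl, fun _ => t hOA hAI⟩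
      · exact ⟨fun _ => rfl, fun _ => t (s hOA) hOB⟩
      · exact ⟨fun _ => rfl, fun _ => hAI⟩
      · exact ⟨fun _ => rfl, fun _ => t (s hOB) (t hOA hAI)⟩
    · refine ⟨3, fin 3 ?_ ?_ ?_ ?_ ?_ ?_⟩
      · exact ⟨fun h => absurd h hOA, fun h => by simp [penT] at h⟩
      · exact ⟨fun _ => rfl, fun _ => hOB⟩
      · exact ⟨fun h => absurd (hOI_OA h) hOA, fun h => by simp [penT] at h⟩
      · exact ⟨fun h => absurd (s (hAB_OA h)) hOA, fun h => by simp [penT] at h⟩
      · exact ⟨fun _ => rfl, fun _ => hAI⟩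
      · exact ⟨fun h => absurd (hBI_OA h) hOA, fun h => by simp [penT] at h⟩
  · have hAI : ¬ r (true, false) (true, true) := fun h => hOB (hAI_OB h)
    have hAB : ¬ r (true, false) (false, true) := fun h => hOB (hAB_OB h)
    have hOI : ¬ r (false, false) (true, true) := fun h => hOB (hOI_OB h)
    by_cases hOA : r (false, false) (true, false)
    · by_cases hBI : r (false, true) (true, true)
      · refine ⟨2, fin 2 ?_ ?_ ?_ ?_ ?_ ?_⟩
        · exact ⟨fun _ => rfl, fun _ => hOA⟩
        · exact ⟨fun h => absurd h hOB, fun h => by simp [penT] at h⟩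
        · exact ⟨fun h => absurd h hOI, fun h => by simp [penT] at h⟩
        · exact ⟨fun h => absurd h hAB, fun h => by simp [penT] at h⟩
        · exact ⟨fun h => absurd h hAI, fun h => by simp [penT] at h⟩
        · exact ⟨fun _ => rfl, fun _ => hBI⟩
      · refine ⟨1, fin 1 ?_ ?_ ?_ ?_ ?_ ?_⟩
        · exact ⟨fun _ => rfl, fun _ => hOA⟩
        · exact ⟨fun h => absurd h hOB, fun h => by simp [penT] at h⟩
        · exact ⟨fun h => absurd h hOI, fun h => by simp [penT] at h⟩
        · exact ⟨fun h => absurd h hAB, fun h => by simp [penT] at h⟩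
        · exact ⟨fun h => absurd h hAI, fun h => by simp [penT] at h⟩
        · exact ⟨fun h => absurd h hBI, fun h => by simp [penT] at h⟩
    · have hBI : ¬ r (false, true) (true, true) := fun h => hOA (hBI_OA h)
      refine ⟨0, fin 0 ?_ ?_ ?_ ?_ ?_ ?_⟩
      · exact ⟨fun h => absurd h hOA, fun h => by simp [penT] at h⟩
      · exact ⟨fun h => absurd h hOB, fun h => by simp [penT] at h⟩
      · exact ⟨fun h => absurd h hOI, fun h => by simp [penT] at h⟩
      · exact ⟨fun h => absurd h hAB, fun h => by simp [penT] at h⟩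
      · exact ⟨fun h => absurd h hAI, fun h => by simp [penT] at h⟩
      · exact ⟨fun h => absurd h hBI, fun h => by simp [penT] at h⟩

theorem pen_id : (id : Bool × Bool → Bool × Bool) ∈ penM :=
  ⟨monotone_id, fun i x y h => h⟩

theorem pen_bot1 : BotT penM (penS 1) Bool {id} := by
  refine botT_two (u := (false, false)) (v := (true, false)) ⟨id, pen_id, fun _ => rfl⟩
    (by decide) ?_ (fun m hm => hm.2 1) ?_
  · intro p q
    show penT 1 p q = true ↔ _
    revert p q
    decide
  · rintro m hm ⟨h1, h2⟩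
    have h3 : m (false, false) ≤ m (true, false) := hm.1 (by decide)
    rw [h1, h2] at h3
    exact absurd h3 (by decide)

theorem pen_bot3 : BotT penM (penS 3) Bool {id} := by
  refine ⟨Bool, inferInstance, fun s y => (s, y), ?_, ?_, ?_, ?_, ?_, ?_, ?_, ?_⟩
  · intro s y y' h
    exact congrArg Prod.snd h
  · intro s y y'
    show penT 3 (s, y) (s, y') = true
    simp [penT]
  · intro s s' y y' h
    have h' : penT 3 (s, y) (s', y') = true := h
    simpa [penT] using h'
  · intro s y q h
    have h' : penT 3 (s, y) q = true := h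
    have h2 : s = q.1 := by simpa [penT] using h'
    exact ⟨q.2, by rw [h2]⟩
  · intro p q _ _
    exact ⟨p.1, p.2, rfl⟩
  · intro s s'
    refine ⟨fun x => (s', x.2), ⟨?_, ?_⟩, fun y => rfl⟩
    · intro x y h
      exact ⟨le_rfl, h.2⟩
    · intro i x y
      show penT i x y = true → penT i (s', x.2) (s', y.2) = true
      revert i x y s'
      decide
  · intro m hm s
    have h1 : penT 3 (m (s, false)) (m (s, true)) = true := hm.2 3 (s, false) (s, true) (by
      show penT 3 (s, false) (s, true) = true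
      simp [penT])
    have h1' : (m (s, false)).1 = (m (s, true)).1 := by simpa [penT] using h1
    have h2 : m (s, false) ≤ m (s, true) := hm.1 ⟨le_rfl, Bool.false_le _⟩
    by_cases h3 : (m (s, false)).2 = (m (s, true)).2
    · left
      refine ⟨m (s, false), fun y => ?_⟩
      cases y
      · rfl
      · exact (Prod.ext h1' h3).symm
    · right
      have h4 : (m (s, false)).2 = false := by
        by_contra h5
        have h6 : (m (s, false)).2 = true := by simpa using h5
        have h7 := h2.2
        rw [h6] at h7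
        exact h3 (by rw [h6]; exact (top_le_iff.1 h7).symm)
      have h5 : (m (s, true)).2 = true := by
        by_contra h6
        have h7 : (m (s, true)).2 = false := by simpa using h6
        exact h3 (by rw [h4, h7])
      refine ⟨(m (s, false)).1, id, rfl, fun y => ?_⟩
      cases y
      · exact Prod.ext rfl h4
      · exact Prod.ext h1'.symm h5
  · rintro nn rfl s
    exact ⟨id, pen_id, fun y => rfl⟩

theorem pen_top2 : TopT penM (penS 2) Bool {id} := by
  refine topT_two (fun x => ⟨id, pen_id, rfl, fun _ => rfl⟩) (fun x => x.2 = true) ?_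
    ⟨(true, true), rfl⟩ ⟨(true, false), by decide⟩ (fun m hm => hm.2 2) ?_
  · intro p q
    show penT 2 p q = true ↔ _
    revert p q
    decide
  · intro m hm p q hp hq hmp
    have h1 : penT 2 (m p) (m (false, false)) = true := hm.2 2 p (false, false) (by
      show penT 2 p (false, false) = true
      have : p.2 = false := by simpa using hp
      simp [penT, this])
    have h2 : (m (false, false)).2 = true := by
      have h3 : (m p).2 = (m (false, false)).2 := by simpa [penT] using h1
      rw [← h3]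
      exact hmp
    have h3 : m (false, false) ≤ m q := hm.1 ⟨Bool.false_le _, Bool.false_le _⟩
    have h4 := h3.2
    rw [h2] at h4
    exact top_le_iff.1 h4

theorem pen_top3 : TopT penM (penS 3) Bool {id} := by
  refine topT_two (fun x => ⟨id, pen_id, rfl, fun _ => rfl⟩) (fun x => x.1 = true) ?_
    ⟨(true, true), rfl⟩ ⟨(false, false), by decide⟩ (fun m hm => hm.2 3) ?_
  · intro p q
    show penT 3 p q = true ↔ _
    revert p q
    decide
  · intro m hm p q hp hq hmp
    have h1 : penT 3 (m p) (m (false, false)) = true := hm.2 3 p (false, false) (by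
      show penT 3 p (false, false) = true
      have : p.1 = false := by simpa using hp
      simp [penT, this])
    have h2 : (m (false, false)).1 = true := by
      have h3 : (m p).1 = (m (false, false)).1 := by simpa [penT] using h1
      rw [← h3]
      exact hmp
    have h3 : m (false, false) ≤ m q := hm.1 ⟨Bool.false_le _, Bool.false_le _⟩
    have h4 := h3.1
    rw [h2] at h4
    exact top_le_iff.1 h4

/-- A pentagon is of ordered type. -/
theorem tblock_pen {L : Type} [Lattice L] {a b p q z : L} (h1 : a < p) (h2 : p < q) (h3 : q < b)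
    (h4 : a < z) (h5 : z < b) (h6 : ¬ p ≤ z) (h7 : ¬ z ≤ q)
    (hcov : ∀ w ∈ Set.Icc a b, w = a ∨ w = p ∨ w = q ∨ w = z ∨ w = b)
    (inn out : L → Prop) : TBlock a b inn Bool {id} out Bool {id} := by
  have hap := h1.le
  have hpq := h2.le
  have hqb := h3.le
  have haz := h4.le
  have hzb := h5.le
  have haq := hap.trans hpq
  have hpb := hpq.trans hqb
  have hab := hap.trans hpb
  have n1 : ¬ p ≤ a := h1.not_ge
  have n2 : ¬ q ≤ a := fun h => n1 (hpq.trans h)
  have n3 : ¬ q ≤ p := h2.not_ge
  have n4 : ¬ q ≤ z := fun h => h6 (hpq.trans h)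
  have n5 : ¬ z ≤ a := h4.not_ge
  have n6 : ¬ z ≤ p := fun h => h7 (h.trans hpq)
  have n7 : ¬ b ≤ q := h3.not_ge
  have n8 : ¬ b ≤ p := fun h => n7 (h.trans hpq)
  have n9 : ¬ b ≤ a := fun h => n8 (h.trans hap)
  have n10 : ¬ b ≤ z := h5.not_ge
  obtain ⟨F, hB, hF⟩ := ublock_of_table (a := a) (b := b) (X := Bool × Bool) ![a, p, q, z, b]
    (fun i j => penR i j = true) (by
      intro i j
      fin_cases i <;> fin_cases j <;> simp [penR, *])
    (by
      intro w hw
      rcases hcov w hw with rfl | rfl | rfl | rfl | rfl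
      · exact ⟨0, rfl⟩
      · exact ⟨1, rfl⟩
      · exact ⟨2, rfl⟩
      · exact ⟨3, rfl⟩
      · exact ⟨4, rfl⟩)
    (by
      intro i
      fin_cases i <;> simp [*])
    (M := penM) penS penS_le (fun i m hm => hm.2 i) pen_full
  have hF1 : F p = penS 1 := hF 1
  have hF2 : F q = penS 2 := hF 2
  have hF3 : F z = penS 3 := hF 3
  refine ⟨Bool × Bool, inferInstance, inferInstance, penM, F, hB, ?_, ?_⟩
  · intro c hc hcb _
    rcases hcov c ⟨hc.le, hcb⟩ with rfl | rfl | rfl | rfl | rfl
    · exact absurd hc.lt (lt_irrefl _)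
    · rw [hF1]
      exact pen_bot1
    · exact absurd h2 (hc.2 h1)
    · rw [hF3]
      exact pen_bot3
    · exact absurd h5 (hc.2 h4)
  · intro c hc hcb _
    rcases hcov c ⟨hc, hcb.le⟩ with rfl | rfl | rfl | rfl | rfl
    · exact absurd h5 (hcb.2 h4)
    · exact absurd h3 (hcb.2 h2)
    · rw [hF2]
      exact pen_top2
    · rw [hF3]
      exact pen_top3
    · exact absurd hcb.lt (lt_irrefl _)

/-! ## The diamond -/

/-- the equivalence relations of the diamond on `Fin 3` -/
def diaT : Fin 5 → Fin 3 → Fin 3 → Bool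
  | 0, x, y => decide (x = y)
  | 1, x, y => decide (x = y) || (decide (x ≠ 2) && decide (y ≠ 2))
  | 2, x, y => decide (x = y) || (decide (x ≠ 0) && decide (y ≠ 0))
  | 3, x, y => decide (x = y) || (decide (x ≠ 1) && decide (y ≠ 1))
  | 4, _, _ => true

/-- as setoids -/
def diaS (i : Fin 5) : Setoid (Fin 3) where
  r x y := diaT i x y = true
  iseqv := by
    refine ⟨?_, ?_, ?_⟩
    · revert i; decide
    · intro x y
      revert i x y
      decide
    · intro x y z
      revert i x y z
      decide

/-- the order of the diamond -/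
def diaR : Fin 5 → Fin 5 → Bool
  | 0, _ => true
  | 1, 1 => true
  | 1, 4 => true
  | 2, 2 => true
  | 2, 4 => true
  | 3, 3 => true
  | 3, 4 => true
  | 4, 4 => true
  | _, _ => false

theorem diaS_le (i j : Fin 5) : diaS i ≤ diaS j ↔ diaR i j = true := by
  have h : (∀ x y, diaT i x y = true → diaT j x y = true) ↔ diaR i j = true := by
    revert i j
    decide
  rw [← h]
  constructor
  · intro h' x y hxy
    exact h' hxy
  · intro h' x y hxy
    exact h' x y hxy

theorem dia_full (r : Setoid (Fin 3)) : ∃ i, diaS i = r := by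
  classical
  have s : ∀ {x y}, r x y → r y x := fun h => Setoid.symm' r h
  have t : ∀ {x y z}, r x y → r y z → r x z := fun h h' => Setoid.trans' r h h'
  have fin : ∀ i : Fin 5, (r 0 1 ↔ diaT i 0 1 = true) → (r 1 2 ↔ diaT i 1 2 = true) →
      (r 0 2 ↔ diaT i 0 2 = true) → diaS i = r := by
    intro i h1 h2 h3
    ext x y
    show diaT i x y = true ↔ r x y
    have hs : ∀ x y, (diaT i x y = true ↔ r x y) → (diaT i y x = true ↔ r y x) := by
      intro x y h
      have e : diaT i y x = diaT i x y := by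
        clear h h1 h2 h3
        revert i x y
        decide
      rw [e, h]
      exact ⟨s, s⟩
    have hrefl : ∀ x, (diaT i x x = true ↔ r x x) := by
      intro x
      have e : diaT i x x = true := by
        clear h1 h2 h3 hs
        revert i x
        decide
      exact ⟨fun _ => Setoid.refl' _ _, fun _ => e⟩
    fin_cases x <;> fin_cases y <;>
      first
      | exact hrefl _
      | exact h1.symm
      | exact h2.symm
      | exact h3.symm
      | exact hs _ _ h1.symm
      | exact hs _ _ h2.symm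
      | exact hs _ _ h3.symm
  by_cases h1 : r 0 1
  · by_cases h2 : r 1 2
    · exact ⟨4, fin 4 ⟨fun _ => rfl, fun _ => h1⟩ ⟨fun _ => rfl, fun _ => h2⟩
        ⟨fun _ => rfl, fun _ => t h1 h2⟩⟩
    · exact ⟨1, fin 1 ⟨fun _ => rfl, fun _ => h1⟩ ⟨fun h => absurd h h2, fun h => by simp [diaT] at h⟩
        ⟨fun h => absurd (t (s h1) h) h2, fun h => by simp [diaT] at h⟩⟩
  · by_cases h2 : r 1 2
    · exact ⟨2, fin 2 ⟨fun h => absurd h h1, fun h => by simp [diaT] at h⟩ ⟨fun _ => rfl, fun _ => h2⟩
        ⟨fun h => absurd (t h (s h2)) h1, fun h => by simp [diaT] at h⟩⟩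
    · by_cases h3 : r 0 2
      · exact ⟨3, fin 3 ⟨fun h => absurd h h1, fun h => by simp [diaT] at h⟩
          ⟨fun h => absurd h h2, fun h => by simp [diaT] at h⟩ ⟨fun _ => rfl, fun _ => h3⟩⟩
      · exact ⟨0, fin 0 ⟨fun h => absurd h h1, fun h => by simp [diaT] at h⟩
          ⟨fun h => absurd h h2, fun h => by simp [diaT] at h⟩
          ⟨fun h => absurd h h3, fun h => by simp [diaT] at h⟩⟩

/-- A diamond is of ordered type. -/
theorem tblock_dia {L : Type} [Lattice L] {a b x y z : L} (hx : x ∈ Set.Icc a b)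
    (hy : y ∈ Set.Icc a b) (hz : z ∈ Set.Icc a b) (hxy : ¬ x ≤ y) (hyx : ¬ y ≤ x)
    (hxz : ¬ x ≤ z) (hzx : ¬ z ≤ x) (hyz : ¬ y ≤ z) (hzy : ¬ z ≤ y)
    (hcov : ∀ w ∈ Set.Icc a b, w = a ∨ w = x ∨ w = y ∨ w = z ∨ w = b)
    (inn out : L → Prop) : TBlock a b inn Bool {id} out Bool {id} := by
  have hax := hx.1
  have hay := hy.1
  have haz := hz.1
  have hxb := hx.2
  have hyb := hy.2
  have hzb := hz.2
  have hab := hax.trans hxb
  have n1 : ¬ x ≤ a := fun h => hxy (h.trans hay)
  have n2 : ¬ y ≤ a := fun h => hyx (h.trans hax)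
  have n3 : ¬ z ≤ a := fun h => hzx (h.trans hax)
  have n4 : ¬ b ≤ x := fun h => hyx (hyb.trans h)
  have n5 : ¬ b ≤ y := fun h => hxy (hxb.trans h)
  have n6 : ¬ b ≤ z := fun h => hxz (hxb.trans h)
  have n7 : ¬ b ≤ a := fun h => n1 (hxb.trans h)
  obtain ⟨F, hB, _⟩ := ublock_of_table (a := a) (b := b) (X := Fin 3) ![a, x, y, z, b]
    (fun i j => diaR i j = true) (by
      intro i j
      fin_cases i <;> fin_cases j <;> simp [diaR, *])
    (by
      intro w hw
      rcases hcov w hw with rfl | rfl | rfl | rfl | rfl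
      · exact ⟨0, rfl⟩
      · exact ⟨1, rfl⟩
      · exact ⟨2, rfl⟩
      · exact ⟨3, rfl⟩
      · exact ⟨4, rfl⟩)
    (by
      intro i
      fin_cases i <;> simp [*])
    (M := {id}) diaS diaS_le (by
      rintro i m rfl x y h
      exact h) (fun r _ => dia_full r)
  exact tblock_id hB inn out

/-! ## Classification -/

theorem set_five {L : Type} {s : Set L} (hs : s.Finite) (hc : s.ncard ≤ 5) {o p q z i : L}
    (ho : o ∈ s) (hp : p ∈ s) (hq : q ∈ s) (hz : z ∈ s) (hi : i ∈ s) (h1 : o ≠ p) (h2 : o ≠ q)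
    (h3 : o ≠ z) (h4 : o ≠ i) (h5 : p ≠ q) (h6 : p ≠ z) (h7 : p ≠ i) (h8 : q ≠ z) (h9 : q ≠ i)
    (h10 : z ≠ i) (w : L) (hw : w ∈ s) : w = o ∨ w = p ∨ w = q ∨ w = z ∨ w = i := by
  classical
  have h11 : ({o, p, q, z, i} : Finset L).card = 5 := by
    rw [Finset.card_insert_of_notMem (by simp [*]), Finset.card_insert_of_notMem (by simp [*]),
      Finset.card_insert_of_notMem (by simp [*]), Finset.card_insert_of_notMem (by simp [*]),
      Finset.card_singleton]
  have h12 : ({o, p, q, z, i} : Finset L) ⊆ hs.toFinset := by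
    intro w hw
    simp only [Finset.mem_insert, Finset.mem_singleton] at hw
    rw [Set.Finite.mem_toFinset]
    rcases hw with rfl | rfl | rfl | rfl | rfl <;> assumption
  have h13 : ({o, p, q, z, i} : Finset L) = hs.toFinset := by
    apply Finset.eq_of_subset_of_card_le h12
    rw [h11, ← Set.ncard_eq_toFinset_card s hs]
    exact hc
  have h14 : w ∈ ({o, p, q, z, i} : Finset L) := by
    rw [h13, Set.Finite.mem_toFinset]
    exact hw
  simpa using h14

theorem five_pen {L : Type} [Lattice L] {a b : L} (hs : (Set.Icc a b).Finite)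
    (hc : (Set.Icc a b).ncard ≤ 5) {x y z : L} (hx : x ∈ Set.Icc a b) (hy : y ∈ Set.Icc a b)
    (hz : z ∈ Set.Icc a b) (hyx : y ≤ x) (hf : ¬ x ⊓ (y ⊔ z) ≤ y ⊔ (x ⊓ z))
    (inn out : L → Prop) : TBlock a b inn Bool {id} out Bool {id} := by
  have hop : x ⊓ z ≤ y ⊔ (x ⊓ z) := le_sup_right
  have hpq : y ⊔ (x ⊓ z) ≤ x ⊓ (y ⊔ z) :=
    le_inf (sup_le hyx inf_le_left) (sup_le le_sup_left (inf_le_right.trans le_sup_right))
  have hqi : x ⊓ (y ⊔ z) ≤ y ⊔ z := inf_le_right
  have hoz : x ⊓ z ≤ z := inf_le_right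
  have hzi : z ≤ y ⊔ z := le_sup_right
  have hpz : ¬ y ⊔ (x ⊓ z) ≤ z := by
    intro h
    have h1 : y ≤ z := le_sup_left.trans h
    apply hf
    rw [sup_eq_right.2 h1]
    exact le_sup_right
  have hzq : ¬ z ≤ x ⊓ (y ⊔ z) := by
    intro h
    have h1 : z ≤ x := h.trans inf_le_left
    apply hf
    rw [inf_eq_right.2 h1]
    exact inf_le_right
  have lpq : y ⊔ (x ⊓ z) < x ⊓ (y ⊔ z) := lt_of_le_not_ge hpq hf
  have lop : x ⊓ z < y ⊔ (x ⊓ z) := lt_of_le_of_ne hop (fun h => hpz (h ▸ hoz))
  have lqi : x ⊓ (y ⊔ z) < y ⊔ z := lt_of_le_of_ne hqi (fun h => hzq (h.symm ▸ hzi))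
  have loz : x ⊓ z < z :=
    lt_of_le_of_ne hoz (fun h => hzq ((le_of_eq h.symm).trans (hop.trans hpq)))
  have lzi : z < y ⊔ z :=
    lt_of_le_of_ne hzi (fun h => hpz ((hpq.trans hqi).trans (le_of_eq h.symm)))
  have ho : x ⊓ z ∈ Set.Icc a b := ⟨le_inf hx.1 hz.1, inf_le_left.trans hx.2⟩
  have hi : y ⊔ z ∈ Set.Icc a b := ⟨hy.1.trans le_sup_left, sup_le hy.2 hz.2⟩
  have hp : y ⊔ (x ⊓ z) ∈ Set.Icc a b := ⟨hy.1.trans le_sup_left, sup_le hy.2 ho.2⟩
  have hq : x ⊓ (y ⊔ z) ∈ Set.Icc a b := ⟨le_inf hx.1 hi.1, inf_le_left.trans hx.2⟩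
  have hcov := set_five hs hc ho hp hq hz hi lop.ne (lop.trans lpq).ne loz.ne
    (loz.trans lzi).ne lpq.ne (fun h => hpz h.le) (lpq.trans lqi).ne (fun h => hzq h.ge) lqi.ne
    lzi.ne
  have ha : a = x ⊓ z := by
    apply le_antisymm ho.1
    rcases hcov a ⟨le_rfl, hx.1.trans hx.2⟩ with h | h | h | h | h
    · exact h.ge
    · rw [h]; exact hop
    · rw [h]; exact hop.trans hpq
    · rw [h]; exact hoz
    · rw [h]; exact hoz.trans hzi
  have hb : b = y ⊔ z := by
    refine le_antisymm ?_ hi.2
    rcases hcov b ⟨hx.1.trans hx.2, le_rfl⟩ with h | h | h | h | h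
    · rw [h]; exact hoz.trans hzi
    · rw [h]; exact hpq.trans hqi
    · rw [h]; exact hqi
    · rw [h]; exact hzi
    · exact h.le
  refine tblock_pen (p := y ⊔ (x ⊓ z)) (q := x ⊓ (y ⊔ z)) (z := z) ?_ lpq ?_ ?_ ?_ hpz hzq ?_
    inn out
  · rw [ha]; exact lop
  · rw [hb]; exact lqi
  · rw [ha]; exact loz
  · rw [hb]; exact lzi
  · intro w hw
    rcases hcov w hw with h | h | h | h | h
    · exact Or.inl (h.trans ha.symm)
    · exact Or.inr (Or.inl h)
    · exact Or.inr (Or.inr (Or.inl h))
    · exact Or.inr (Or.inr (Or.inr (Or.inl h)))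
    · exact Or.inr (Or.inr (Or.inr (Or.inr (h.trans hb.symm))))

/-- **Blocks with at most five elements are of ordered type.** -/
theorem tblock_five {L : Type} [Lattice L] {a b : L} (hab : a ≤ b) (hs : (Set.Icc a b).Finite)
    (hc : (Set.Icc a b).ncard ≤ 5) (inn out : L → Prop) :
    TBlock a b inn Bool {id} out Bool {id} := by
  by_cases hd : ∀ x y z, x ∈ Set.Icc a b → y ∈ Set.Icc a b → z ∈ Set.Icc a b →
      x ⊓ (y ⊔ z) ≤ (x ⊓ y) ⊔ (x ⊓ z)
  · exact tblock_dist ⟨hab, hs, hd⟩ inn out
  · push Not at hd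
    obtain ⟨x, y, z, hx, hy, hz, hf⟩ := hd
    by_cases hyx : y ≤ x
    · refine five_pen hs hc hx hy hz hyx ?_ inn out
      rwa [inf_eq_right.2 hyx] at hf
    by_cases hzx : z ≤ x
    · refine five_pen hs hc hx hz hy hzx ?_ inn out
      rw [inf_eq_right.2 hzx] at hf
      rw [sup_comm z y, sup_comm z (x ⊓ y)]
      exact hf
    have hxy : ¬ x ≤ y := by
      intro h
      apply hf
      rw [inf_eq_left.2 h]
      exact inf_le_left.trans le_sup_left
    have hxz : ¬ x ≤ z := by
      intro h
      apply hf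
      rw [inf_eq_left.2 h]
      exact inf_le_left.trans le_sup_right
    have hyz : ¬ y ≤ z := by
      intro h
      apply hf
      rw [sup_eq_right.2 h]
      exact le_sup_right
    have hzy : ¬ z ≤ y := by
      intro h
      apply hf
      rw [sup_eq_left.2 h]
      exact le_sup_left
    have hcov := set_five hs hc (o := a) (p := x) (q := y) (z := z) (i := b) ⟨le_rfl, hab⟩ hx hy hz
      ⟨hab, le_rfl⟩ (fun h => hxy (h ▸ hy.1)) (fun h => hyx (h ▸ hx.1)) (fun h => hzx (h ▸ hx.1))
      (fun h => hxy (hx.2.trans (h ▸ hy.1))) (fun h => hxy h.le) (fun h => hxz h.le)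
      (fun h => hyx (h.symm ▸ hy.2)) (fun h => hyz h.le) (fun h => hxy (h.symm ▸ hx.2))
      (fun h => hxz (h.symm ▸ hx.2))
    exact tblock_dia hx hy hz hxy hyx hxz hzx hyz hzy hcov inn out

end Vale.Agent.P183.R2.H139
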