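import Mathlib.Data.Setoid.Basic
import Mathlib.Order.Interval.Set.Basic
import Mathlib.Order.Hom.Basic
import Mathlib.Data.Finite.Defs

/-!
Congruence lattices of unary algebras, and the condition on the overlaps of a ladder.
-/

namespace Vale.Agent.P183.R2.H139

/-- The congruence lattice of the unary algebra `(X, M)`: all equivalence relations on `X` which
are preserved by all maps in `M`. -/
abbrev UCon {X : Type} (M : Set (X → X)) : Type :=
  {r : Setoid X // ∀ m ∈ M, ∀ x y, r x y → r (m x) (m y)}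

/-- Let `f` be an isomorphism of `[u, v]` with the congruence lattice of `(X, M)`, and let `f'` be
an isomorphism of `[u', v']` with the congruence lattice of `(X', M')`, where `u' ≤ v ≤ v'`. They
are glued if there is a nonempty family of maps `γ t : X → X'` (charts) such that
* for `x` in both intervals `f x` is the pull back of `f' x` along each chart;
* the images of the charts are different classes of `f' v`, and the classes which are not of this
  form have one element;
* any two charts differ by a map in `M'`;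
* `m ∘ γ t`, `m` in `M'`, is constant or of the form `γ t' ∘ h`, `h` in `M`;
* `γ t ∘ h`, `h` in `M`, is constant or of the form `m ∘ γ t`, `m` in `M'`. -/
def Glued {L : Type} [Lattice L] {u v u' v' : L} {X X' : Type} {M : Set (X → X)}
    {M' : Set (X' → X')} (f : Set.Icc u v ≃o UCon M) (f' : Set.Icc u' v' ≃o UCon M') : Prop :=
  ∃ (hv : v ∈ Set.Icc u' v') (T : Type) (_ : Nonempty T) (γ : T → X → X'),
    (∀ t x (hx : x ∈ Set.Icc u v) (hx' : x ∈ Set.Icc u' v') p q,
      (f ⟨x, hx⟩).1 p q ↔ (f' ⟨x, hx'⟩).1 (γ t p) (γ t q)) ∧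
    (∀ t t' p p', (f' ⟨v, hv⟩).1 (γ t p) (γ t' p') → t = t') ∧
    (∀ t p q, (f' ⟨v, hv⟩).1 (γ t p) q → ∃ p', γ t p' = q) ∧
    (∀ p q, p ≠ q → (f' ⟨v, hv⟩).1 p q → ∃ t s, γ t s = p) ∧
    (∀ t t', ∃ m ∈ M', ∀ s, m (γ t s) = γ t' s) ∧
    (∀ m ∈ M', ∀ t, (∃ c, ∀ s, m (γ t s) = c) ∨ ∃ t', ∃ h ∈ M, ∀ s, m (γ t s) = γ t' (h s)) ∧
    (∀ h ∈ M, ∀ t, (∃ c, ∀ s, γ t (h s) = c) ∨ ∃ m ∈ M', ∀ s, m (γ t s) = γ t (h s))

/-- `[a, b]` is isomorphic to the congruence lattice of a finite (meet) semilattice. -/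
def IsSemiCon {L : Type} [Lattice L] (a b : L) : Prop :=
  ∃ (X : Type) (_ : SemilatticeInf X) (_ : Finite X) (_ : Nonempty X),
    Nonempty (Set.Icc a b ≃o
      {r : Setoid X // ∀ x y z w, r x y → r z w → r (x ⊓ z) (y ⊓ w)})

/-- `[a, b]` is isomorphic to the lattice of all equivalence relations on a finite set. -/
def IsPart {L : Type} [Lattice L] (a b : L) : Prop :=
  ∃ (X : Type) (_ : Finite X) (_ : Nonempty X), Nonempty (Set.Icc a b ≃o Setoid X)

/-- The interval `[a, b]` is finite and distributive. -/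
def IsDistr {L : Type} [Lattice L] (a b : L) : Prop :=
  a ≤ b ∧ (Set.Icc a b).Finite ∧
    ∀ x y z, x ∈ Set.Icc a b → y ∈ Set.Icc a b → z ∈ Set.Icc a b →
      x ⊓ (y ⊔ z) ≤ (x ⊓ y) ⊔ (x ⊓ z)

end Vale.Agent.P183.R2.H139
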