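import Vale.Agent.P183.R2.H139.Ladder
import Mathlib.GroupTheory.SpecificGroups.Cyclic

/-!
# The ladder theorem with order isomorphisms, and overlaps of prime index
-/

namespace Vale.Agent.P183.R2.H139

open Vale.Agent.P183

variable {L : Type} [Lattice L] [Finite L] {n : ℕ} {a b : Fin (n + 1) → L}

/-- **Ladder theorem**, form with order isomorphisms. -/
theorem ladder (ha : Monotone a) (hb : Monotone b) (h0 : ∀ x, a 0 ≤ x)
    (h1 : ∀ x, x ≤ b (Fin.last n))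
    (hab : ∀ i : Fin n, a i.succ ≤ b i.castSucc)
    (hcov : ∀ x, ∃ i, a i ≤ x ∧ x ≤ b i)
    (G : Fin (n + 1) → Type) [∀ i, Group (G i)] [∀ i, Finite (G i)] (H : ∀ i, Subgroup (G i))
    (f : ∀ i, {x : L // a i ≤ x ∧ x ≤ b i} ≃o {S : Subgroup (G i) // H i ≤ S})
    (glue : ∀ i : Fin n, ∃ (Q : Type) (_ : Group Q) (α : G i.castSucc →* Q)
      (β : (f i.succ ⟨b i.castSucc, hab i, hb Fin.castSucc_lt_succ.le⟩).1 →* Q),
      Function.Surjective α ∧ Function.Surjective β ∧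
      ∀ (x : L) (hx : a i.succ ≤ x) (hx' : x ≤ b i.castSucc), ∃ R : Subgroup Q,
        (f i.castSucc ⟨x, (ha Fin.castSucc_lt_succ.le).trans hx, hx'⟩).1 = R.comap α ∧
        (f i.succ ⟨x, hx, hx'.trans (hb Fin.castSucc_lt_succ.le)⟩).1 =
          (R.comap β).map (Subgroup.subtype _)) :
    Representable L := by
  classical
  let F : ∀ i, L → Subgroup (G i) := fun i x =>
    if h : a i ≤ x ∧ x ≤ b i then (f i ⟨x, h⟩).1 else ⊤
  have hFv : ∀ i x (h : a i ≤ x ∧ x ≤ b i), F i x = (f i ⟨x, h⟩).1 := fun i x h => dif_pos h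
  refine ladder_core a b G F ha hb h0 h1 hab hcov ?_ ?_ ?_
  · intro i x y hx hx' hy hy'
    rw [hFv i x ⟨hx, hx'⟩, hFv i y ⟨hy, hy'⟩]
    exact (f i).le_iff_le
  · intro i S hS
    by_cases hi : a i ≤ b i
    · rw [hFv i (a i) ⟨le_rfl, hi⟩] at hS
      have hHS : H i ≤ S := (f i ⟨a i, le_rfl, hi⟩).2.trans hS
      refine ⟨((f i).symm ⟨S, hHS⟩).1, ((f i).symm ⟨S, hHS⟩).2.1, ((f i).symm ⟨S, hHS⟩).2.2, ?_⟩
      rw [hFv i _ ((f i).symm ⟨S, hHS⟩).2]
      simp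
    · exfalso
      have z := (f i).symm ⟨⊤, le_top⟩
      exact hi (z.2.1.trans z.2.2)
  · intro i
    obtain ⟨Q, iQ, α, β, hα, hβ, hR⟩ := glue i
    have hEq : F i.succ (b i.castSucc) =
        (f i.succ ⟨b i.castSucc, hab i, hb Fin.castSucc_lt_succ.le⟩).1 := hFv _ _ _
    refine ⟨Q, iQ, α, β.comp (MulEquiv.subgroupCongr hEq).toMonoidHom, hα,
      hβ.comp (MulEquiv.subgroupCongr hEq).surjective, ?_⟩
    intro x hx hx'
    obtain ⟨R, hR1, hR2⟩ := hR x hx hx'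
    refine ⟨R, ?_, ?_⟩
    · rw [hFv _ _ ⟨(ha Fin.castSucc_lt_succ.le).trans hx, hx'⟩, hR1]
    · rw [hFv _ _ ⟨hx, hx'.trans (hb Fin.castSucc_lt_succ.le)⟩, hR2]
      ext u
      constructor
      · rintro ⟨v, hv, rfl⟩
        exact ⟨(MulEquiv.subgroupCongr hEq).symm v, by simpa using hv, rfl⟩
      · rintro ⟨v, hv, rfl⟩
        exact ⟨(MulEquiv.subgroupCongr hEq) v, hv, rfl⟩

/-- Overlaps that are edges, of prime index on both sides. -/
theorem ladder_edges (ha : Monotone a) (hb : Monotone b) (h0 : ∀ x, a 0 ≤ x)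
    (h1 : ∀ x, x ≤ b (Fin.last n))
    (hab : ∀ i : Fin n, a i.succ ⋖ b i.castSucc)
    (hcov : ∀ x, ∃ i, a i ≤ x ∧ x ≤ b i)
    (G : Fin (n + 1) → Type) [∀ i, Group (G i)] [∀ i, Finite (G i)] (H : ∀ i, Subgroup (G i))
    (f : ∀ i, {x : L // a i ≤ x ∧ x ≤ b i} ≃o {S : Subgroup (G i) // H i ≤ S})
    (p : Fin n → ℕ) (hp : ∀ i, (p i).Prime)
    (hN : ∀ i : Fin n,
      (f i.castSucc ⟨a i.succ, ha Fin.castSucc_lt_succ.le, (hab i).le⟩).1.Normal ∧
      (f i.castSucc ⟨a i.succ, ha Fin.castSucc_lt_succ.le, (hab i).le⟩).1.index = p i)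
    (hK : ∀ i : Fin n,
      ((H i.succ).subgroupOf
        (f i.succ ⟨b i.castSucc, (hab i).le, hb Fin.castSucc_lt_succ.le⟩).1).Normal ∧
      (H i.succ).relIndex
        (f i.succ ⟨b i.castSucc, (hab i).le, hb Fin.castSucc_lt_succ.le⟩).1 = p i) :
    Representable L := by
  refine ladder ha hb h0 h1 (fun i => (hab i).le) hcov G H f ?_
  intro i
  have : Fact (p i).Prime := ⟨hp i⟩
  set M := (f i.castSucc ⟨a i.succ, ha Fin.castSucc_lt_succ.le, (hab i).le⟩).1 with hM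
  set K := (f i.succ ⟨b i.castSucc, (hab i).le, hb Fin.castSucc_lt_succ.le⟩).1 with hKdef
  obtain ⟨n1, c1⟩ := hN i
  obtain ⟨n2, c2⟩ := hK i
  have hHK : H i.succ ≤ K :=
    (f i.succ ⟨b i.castSucc, (hab i).le, hb Fin.castSucc_lt_succ.le⟩).2
  let e : (G i.castSucc ⧸ M) ≃* (K ⧸ (H i.succ).subgroupOf K) :=
    mulEquivOfPrimeCardEq (p := p i) c1 c2
  have hH : (f i.succ ⟨a i.succ, le_rfl, (hab i).le.trans (hb Fin.castSucc_lt_succ.le)⟩).1 =
      H i.succ := by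
    apply le_antisymm
    · have h2 := (f i.succ).symm ⟨H i.succ, le_rfl⟩
      have h3 : (⟨a i.succ, le_rfl, (hab i).le.trans (hb Fin.castSucc_lt_succ.le)⟩ :
          {x : L // a i.succ ≤ x ∧ x ≤ b i.succ}) ≤ (f i.succ).symm ⟨H i.succ, le_rfl⟩ :=
        ((f i.succ).symm ⟨H i.succ, le_rfl⟩).2.1
      exact (OrderIso.le_symm_apply (f i.succ)).1 h3
    · exact (f i.succ _).2
  refine ⟨K ⧸ (H i.succ).subgroupOf K, inferInstance, e.toMonoidHom.comp (QuotientGroup.mk' M),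
    QuotientGroup.mk' _, e.surjective.comp (QuotientGroup.mk'_surjective M),
    QuotientGroup.mk'_surjective _, ?_⟩
  intro x hx hx'
  rcases (hab i).eq_or_eq hx hx' with rfl | rfl
  · refine ⟨⊥, ?_, ?_⟩
    · ext u
      simp [hM]
    · rw [hH]
      have : ((⊥ : Subgroup (K ⧸ (H i.succ).subgroupOf K)).comap
          (QuotientGroup.mk' ((H i.succ).subgroupOf K))) = (H i.succ).subgroupOf K := by
        ext u
        simp
      rw [this, Subgroup.map_subgroupOf_eq_of_le hHK]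
  · refine ⟨⊤, ?_, ?_⟩
    · rw [Subgroup.comap_top]
      apply top_le_iff.1
      have h3 : (f i.castSucc).symm ⟨⊤, le_top⟩ ≤
          (⟨b i.castSucc, (ha Fin.castSucc_lt_succ.le).trans hx, hx'⟩ :
          {x : L // a i.castSucc ≤ x ∧ x ≤ b i.castSucc}) :=
        ((f i.castSucc).symm ⟨⊤, le_top⟩).2.2
      exact (OrderIso.symm_apply_le (f i.castSucc)).1 h3
    · rw [Subgroup.comap_top]
      ext u
      simp [hKdef]

end Vale.Agent.P183.R2.H139
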