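import Mathlib.GroupTheory.GroupAction.Quotient
import Mathlib.Data.Fintype.Pi
import Mathlib.Data.Finite.Prod
import Mathlib.Data.Fintype.EquivFin
import Mathlib.Data.Fintype.Quotient
import Mathlib.Data.Finite.Sum
import Mathlib.Tactic.Group

/-!
# The twisted wreath step

Given finite groups `G`, `W`, `Q`, a subgroup `K` of `G`, a surjection `γ : W → Q` and a
surjection `β : K → Q`, there is a finite group `U` with a surjection `π : U → G` and a surjection
`ev : π⁻¹(K) → W` such that `γ (ev u) = β (π u)`.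
-/

namespace Vale.Agent.P183.R2.H139

variable {G W Q : Type*} [Group G] [Group W] [Group Q] (K : Subgroup G)

/-- A section of `G → G / K` which sends the coset `K` to `1`. -/
noncomputable def sec [DecidableEq (G ⧸ K)] (d : G ⧸ K) : G :=
  if d = ((1 : G) : G ⧸ K) then 1 else d.out

open Classical in
/-- A section of `G → G / K` which sends the coset `K` to `1`. -/
noncomputable def sc (d : G ⧸ K) : G := sec K d

theorem mk_sc (d : G ⧸ K) : ((sc K d : G) : G ⧸ K) = d := by
  classical
  unfold sc sec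
  split_ifs with h
  · exact h.symm
  · exact QuotientGroup.out_eq' d

theorem sc_one : sc K ((1 : G) : G ⧸ K) = 1 := by
  classical
  unfold sc sec
  simp

theorem coc_mem (g : G) (d : G ⧸ K) : (sc K (g • d))⁻¹ * g * sc K d ∈ K := by
  have h1 : ((sc K (g • d) : G) : G ⧸ K) = ((g * sc K d : G) : G ⧸ K) := by
    rw [mk_sc]
    conv_lhs => rw [← mk_sc K d]
    rfl
  rw [mul_assoc]
  exact QuotientGroup.eq.1 h1

/-- The cocycle `G × G/K → K`. -/
noncomputable def coc (g : G) (d : G ⧸ K) : K := ⟨(sc K (g • d))⁻¹ * g * sc K d, coc_mem K g d⟩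

theorem coc_mul (g g' : G) (d : G ⧸ K) : coc K (g * g') d = coc K g (g' • d) * coc K g' d := by
  apply Subtype.ext
  simp only [coc, Subgroup.coe_mul, mul_smul]
  group

theorem coc_one (d : G ⧸ K) : coc K 1 d = 1 := by
  apply Subtype.ext
  simp [coc]

theorem smul_one_coset {g : G} (hg : g ∈ K) : g • ((1 : G) : G ⧸ K) = ((1 : G) : G ⧸ K) := by
  have : g • ((1 : G) : G ⧸ K) = ((g * 1 : G) : G ⧸ K) := rfl
  rw [this, mul_one]
  exact (QuotientGroup.eq.2 (by simpa using hg)).symm

theorem coc_base {g : G} (hg : g ∈ K) : coc K g ((1 : G) : G ⧸ K) = ⟨g, hg⟩ := by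
  apply Subtype.ext
  simp only [coc]
  rw [smul_one_coset K hg, sc_one]
  simp

variable (γ : W →* Q) (β : K →* Q)

/-- The twisted wreath product. -/
@[ext]
structure TW where
  /-- the component in `G` -/
  fst : G
  /-- the family of components in `W` -/
  snd : G ⧸ K → W
  rel : ∀ d, γ (snd d) = β (coc K fst d)

namespace TW

variable {K γ β}

noncomputable instance : One (TW K γ β) := ⟨⟨1, fun _ => 1, fun d => by rw [coc_one]; simp⟩⟩

noncomputable instance : Mul (TW K γ β) :=
  ⟨fun a b => ⟨a.fst * b.fst, fun d => a.snd (b.fst • d) * b.snd d, fun d => by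
    rw [coc_mul, map_mul, map_mul, a.rel, b.rel]⟩⟩

noncomputable instance : Inv (TW K γ β) :=
  ⟨fun a => ⟨a.fst⁻¹, fun d => (a.snd (a.fst⁻¹ • d))⁻¹, fun d => by
    have h := coc_mul K a.fst a.fst⁻¹ d
    rw [mul_inv_cancel, coc_one] at h
    rw [map_inv, a.rel, eq_inv_of_mul_eq_one_right h.symm, map_inv]⟩⟩

@[simp] theorem one_fst : (1 : TW K γ β).fst = 1 := rfl
@[simp] theorem one_snd (d : G ⧸ K) : (1 : TW K γ β).snd d = 1 := rfl
@[simp] theorem mul_fst (a b : TW K γ β) : (a * b).fst = a.fst * b.fst := rfl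
@[simp] theorem mul_snd (a b : TW K γ β) (d : G ⧸ K) :
    (a * b).snd d = a.snd (b.fst • d) * b.snd d := rfl
@[simp] theorem inv_fst (a : TW K γ β) : (a⁻¹).fst = a.fst⁻¹ := rfl
@[simp] theorem inv_snd (a : TW K γ β) (d : G ⧸ K) :
    (a⁻¹).snd d = (a.snd (a.fst⁻¹ • d))⁻¹ := rfl

noncomputable instance : Group (TW K γ β) where
  mul_assoc a b c := by
    apply TW.ext
    · simp [mul_assoc]
    · funext d; simp [mul_assoc, mul_smul]
  one_mul a := by
    apply TW.ext
    · simp
    · funext d; simp
  mul_one a := by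
    apply TW.ext
    · simp
    · funext d; simp
  inv_mul_cancel a := by
    apply TW.ext
    · simp
    · funext d; simp

/-- The projection to `G`. -/
noncomputable def pi : TW K γ β →* G where
  toFun a := a.fst
  map_one' := rfl
  map_mul' _ _ := rfl

@[simp] theorem pi_apply (a : TW K γ β) : pi a = a.fst := rfl

theorem pi_surjective (hγ : Function.Surjective γ) :
    Function.Surjective (pi : TW K γ β →* G) := by
  intro g
  choose w hw using fun d => hγ (β (coc K g d))
  exact ⟨⟨g, w, hw⟩, rfl⟩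

/-- Evaluation at the base point. -/
noncomputable def ev : K.comap (pi : TW K γ β →* G) →* W where
  toFun a := a.1.snd ((1 : G) : G ⧸ K)
  map_one' := rfl
  map_mul' a b := by
    have hb : b.1.fst ∈ K := b.2
    show a.1.snd (b.1.fst • _) * _ = _
    rw [smul_one_coset K hb]

theorem ev_surjective (hγ : Function.Surjective γ) (hβ : Function.Surjective β) :
    Function.Surjective (ev : K.comap (pi : TW K γ β →* G) →* W) := by
  classical
  intro x
  obtain ⟨k, hk⟩ := hβ (γ x)
  choose w hw using fun d => hγ (β (coc K (k : G) d))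
  refine ⟨⟨⟨k, fun d => if d = ((1 : G) : G ⧸ K) then x else w d, ?_⟩, k.2⟩, ?_⟩
  · intro d
    by_cases hd : d = ((1 : G) : G ⧸ K)
    · subst hd
      rw [if_pos rfl, coc_base K k.2, ← hk]
    · rw [if_neg hd]; exact hw d
  · show (if ((1 : G) : G ⧸ K) = ((1 : G) : G ⧸ K) then x else _) = x
    simp

theorem gamma_ev (a : K.comap (pi : TW K γ β →* G)) : γ (ev a) = β ⟨pi a.1, a.2⟩ := by
  have h := a.1.rel ((1 : G) : G ⧸ K)
  rw [coc_base K (g := a.1.fst) a.2] at h
  exact h

instance [Finite G] [Finite W] : Finite (TW K γ β) := by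
  have hf : Function.Injective (fun a : TW K γ β => (a.fst, a.snd)) := by
    intro a b h
    simp only [Prod.mk.injEq] at h
    exact TW.ext h.1 h.2
  have : Finite (G ⧸ K) := Quotient.finite _
  exact Finite.of_injective _ hf

end TW

/-- The twisted wreath step. -/
theorem step {G W Q : Type} [Group G] [Finite G] [Group W] [Finite W] [Group Q] (K : Subgroup G)
    (γ : W →* Q) (hγ : Function.Surjective γ) (β : K →* Q) (hβ : Function.Surjective β) :
    ∃ (U : Type) (_ : Group U) (_ : Finite U) (π : U →* G) (ev : K.comap π →* W),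
      Function.Surjective π ∧ Function.Surjective ev ∧
        ∀ a : K.comap π, γ (ev a) = β ⟨π a.1, a.2⟩ :=
  ⟨TW K γ β, inferInstance, inferInstance, TW.pi, TW.ev, TW.pi_surjective hγ,
    TW.ev_surjective hγ hβ, TW.gamma_ev⟩

end Vale.Agent.P183.R2.H139
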