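import Vale.Agent.P183.R2.H139.Cut
import Vale.Agent.P183.R2.H139.Wreath
import Mathlib.Order.Fin.Basic
import Mathlib.Data.Fin.VecNotation

/-!
# Gluing group intervals along a ladder

A finite lattice which is covered by a ladder of intervals `[a i, b i]`, each isomorphic to an
interval `[H i, G i]` of the subgroup lattice of a finite group, such that consecutive intervals
are related on their overlaps by a common quotient group, is representable.
-/

namespace Vale.Agent.P183.R2.H139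

open Vale.Agent.P183

/-- The pull back along a surjection is an order embedding. -/
theorem comap_le_comap' {A B : Type} [Group A] [Group B] {φ : A →* B}
    (h : Function.Surjective φ) {S T : Subgroup B} : S.comap φ ≤ T.comap φ ↔ S ≤ T :=
  Subgroup.comap_le_comap_of_surjective h

/-- subgroups above a pull back are pull backs -/
theorem eq_comap_of_le {A B : Type} [Group A] [Group B] {φ : A →* B}
    {S : Subgroup B} {X : Subgroup A} (hX : S.comap φ ≤ X) : (X.map φ).comap φ = X := by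
  rw [Subgroup.comap_map_eq]
  refine sup_eq_left.2 (le_trans ?_ hX)
  intro u hu
  show φ u ∈ S
  rw [MonoidHom.mem_ker.1 hu]
  exact S.one_mem

section Step

variable {L : Type} [Lattice L] {G' W Q : Type} [Group G'] [Group W] [Group Q]
  {U : Type} [Group U]

/-- One step of the ladder: `e` is given below `bk`, `g` on `[a', b']`. -/
theorem ladder_step {a' bk b' : L} (hab : a' ≤ bk) (hbb : bk ≤ b')
    (hcov : ∀ x, x ≤ b' → x ≤ bk ∨ a' ≤ x)
    (e : L → Subgroup W) (he : ∀ x y, x ≤ bk → y ≤ bk → (e x ≤ e y ↔ x ≤ y))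
    (g : L → Subgroup G')
    (hg : ∀ x y, a' ≤ x → x ≤ b' → a' ≤ y → y ≤ b' → (g x ≤ g y ↔ x ≤ y))
    (hgs : ∀ S, g a' ≤ S → ∃ x, a' ≤ x ∧ x ≤ b' ∧ g x = S)
    (π : U →* G') (hπ : Function.Surjective π)
    (ev : (g bk).comap π →* W) (hev : Function.Surjective ev)
    (hO : ∀ x, a' ≤ x → x ≤ bk →
      ((e x).comap ev).map (Subgroup.subtype _) = (g x).comap π) :
    ∃ e' : L → Subgroup U,
      (∀ x y, x ≤ b' → y ≤ b' → (e' x ≤ e' y ↔ x ≤ y)) ∧
      (∀ x, a' ≤ x → x ≤ b' → e' x = (g x).comap π) ∧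
      (∀ x, x ≤ bk → e' x = ((e x).comap ev).map (Subgroup.subtype _)) := by
  classical
  let E1 : L → Subgroup U := fun x => ((e x).comap ev).map (Subgroup.subtype _)
  let E2 : L → Subgroup U := fun x => (g x).comap π
  have hE1 : ∀ x y, E1 x ≤ E1 y ↔ e x ≤ e y := by
    intro x y
    show ((e x).comap ev).map (Subgroup.subtype _) ≤ ((e y).comap ev).map (Subgroup.subtype _) ↔ _
    rw [Subgroup.map_le_map_iff_of_injective (Subgroup.subtype_injective _),
      Subgroup.comap_le_comap_of_surjective hev]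
  have hE2 : ∀ x y, E2 x ≤ E2 y ↔ g x ≤ g y := by
    intro x y
    exact Subgroup.comap_le_comap_of_surjective hπ
  have hE1K : ∀ x, E1 x ≤ E2 bk := by
    intro x u hu
    obtain ⟨v, _, rfl⟩ := hu
    exact v.2
  have hginf : ∀ y, a' ≤ y → y ≤ b' → g (y ⊓ bk) = g y ⊓ g bk := by
    intro y hy hy'
    have hi1 : a' ≤ y ⊓ bk := le_inf hy hab
    have hi2 : y ⊓ bk ≤ b' := inf_le_right.trans hbb
    apply le_antisymm
    · exact le_inf ((hg _ _ hi1 hi2 hy hy').2 inf_le_left)
        ((hg _ _ hi1 hi2 hab hbb).2 inf_le_right)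
    · have h0 : g a' ≤ g y ⊓ g bk := le_inf
        ((hg _ _ le_rfl (hab.trans hbb) hy hy').2 hy)
        ((hg _ _ le_rfl (hab.trans hbb) hab hbb).2 hab)
      obtain ⟨z, hz1, hz2, hz3⟩ := hgs _ h0
      rw [← hz3]
      refine (hg _ _ hz1 hz2 hi1 hi2).2 (le_inf ?_ ?_)
      · exact (hg _ _ hz1 hz2 hy hy').1 (hz3 ▸ inf_le_left)
      · exact (hg _ _ hz1 hz2 hab hbb).1 (hz3 ▸ inf_le_right)
  refine ⟨fun x => if x ≤ bk then E1 x else E2 x, ?_, ?_, ?_⟩
  · intro x y hx hy
    by_cases hxb : x ≤ bk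
    · by_cases hyb : y ≤ bk
      · simp only [hxb, hyb, if_true]
        rw [hE1, he x y hxb hyb]
      · simp only [hxb, hyb, if_true, if_false]
        have hya : a' ≤ y := (hcov y hy).resolve_left hyb
        constructor
        · intro h
          have h1 : E1 x ≤ E1 (y ⊓ bk) := by
            have h2 : E1 (y ⊓ bk) = E2 (y ⊓ bk) := hO _ (le_inf hya hab) inf_le_right
            rw [h2]
            show E1 x ≤ (g (y ⊓ bk)).comap π
            rw [hginf y hya hy, Subgroup.comap_inf]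
            exact le_inf h (hE1K x)
          rw [hE1, he x _ hxb inf_le_right] at h1
          exact h1.trans inf_le_left
        · intro h
          have hz1 : x ⊔ a' ≤ bk := sup_le hxb hab
          have hz2 : x ⊔ a' ≤ y := sup_le h hya
          calc E1 x ≤ E1 (x ⊔ a') := (hE1 _ _).2 ((he _ _ hxb hz1).2 le_sup_left)
            _ = E2 (x ⊔ a') := hO _ le_sup_right hz1
            _ ≤ E2 y := (hE2 _ _).2 ((hg _ _ le_sup_right (hz1.trans hbb) hya hy).2 hz2)
    · have hxa : a' ≤ x := (hcov x hx).resolve_left hxb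
      by_cases hyb : y ≤ bk
      · simp only [hxb, hyb, if_true, if_false]
        constructor
        · intro h
          exact absurd ((hg _ _ hxa hx hab hbb).1 ((hE2 _ _).1 (h.trans (hE1K y)))) hxb
        · intro h
          exact absurd (h.trans hyb) hxb
      · have hya : a' ≤ y := (hcov y hy).resolve_left hyb
        simp only [hxb, hyb, if_false]
        rw [hE2, hg _ _ hxa hx hya hy]
  · intro x hx hx'
    by_cases hxb : x ≤ bk
    · simp only [hxb, if_true]
      exact hO x hx hxb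
    · simp only [hxb, if_false]
      rfl
  · intro x hx
    simp only [hx, if_true]
    rfl

end Step

section Main

variable {L : Type} [Lattice L] {n : ℕ} (a b : Fin (n + 1) → L)
  (G : Fin (n + 1) → Type) [∀ i, Group (G i)] [∀ i, Finite (G i)]
  (F : ∀ i, L → Subgroup (G i))

/-- the induction statement -/
def Good (k : Fin (n + 1)) : Prop :=
  ∃ (W : Type) (_ : Group W) (_ : Finite W) (π : W →* G k) (e : L → Subgroup W),
    Function.Surjective π ∧
    (∀ x y, x ≤ b k → y ≤ b k → (e x ≤ e y ↔ x ≤ y)) ∧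
    (∀ x, a k ≤ x → x ≤ b k → e x = (F k x).comap π) ∧
    (∀ i ≤ k, ∀ X : Subgroup W, e (a i) ≤ X → X ≤ e (b i) → ∃ x, a i ≤ x ∧ x ≤ b i ∧ e x = X)

/-- Gluing data. -/
def GlueAt (i : Fin n) : Prop :=
  ∃ (Q : Type) (_ : Group Q) (α : G i.castSucc →* Q) (β : F i.succ (b i.castSucc) →* Q),
    Function.Surjective α ∧ Function.Surjective β ∧
    ∀ x, a i.succ ≤ x → x ≤ b i.castSucc → ∃ R : Subgroup Q,
      F i.castSucc x = R.comap α ∧ F i.succ x = (R.comap β).map (Subgroup.subtype _)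

theorem good_all (ha : Monotone a) (hb : Monotone b) (h0 : ∀ x, a 0 ≤ x)
    (hab : ∀ i : Fin n, a i.succ ≤ b i.castSucc)
    (hcov : ∀ x, ∃ i, a i ≤ x ∧ x ≤ b i)
    (hF : ∀ i x y, a i ≤ x → x ≤ b i → a i ≤ y → y ≤ b i → (F i x ≤ F i y ↔ x ≤ y))
    (hFs : ∀ i S, F i (a i) ≤ S → ∃ x, a i ≤ x ∧ x ≤ b i ∧ F i x = S)
    (hgl : ∀ i, GlueAt a b G F i) (k : Fin (n + 1)) : Good a b G F k := by
  induction k using Fin.induction with
  | zero =>
    refine ⟨G 0, inferInstance, inferInstance, MonoidHom.id _, F 0, fun x => ⟨x, rfl⟩,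
      fun x y hx hy => hF 0 x y (h0 x) hx (h0 y) hy, fun x _ _ => rfl, ?_⟩
    intro i hi X h1 _
    have : i = 0 := le_antisymm hi (Fin.zero_le i)
    subst this
    exact hFs 0 X h1
  | succ i ih =>
    obtain ⟨W, iW, iWf, π, e, hπ, he, heF, hblk⟩ := ih
    obtain ⟨Q, iQ, α, β, hα, hβ, hR⟩ := hgl i
    have hle : i.castSucc ≤ i.succ := (Fin.castSucc_lt_succ).le
    have hbb : b i.castSucc ≤ b i.succ := hb hle
    have haa : a i.castSucc ≤ a i.succ := ha hle
    obtain ⟨U, iU, iUf, π', ev, hπ', hev, hgam⟩ :=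
      step (F i.succ (b i.castSucc)) (α.comp π) (hα.comp hπ) β hβ
    have hcov' : ∀ x, x ≤ b i.succ → x ≤ b i.castSucc ∨ a i.succ ≤ x := by
      intro x _
      obtain ⟨j, hj1, hj2⟩ := hcov x
      rcases le_or_gt j i.castSucc with h | h
      · exact Or.inl (hj2.trans (hb h))
      · exact Or.inr ((ha (Fin.castSucc_lt_iff_succ_le.1 h)).trans hj1)
    have hO : ∀ x, a i.succ ≤ x → x ≤ b i.castSucc →
        ((e x).comap ev).map (Subgroup.subtype _) = (F i.succ x).comap π' := by
      intro x hx hx'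
      obtain ⟨R, hR1, hR2⟩ := hR x hx hx'
      rw [heF x (haa.trans hx) hx', hR1, hR2]
      ext u
      constructor
      · rintro ⟨v, hv, rfl⟩
        have h1 : (α.comp π) (ev v) ∈ R := hv
        rw [hgam] at h1
        exact ⟨⟨π' v.1, v.2⟩, h1, rfl⟩
      · rintro ⟨w, hw, hwu⟩
        have hwu' : (w : G i.succ) = π' u := hwu
        have hu : π' u ∈ F i.succ (b i.castSucc) := hwu' ▸ w.2
        refine ⟨⟨u, hu⟩, ?_, rfl⟩
        show (α.comp π) (ev ⟨u, hu⟩) ∈ R
        rw [hgam]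
        have : w = ⟨π' u, hu⟩ := Subtype.ext hwu'
        rw [← this]
        exact hw
    obtain ⟨e', h1, h2, h3⟩ := ladder_step (hab i) hbb hcov' e he (F i.succ)
      (fun x y => hF i.succ x y) (hFs i.succ) π' hπ' ev hev hO
    refine ⟨U, iU, iUf, π', e', hπ', h1, h2, ?_⟩
    intro j hj X hX1 hX2
    rcases eq_or_lt_of_le hj with rfl | hlt
    · have hai : a i.succ ≤ b i.succ := (hab i).trans hbb
      rw [h2 _ le_rfl hai] at hX1
      have hX3 := eq_comap_of_le hX1
      have hX4 : F i.succ (a i.succ) ≤ X.map π' := by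
        rw [← comap_le_comap' hπ', hX3]
        exact hX1
      obtain ⟨x, hx1, hx2, hx3⟩ := hFs i.succ _ hX4
      refine ⟨x, hx1, hx2, ?_⟩
      rw [h2 x hx1 hx2, hx3, hX3]
    · have hj' : j ≤ i.castSucc := Fin.le_castSucc_iff.2 hlt
      have hajbj : a j ≤ b j := by
        have := (h1 (a j) (b j) ?_ ?_).1 (hX1.trans hX2)
        · exact this
        · exact (ha hj').trans (haa.trans ((hab i).trans hbb))
        · exact (hb hj').trans hbb
      have hbj : b j ≤ b i.castSucc := hb hj'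
      have haj : a j ≤ b i.castSucc := hajbj.trans hbj
      rw [h3 _ haj] at hX1
      rw [h3 _ hbj] at hX2
      -- `X` as a subgroup of the pull back
      let K' : Subgroup U := (F i.succ (b i.castSucc)).comap π'
      have hXK : X ≤ K' := by
        intro u hu
        obtain ⟨v, _, rfl⟩ := hX2 hu
        exact v.2
      have hXs : (X.subgroupOf K').map K'.subtype = X := Subgroup.map_subgroupOf_eq_of_le hXK
      have hX1' : (e (a j)).comap ev ≤ X.subgroupOf K' := by
        rw [← Subgroup.map_le_map_iff_of_injective K'.subtype_injective, hXs]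
        exact hX1
      have hX2' : X.subgroupOf K' ≤ (e (b j)).comap ev := by
        rw [← Subgroup.map_le_map_iff_of_injective K'.subtype_injective, hXs]
        exact hX2
      have hX3 := eq_comap_of_le hX1'
      obtain ⟨x, hx1, hx2, hx3⟩ := hblk j hj' ((X.subgroupOf K').map ev)
        (by rw [← comap_le_comap' hev, hX3]; exact hX1')
        (by rw [← comap_le_comap' hev, hX3]; exact hX2')
      refine ⟨x, hx1, hx2, ?_⟩
      rw [h3 x (hx2.trans hbj), hx3, hX3, hXs]

/-- Core form of the ladder theorem. -/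
theorem ladder_core [Finite L] (ha : Monotone a) (hb : Monotone b) (h0 : ∀ x, a 0 ≤ x)
    (h1 : ∀ x, x ≤ b (Fin.last n))
    (hab : ∀ i : Fin n, a i.succ ≤ b i.castSucc)
    (hcov : ∀ x, ∃ i, a i ≤ x ∧ x ≤ b i)
    (hF : ∀ i x y, a i ≤ x → x ≤ b i → a i ≤ y → y ≤ b i → (F i x ≤ F i y ↔ x ≤ y))
    (hFs : ∀ i S, F i (a i) ≤ S → ∃ x, a i ≤ x ∧ x ≤ b i ∧ F i x = S)
    (hgl : ∀ i, GlueAt a b G F i) : Representable L := by
  obtain ⟨W, iW, iWf, π, e, hπ, he, heF, hblk⟩ := good_all a b G F ha hb h0 hab hcov hF hFs hgl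
    (Fin.last n)
  have he' : ∀ x y, e x ≤ e y ↔ x ≤ y := fun x y => he x y (h1 x) (h1 y)
  have hbt : e (b (Fin.last n)) = ⊤ := by
    have hat : a (Fin.last n) ≤ b (Fin.last n) := h1 _
    rw [heF _ hat le_rfl]
    obtain ⟨x, hx1, hx2, hx3⟩ := hFs (Fin.last n) ⊤ le_top
    have h2 : (⊤ : Subgroup (G (Fin.last n))) ≤ F (Fin.last n) (b (Fin.last n)) := by
      rw [← hx3]
      exact (hF _ _ _ hx1 hx2 hat le_rfl).2 hx2
    rw [top_le_iff.1 h2, Subgroup.comap_top]
  have hrep := cut (W := W) (e (a 0)) (I := Fin n) (fun i => e (a i.succ)) (fun i => e (b i.castSucc))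
    (fun i => (he' _ _).2 (h0 _))
  obtain ⟨A, ⟨φ⟩⟩ := hrep
  refine ⟨A, ⟨OrderIso.trans ?_ φ⟩⟩
  have hsurj : ∀ X : Subgroup W, e (a 0) ≤ X →
      (∀ i : Fin n, X ≤ e (b i.castSucc) ∨ e (a i.succ) ≤ X) → ∃ x, e x = X := by
    intro X hX0 hX
    -- for every `k` with `X ≤ e (b k)`
    have key : ∀ k : Fin (n + 1), X ≤ e (b k) → ∃ x, e x = X := by
      intro k
      induction k using Fin.induction with
      | zero =>
        intro h
        obtain ⟨x, _, _, hx⟩ := hblk 0 (Fin.zero_le _) X hX0 h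
        exact ⟨x, hx⟩
      | succ i ih =>
        intro h
        rcases hX i with h' | h'
        · exact ih h'
        · obtain ⟨x, _, _, hx⟩ := hblk i.succ (Fin.le_last _) X h' h
          exact ⟨x, hx⟩
    exact key (Fin.last n) (by rw [hbt]; exact le_top)
  have hmem : ∀ x, e (a 0) ≤ e x ∧ ∀ i : Fin n, e x ≤ e (b i.castSucc) ∨ e (a i.succ) ≤ e x := by
    intro x
    refine ⟨(he' _ _).2 (h0 x), fun i => ?_⟩
    obtain ⟨j, hj1, hj2⟩ := hcov x
    rcases le_or_gt j i.castSucc with h | h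
    · exact Or.inl ((he' _ _).2 (hj2.trans (hb h)))
    · exact Or.inr ((he' _ _).2 ((ha (Fin.castSucc_lt_iff_succ_le.1 h)).trans hj1))
  let ψ : L → {X : Subgroup W // e (a 0) ≤ X ∧
      ∀ i : Fin n, X ≤ e (b i.castSucc) ∨ e (a i.succ) ≤ X} := fun x => ⟨e x, hmem x⟩
  have hψ : ∀ x y, ψ x ≤ ψ y ↔ x ≤ y := fun x y => he' x y
  have hψi : Function.Injective ψ := fun x y h =>
    le_antisymm ((hψ x y).1 h.le) ((hψ y x).1 h.ge)
  have hψs : Function.Surjective ψ := by
    rintro ⟨X, hX0, hX⟩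
    obtain ⟨x, hx⟩ := hsurj X hX0 hX
    exact ⟨x, Subtype.ext hx⟩
  exact { Equiv.ofBijective ψ ⟨hψi, hψs⟩ with map_rel_iff' := fun {x y} => hψ x y }

end Main

end Vale.Agent.P183.R2.H139
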