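import Vale.Agent.P183.R2.H139.AEdge
import Mathlib.Data.Finite.Defs
import Mathlib.Order.Preorder.Finite
import Mathlib.Data.Set.Finite.Lattice

/-!
# Edges of ordered type: semilattices and partition lattices
-/

namespace Vale.Agent.P183.R2.H139

open Vale.Agent.P183

/-- Two classes, and no map exchanges them. -/
theorem topT_two {X : Type} {M : Set (X → X)} (hid : ∀ x, ∃ m ∈ M, m x = x ∧ ∀ y, m y = y)
    {c : Setoid X} (U : X → Prop)
    (hc : ∀ p q, c p q ↔ (U p ↔ U q)) (h1 : ∃ p, U p) (h0 : ∃ p, ¬ U p)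
    (hk : ∀ m ∈ M, Keeps m c) (hsw : ∀ m ∈ M, ∀ p q, ¬ U p → U q → U (m p) → U (m q)) :
    TopT M c Bool {id} := by
  classical
  obtain ⟨p1, hp1⟩ := h1
  obtain ⟨p0, hp0⟩ := h0
  have hπ : ∀ p q : X, (decide (U p) = decide (U q)) ↔ (U p ↔ U q) := by
    intro p q
    rw [decide_eq_decide]
  refine ⟨fun x => decide (U x), ?_, ?_, ?_, ?_⟩
  · intro y
    cases y
    · exact ⟨p0, by simp [hp0]⟩
    · exact ⟨p1, by simp [hp1]⟩
  · intro p q
    rw [hc, hπ]
  · intro m hm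
    by_cases h : U (m p0)
    · right
      refine ⟨true, fun x => ?_⟩
      have h2 : U (m p1) := hsw m hm p0 p1 hp0 hp1 h
      by_cases hx : U x
      · have := (hc _ _).1 (hk m hm x p1 ((hc _ _).2 ⟨fun _ => hp1, fun _ => hx⟩))
        simp [this.2 h2]
      · have := (hc _ _).1 (hk m hm x p0 ((hc _ _).2 ⟨fun h => absurd h hx, fun h => absurd h hp0⟩))
        simp [this.2 h]
    · by_cases h2 : U (m p1)
      · left
        refine ⟨id, rfl, fun x => ?_⟩
        show decide (U (m x)) = decide (U x)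
        rw [hπ]
        by_cases hx : U x
        · have := (hc _ _).1 (hk m hm x p1 ((hc _ _).2 ⟨fun _ => hp1, fun _ => hx⟩))
          exact ⟨fun _ => hx, fun _ => this.2 h2⟩
        · have := (hc _ _).1
            (hk m hm x p0 ((hc _ _).2 ⟨fun h => absurd h hx, fun h => absurd h hp0⟩))
          exact ⟨fun h3 => absurd (this.1 h3) h, fun h3 => absurd h3 hx⟩
      · right
        refine ⟨false, fun x => ?_⟩
        by_cases hx : U x
        · have := (hc _ _).1 (hk m hm x p1 ((hc _ _).2 ⟨fun _ => hp1, fun _ => hx⟩))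
          exact decide_eq_false (fun h3 => h2 (this.1 h3))
        · have := (hc _ _).1
            (hk m hm x p0 ((hc _ _).2 ⟨fun h => absurd h hx, fun h => absurd h hp0⟩))
          exact decide_eq_false (fun h3 => h (this.1 h3))
  · rintro nn rfl
    obtain ⟨m, hm, _, hm'⟩ := hid p0
    exact ⟨m, hm, fun x => by rw [hm' x]; rfl⟩

/-- One class `{u, v}`, `u ≠ v`, and no map exchanges its elements. -/
theorem botT_two {X : Type} {M : Set (X → X)} (hid : ∃ m ∈ M, ∀ y, m y = y) {d : Setoid X}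
    {u v : X} (huv : u ≠ v) (hd : ∀ p q, d p q ↔ p = q ∨ (p = u ∧ q = v) ∨ (p = v ∧ q = u))
    (hk : ∀ m ∈ M, Keeps m d) (hsw : ∀ m ∈ M, ¬ (m u = v ∧ m v = u)) :
    BotT M d Bool {id} := by
  classical
  obtain ⟨i, hi, hi'⟩ := hid
  refine ⟨Unit, inferInstance, fun _ y => if y then v else u, ?_, ?_, ?_, ?_, ?_, ?_, ?_, ?_⟩
  · intro _ y y' h
    cases y <;> cases y' <;> simp_all
  · intro _ y y'
    rw [hd]
    cases y <;> cases y' <;> simp
  · intro _ _ _ _ _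
    rfl
  · intro _ y q h
    rw [hd] at h
    rcases h with rfl | ⟨_, rfl⟩ | ⟨_, rfl⟩
    · exact ⟨y, rfl⟩
    · exact ⟨true, by simp⟩
    · exact ⟨false, by simp⟩
  · intro p q hne h
    rw [hd] at h
    rcases h with h | ⟨rfl, _⟩ | ⟨rfl, _⟩
    · exact absurd h hne
    · exact ⟨(), false, by simp⟩
    · exact ⟨(), true, by simp⟩
  · intro _ _
    exact ⟨i, hi, fun y => hi' _⟩
  · intro m hm _
    have h := (hd _ _).1 (hk m hm u v ((hd _ _).2 (Or.inr (Or.inl ⟨rfl, rfl⟩))))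
    rcases h with h | ⟨h1, h2⟩ | ⟨h1, h2⟩
    · left
      refine ⟨m u, fun y => ?_⟩
      cases y
      · simp
      · simp [h]
    · right
      refine ⟨(), id, rfl, fun y => ?_⟩
      cases y
      · simpa using h1
      · simpa using h2
    · exact absurd ⟨h1, h2⟩ (hsw m hm)
  · rintro nn rfl _
    exact ⟨i, hi, fun y => hi' _⟩

/-- The maps `x ↦ x ⊓ s` of a semilattice, and the identity. -/
def semiM (X : Type) [SemilatticeInf X] : Set (X → X) := {m | m = id ∨ ∃ s, m = fun x => x ⊓ s}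

/-- the equivalence relation with two classes -/
def twoC {X : Type} (U : X → Prop) : Setoid X where
  r p q := U p ↔ U q
  iseqv := ⟨fun _ => Iff.rfl, fun h => h.symm, fun h h' => h.trans h'⟩

/-- the equivalence relation with one class of at most two elements -/
def pairC {X : Type} (u v : X) : Setoid X where
  r p q := p = q ∨ (p = u ∧ q = v) ∨ (p = v ∧ q = u)
  iseqv := {
    refl := fun _ => Or.inl rfl
    symm := by
      intro p q h
      rcases h with rfl | ⟨rfl, rfl⟩ | ⟨rfl, rfl⟩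
      · exact Or.inl rfl
      · exact Or.inr (Or.inr ⟨rfl, rfl⟩)
      · exact Or.inr (Or.inl ⟨rfl, rfl⟩)
    trans := by
      intro p q s h h'
      rcases h with rfl | ⟨rfl, rfl⟩ | ⟨rfl, rfl⟩
      · exact h'
      · rcases h' with rfl | ⟨rfl, rfl⟩ | ⟨_, rfl⟩
        · exact Or.inr (Or.inl ⟨rfl, rfl⟩)
        · exact Or.inl rfl
        · exact Or.inl rfl
      · rcases h' with rfl | ⟨_, rfl⟩ | ⟨rfl, rfl⟩
        · exact Or.inr (Or.inr ⟨rfl, rfl⟩)
        · exact Or.inl rfl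
        · exact Or.inl rfl }

theorem semi_top {X : Type} [SemilatticeInf X] [Finite X] {c : Setoid X}
    (hk : ∀ m ∈ semiM X, Keeps m c) (hne : ∃ p q, ¬ c p q)
    (hmax : ∀ r : Setoid X, (∀ m ∈ semiM X, Keeps m r) → c ≤ r → (∃ p q, ¬ r p q) → r ≤ c) :
    TopT (semiM X) c Bool {id} := by
  classical
  -- a class whose least element is not below everything
  obtain ⟨p, q, hpq⟩ := hne
  have hleast : ∀ p : X, ∃ s, c p s ∧ ∀ x, c p x → s ≤ x := by
    intro p
    have hfin : {x | c p x}.Finite := Set.toFinite _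
    obtain ⟨s, hs, hmin⟩ := hfin.exists_minimal ⟨p, Setoid.refl' _ _⟩
    refine ⟨s, hs, fun x hx => ?_⟩
    have h1 : c p (s ⊓ x) := by
      have h2 : c (p ⊓ x) (s ⊓ x) := hk _ (Or.inr ⟨x, rfl⟩) _ _ hs
      have h3 : c (p ⊓ p) (x ⊓ p) := hk _ (Or.inr ⟨p, rfl⟩) _ _ hx
      rw [inf_idem, inf_comm] at h3
      exact Setoid.trans' _ h3 h2
    have h2 : s ≤ s ⊓ x := hmin h1 inf_le_left
    exact h2.trans inf_le_right
  obtain ⟨s1, hs1, hs1'⟩ := hleast p
  obtain ⟨s2, hs2, hs2'⟩ := hleast q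
  obtain ⟨s, hs, hsx⟩ : ∃ s : X, (∀ x, c s x → s ≤ x) ∧ ∃ x, ¬ s ≤ x := by
    by_cases h : s1 ≤ s2
    · refine ⟨s2, fun x hx => hs2' x (Setoid.trans' _ hs2 hx), s1, fun h' => hpq ?_⟩
      have : s1 = s2 := le_antisymm h h'
      rw [this] at hs1
      exact Setoid.trans' _ hs1 (Setoid.symm' _ hs2)
    · exact ⟨s1, fun x hx => hs1' x (Setoid.trans' _ hs1 hx), s2, h⟩
  have hsat : ∀ x y, c x y → s ≤ x → s ≤ y := by
    intro x y hxy hsx
    have h1 : c (x ⊓ s) (y ⊓ s) := hk _ (Or.inr ⟨s, rfl⟩) _ _ hxy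
    rw [inf_eq_right.2 hsx] at h1
    exact (hs _ h1).trans inf_le_left
  have hkeep : ∀ m ∈ semiM X, Keeps m (twoC (fun x => s ≤ x)) := by
    rintro m (rfl | ⟨z, rfl⟩) x y hxy
    · exact hxy
    · show s ≤ x ⊓ z ↔ s ≤ y ⊓ z
      have : (s ≤ x ↔ s ≤ y) := hxy
      rw [le_inf_iff, le_inf_iff, this]
  have hle : c ≤ twoC (fun x => s ≤ x) := fun {x y} h =>
    ⟨hsat x y h, hsat y x (Setoid.symm' _ h)⟩
  have heq : twoC (fun x => s ≤ x) ≤ c := by
    apply hmax _ hkeep hle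
    obtain ⟨x, hx⟩ := hsx
    exact ⟨s, x, fun h => hx (h.1 le_rfl)⟩
  refine topT_two (fun x => ⟨id, Or.inl rfl, rfl, fun _ => rfl⟩) (fun x => s ≤ x)
    (fun p q => ⟨fun h => hle h, fun h => heq h⟩) ⟨s, le_rfl⟩ hsx hk ?_
  rintro m (rfl | ⟨z, rfl⟩) x y hx hy hmx
  · exact hy
  · exact absurd ((show s ≤ x ⊓ z from hmx).trans inf_le_left) hx

theorem semi_bot {X : Type} [SemilatticeInf X] [Finite X] {d : Setoid X}
    (hk : ∀ m ∈ semiM X, Keeps m d) (hne : ∃ p q, p ≠ q ∧ d p q)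
    (hmin : ∀ r : Setoid X, (∀ m ∈ semiM X, Keeps m r) → r ≤ d → (∃ p q, p ≠ q ∧ r p q) → d ≤ r) :
    BotT (semiM X) d Bool {id} := by
  classical
  obtain ⟨p, q, hpq, hdpq⟩ := hne
  have hex : {v : X | ∃ u, u < v ∧ d u v}.Nonempty := by
    have h1 : d (p ⊓ q) q := by
      have := hk _ (Or.inr ⟨q, rfl⟩) _ _ hdpq
      simpa using this
    by_cases h : p ⊓ q = q
    · have h2 : d (q ⊓ p) p := by
        have := hk _ (Or.inr ⟨p, rfl⟩) _ _ (Setoid.symm' _ hdpq)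
        simpa using this
      refine ⟨p, q ⊓ p, lt_of_le_of_ne inf_le_right ?_, h2⟩
      intro h3
      apply hpq
      rw [← h3, inf_comm, h]
    · exact ⟨q, p ⊓ q, lt_of_le_of_ne inf_le_right h, h1⟩
  obtain ⟨v, ⟨u, huv, hduv⟩, hvmin⟩ := (Set.toFinite {v : X | ∃ u, u < v ∧ d u v}).exists_minimal hex
  have hkeep : ∀ m ∈ semiM X, Keeps m (pairC u v) := by
    have hz : ∀ z, u ⊓ z = v ⊓ z ∨ (u ⊓ z = u ∧ v ⊓ z = v) := by
      intro z
      by_cases hvz : v ≤ z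
      · exact Or.inr ⟨inf_eq_left.2 (huv.le.trans hvz), inf_eq_left.2 hvz⟩
      · left
        by_contra hne
        have h1 : u ⊓ z < v ⊓ z := lt_of_le_of_ne (inf_le_inf_right z huv.le) hne
        have h2 : d (u ⊓ z) (v ⊓ z) := hk _ (Or.inr ⟨z, rfl⟩) _ _ hduv
        have h3 : v ≤ v ⊓ z := hvmin ⟨u ⊓ z, h1, h2⟩ inf_le_left
        exact hvz (h3.trans inf_le_right)
    rintro m (rfl | ⟨z, rfl⟩) x y hxy
    · exact hxy
    · rcases hxy with rfl | ⟨rfl, rfl⟩ | ⟨rfl, rfl⟩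
      · exact Or.inl rfl
      · rcases hz z with h | ⟨h1, h2⟩
        · exact Or.inl h
        · exact Or.inr (Or.inl ⟨h1, h2⟩)
      · rcases hz z with h | ⟨h1, h2⟩
        · exact Or.inl h.symm
        · exact Or.inr (Or.inr ⟨h2, h1⟩)
  have hle : pairC u v ≤ d := by
    intro x y h
    rcases h with rfl | ⟨rfl, rfl⟩ | ⟨rfl, rfl⟩
    · exact Setoid.refl' _ _
    · exact hduv
    · exact Setoid.symm' _ hduv
  have hge : d ≤ pairC u v := hmin _ hkeep hle ⟨u, v, huv.ne, Or.inr (Or.inl ⟨rfl, rfl⟩)⟩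
  refine botT_two ⟨id, Or.inl rfl, fun _ => rfl⟩ huv.ne (fun p q => ⟨fun h => hge h, fun h => hle h⟩)
    hk ?_
  rintro m (rfl | ⟨z, rfl⟩) ⟨h1, h2⟩
  · exact huv.ne h1
  · have h3 : u ⊓ z = v := h1
    exact absurd (h3 ▸ inf_le_left : v ≤ u) huv.not_ge

end Vale.Agent.P183.R2.H139
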