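import Vale.Agent.P183.R2.H139.Iso
import Mathlib.GroupTheory.Nilpotent

/-!
# Ladders of intervals of `p`-groups, overlapping in edges
-/

namespace Vale.Agent.P183.R2.H139

open Vale.Agent.P183

/-- A maximal subgroup of a finite `p`-group is normal of index `p`. -/
theorem pg_coatom {P : Type} [Group P] [Finite P] {p : ℕ} [Fact p.Prime] (hP : IsPGroup p P)
    (M : Subgroup P) (hM : IsCoatom M) : M.Normal ∧ M.index = p := by
  have hnil : Group.IsNilpotent P := hP.isNilpotent
  have hN : M.Normal :=
    Subgroup.NormalizerCondition.normal_of_coatom M Group.normalizerCondition_of_isNilpotent hM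
  refine ⟨hN, ?_⟩
  have hq : IsPGroup p (P ⧸ M) := hP.to_quotient M
  have h1 : M.index ≠ 1 := fun h => hM.1 (Subgroup.index_eq_one.1 h)
  obtain ⟨m, hm⟩ := hP.index M
  have hm0 : m ≠ 0 := by
    rintro rfl
    exact h1 (by simpa using hm)
  have hdvd : p ∣ Nat.card (P ⧸ M) := by
    show p ∣ M.index
    rw [hm]
    exact dvd_pow_self p hm0
  obtain ⟨x, hx⟩ := exists_prime_orderOf_dvd_card' p hdvd
  have hlt : M < (Subgroup.zpowers x).comap (QuotientGroup.mk' M) := by
    refine lt_of_le_of_ne ?_ ?_
    · intro u hu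
      have : QuotientGroup.mk' M u = 1 := (QuotientGroup.eq_one_iff u).2 hu
      show QuotientGroup.mk' M u ∈ Subgroup.zpowers x
      rw [this]
      exact Subgroup.one_mem _
    · intro h
      obtain ⟨y, rfl⟩ := QuotientGroup.mk'_surjective M x
      have hy : y ∈ M := by
        rw [h]
        exact Subgroup.mem_zpowers _
      have : QuotientGroup.mk' M y = 1 := (QuotientGroup.eq_one_iff y).2 hy
      rw [this, orderOf_one] at hx
      exact (Fact.out : p.Prime).one_lt.ne hx
  have htop := hM.2 _ hlt
  have hz : Subgroup.zpowers x = ⊤ := by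
    rw [← top_le_iff]
    intro z _
    obtain ⟨y, rfl⟩ := QuotientGroup.mk'_surjective M z
    have : y ∈ (⊤ : Subgroup P) := Subgroup.mem_top y
    rw [← htop] at this
    exact this
  have hc : Nat.card (Subgroup.zpowers x) = p := by rw [Nat.card_zpowers, hx]
  rw [hz, Subgroup.card_top] at hc
  exact hc

variable {L : Type} [Lattice L] [Finite L] {n : ℕ} {a b : Fin (n + 1) → L}

/-- Ladders of intervals of `p`-groups that overlap in edges are representable. -/
theorem ladder_pgroups (ha : Monotone a) (hb : Monotone b) (h0 : ∀ x, a 0 ≤ x)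
    (h1 : ∀ x, x ≤ b (Fin.last n))
    (hab : ∀ i : Fin n, a i.succ ⋖ b i.castSucc)
    (hcov : ∀ x, ∃ i, a i ≤ x ∧ x ≤ b i)
    (p : ℕ) (hp : p.Prime)
    (G : Fin (n + 1) → Type) [∀ i, Group (G i)] [∀ i, Finite (G i)]
    (hG : ∀ i, IsPGroup p (G i)) (H : ∀ i, Subgroup (G i))
    (f : ∀ i, {x : L // a i ≤ x ∧ x ≤ b i} ≃o {S : Subgroup (G i) // H i ≤ S}) :
    Representable L := by
  have : Fact p.Prime := ⟨hp⟩
  refine ladder_edges ha hb h0 h1 hab hcov G H f (fun _ => p) (fun _ => hp) ?_ ?_
  · intro i
    refine pg_coatom (hG i.castSucc) _ ⟨?_, ?_⟩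
    · intro htop
      have h2 : (f i.castSucc ⟨b i.castSucc, (ha Fin.castSucc_lt_succ.le).trans (hab i).le,
          le_rfl⟩) ≤ (f i.castSucc ⟨a i.succ, ha Fin.castSucc_lt_succ.le, (hab i).le⟩) := by
        show (f i.castSucc ⟨b i.castSucc, _⟩).1 ≤ (f i.castSucc ⟨a i.succ, _⟩).1
        rw [htop]
        exact le_top
      exact (hab i).lt.not_ge ((f i.castSucc).le_iff_le.1 h2)
    · intro S hS
      have hHS : H i.castSucc ≤ S :=
        (f i.castSucc ⟨a i.succ, ha Fin.castSucc_lt_succ.le, (hab i).le⟩).2.trans hS.le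
      set x := (f i.castSucc).symm ⟨S, hHS⟩ with hx
      have hfx : f i.castSucc x = ⟨S, hHS⟩ := by rw [hx]; simp
      have hle : (⟨a i.succ, ha Fin.castSucc_lt_succ.le, (hab i).le⟩ :
          {x : L // a i.castSucc ≤ x ∧ x ≤ b i.castSucc}) ≤ x := by
        rw [← (f i.castSucc).le_iff_le, hfx]
        exact hS.le
      have hne : x.1 ≠ a i.succ := by
        intro h
        apply hS.ne
        have h3 : x = ⟨a i.succ, ha Fin.castSucc_lt_succ.le, (hab i).le⟩ := Subtype.ext h
        rw [← h3, hfx]
      have hxb : x.1 = b i.castSucc := ((hab i).eq_or_eq hle x.2.2).resolve_left hne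
      apply top_le_iff.1
      have h3 : (⟨(⊤ : Subgroup (G i.castSucc)), le_top⟩ :
          {S : Subgroup (G i.castSucc) // H i.castSucc ≤ S}) ≤ f i.castSucc x := by
        rw [← (f i.castSucc).symm_apply_le]
        show ((f i.castSucc).symm ⟨⊤, le_top⟩).1 ≤ x.1
        rw [hxb]
        exact ((f i.castSucc).symm ⟨⊤, le_top⟩).2.2
      rw [hfx] at h3
      exact h3
  · intro i
    set K := (f i.succ ⟨b i.castSucc, (hab i).le, hb Fin.castSucc_lt_succ.le⟩).1 with hK
    have hHK : H i.succ ≤ K :=
      (f i.succ ⟨b i.castSucc, (hab i).le, hb Fin.castSucc_lt_succ.le⟩).2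
    have hHa : ∀ x, f i.succ x = ⟨H i.succ, le_rfl⟩ → x.1 = a i.succ := by
      intro x hx
      apply le_antisymm _ x.2.1
      have h3 : x ≤ ⟨a i.succ, le_rfl, (hab i).le.trans (hb Fin.castSucc_lt_succ.le)⟩ := by
        rw [← (f i.succ).le_iff_le, hx]
        exact (f i.succ _).2
      exact h3
    refine pg_coatom ((hG i.succ).to_subgroup K) _ ⟨?_, ?_⟩
    · intro htop
      rw [Subgroup.subgroupOf_eq_top] at htop
      have h3 : K = H i.succ := le_antisymm htop hHK
      have h4 := hHa ⟨b i.castSucc, (hab i).le, hb Fin.castSucc_lt_succ.le⟩ (Subtype.ext h3)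
      exact (hab i).lt.ne' h4
    · intro S hS
      have hHS : H i.succ ≤ S.map K.subtype := by
        have := Subgroup.map_mono (f := K.subtype) hS.le
        rwa [Subgroup.map_subgroupOf_eq_of_le hHK] at this
      have hSK : S.map K.subtype ≤ K := by
        rintro _ ⟨v, _, rfl⟩
        exact v.2
      set x := (f i.succ).symm ⟨S.map K.subtype, hHS⟩ with hx
      have hfx : f i.succ x = ⟨S.map K.subtype, hHS⟩ := by rw [hx]; simp
      have hxb : x.1 ≤ b i.castSucc := by
        have h3 : x ≤ ⟨b i.castSucc, (hab i).le, hb Fin.castSucc_lt_succ.le⟩ := by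
          rw [← (f i.succ).le_iff_le, hfx]
          exact hSK
        exact h3
      rcases (hab i).eq_or_eq x.2.1 hxb with h | h
      · exfalso
        apply hS.ne
        have h3 : (f i.succ).symm ⟨H i.succ, le_rfl⟩ = x := by
          apply Subtype.ext
          rw [h]
          exact hHa _ (by simp)
        have h4 : (⟨H i.succ, le_rfl⟩ : {S : Subgroup (G i.succ) // H i.succ ≤ S}) =
            ⟨S.map K.subtype, hHS⟩ := by
          rw [← hfx, ← h3]; simp
        have h5 : H i.succ = S.map K.subtype := congrArg Subtype.val h4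
        have h6 : (H i.succ).subgroupOf K = S := by
          rw [h5]
          exact Subgroup.comap_map_eq_self_of_injective K.subtype_injective S
        exact h6
      · have h3 : x = ⟨b i.castSucc, (hab i).le, hb Fin.castSucc_lt_succ.le⟩ := Subtype.ext h
        have h4 : S.map K.subtype = K := by
          have := congrArg Subtype.val hfx
          rw [h3] at this
          exact this.symm
        rw [← top_le_iff]
        intro v _
        have h5 : (v : G i.succ) ∈ S.map K.subtype := by rw [h4]; exact v.2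
        obtain ⟨w, hw, hwv⟩ := h5
        have : w = v := Subtype.ext hwv
        rwa [← this]

end Vale.Agent.P183.R2.H139
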