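import Vale.Agent.P183.R2.H139.All
import Mathlib.Data.Finset.Card
import Mathlib.Data.Fintype.Basic

/-!
# Ladders of partition lattices with arbitrary overlaps

Every isomorphism of the lattice of equivalence relations on a finite set `A` with an ideal of the
lattice of equivalence relations on `B` is induced by an injection of `A` into `B`.
-/

namespace Vale.Agent.P183.R2.H139

open Vale.Agent.P183 Vale.Agent.P183.R2.H332

/-- one class `C`, the others are points -/
def clsC {B : Type} (C : Finset B) : Setoid B where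
  r x y := x = y ∨ (x ∈ C ∧ y ∈ C)
  iseqv := {
    refl := fun _ => Or.inl rfl
    symm := by
      rintro x y (rfl | ⟨h, h'⟩)
      · exact Or.inl rfl
      · exact Or.inr ⟨h', h⟩
    trans := by
      rintro x y z (rfl | ⟨h, h'⟩) h2
      · exact h2
      · rcases h2 with rfl | ⟨h3, h4⟩
        · exact Or.inr ⟨h, h'⟩
        · exact Or.inr ⟨h, h4⟩ }

theorem clsC_iff {B : Type} {C : Finset B} {x y : B} : clsC C x y ↔ x = y ∨ (x ∈ C ∧ y ∈ C) :=
  Iff.rfl

theorem clsC_le {B : Type} {C D : Finset B} (hC : 2 ≤ C.card) :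
    clsC C ≤ clsC D ↔ C ⊆ D := by
  constructor
  · intro h x hx
    obtain ⟨y, hy, hne⟩ := Finset.exists_mem_ne (by omega : 1 < C.card) x
    rcases h (Or.inr ⟨hx, hy⟩ : clsC C x y) with h1 | h1
    · exact absurd h1.symm hne
    · exact h1.1
  · intro h x y hxy
    rcases hxy with rfl | ⟨h1, h2⟩
    · exact Setoid.refl' _ _
    · exact Or.inr ⟨h h1, h h2⟩

section

variable {A B : Type} [DecidableEq A] [DecidableEq B] {φ : Setoid A → Setoid B}
  (h1 : ∀ r s, φ r ≤ φ s ↔ r ≤ s) (h2 : ∀ t, t ≤ φ ⊤ → ∃ r, φ r = t)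

include h1 h2 in
theorem phi_pair {p q : A} (hpq : p ≠ q) :
    ∃ e : Finset B, e.card = 2 ∧ φ (clsC {p, q}) = clsC e := by
  have hnb : ¬ φ (clsC {p, q}) ≤ ⊥ := by
    intro h
    have h3 : φ (clsC {p, q}) ≤ φ ⊥ := h.trans bot_le
    have h4 := (h1 _ _).1 h3
    have h5 : (⊥ : Setoid A) p q := h4 (Or.inr ⟨by simp, by simp⟩ : clsC {p, q} p q)
    exact hpq h5
  obtain ⟨x, y, hxy, hne⟩ : ∃ x y, φ (clsC {p, q}) x y ∧ x ≠ y := by
    by_contra hcon
    push Not at hcon
    exact hnb (fun {x y} h => hcon x y h)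
  refine ⟨{x, y}, Finset.card_pair hne, ?_⟩
  have hle : clsC {x, y} ≤ φ (clsC {p, q}) := by
    intro u v huv
    rcases huv with rfl | ⟨hu, hv⟩
    · exact Setoid.refl' _ _
    · simp only [Finset.mem_insert, Finset.mem_singleton] at hu hv
      rcases hu with rfl | rfl <;> rcases hv with rfl | rfl
      · exact Setoid.refl' _ _
      · exact hxy
      · exact Setoid.symm' _ hxy
      · exact Setoid.refl' _ _
  obtain ⟨r, hr⟩ := h2 _ (hle.trans ((h1 _ _).2 le_top))
  have hr1 : r ≤ clsC {p, q} := (h1 _ _).1 (hr ▸ hle)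
  have hr2 : clsC {p, q} ≤ r := by
    by_cases hrpq : r p q
    · intro u v huv
      rcases huv with rfl | ⟨hu, hv⟩
      · exact Setoid.refl' _ _
      · simp only [Finset.mem_insert, Finset.mem_singleton] at hu hv
        rcases hu with rfl | rfl <;> rcases hv with rfl | rfl
        · exact Setoid.refl' _ _
        · exact hrpq
        · exact Setoid.symm' _ hrpq
        · exact Setoid.refl' _ _
    · exfalso
      have hrb : r ≤ ⊥ := by
        intro u v huv
        have h3 := hr1 huv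
        rcases h3 with h3 | ⟨hu, hv⟩
        · exact h3
        · simp only [Finset.mem_insert, Finset.mem_singleton] at hu hv
          rcases hu with rfl | rfl <;> rcases hv with rfl | rfl
          · rfl
          · exact absurd huv hrpq
          · exact absurd (Setoid.symm' _ huv) hrpq
          · rfl
      have h3 : φ r ≤ φ ⊥ := (h1 _ _).2 hrb
      obtain ⟨r0, hr0⟩ := h2 ⊥ bot_le
      have h4 : φ ⊥ ≤ φ r0 := (h1 _ _).2 bot_le
      have h5 : clsC {x, y} x y := Or.inr ⟨by simp, by simp⟩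
      rw [← hr] at h5
      have h6 := h4 (h3 h5)
      rw [hr0] at h6
      exact hne h6
  rw [← hr, le_antisymm hr1 hr2]

include h1 h2 in
/-- the 2-sets -/
theorem exists_g : ∃ g : A → A → Finset B, (∀ p q, p ≠ q → (g p q).card = 2) ∧
    (∀ p q, p ≠ q → φ (clsC {p, q}) = clsC (g p q)) ∧ ∀ p q, g p q = g q p := by
  classical
  have h3 : ∀ s : Sym2 A, ∃ e : Finset B, ∀ p q, s = s(p, q) → p ≠ q →
      e.card = 2 ∧ φ (clsC {p, q}) = clsC e := by
    intro s
    induction s with
    | _ p q =>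
      by_cases hpq : p = q
      · refine ⟨∅, fun p' q' h hne => ?_⟩
        exfalso
        rw [Sym2.eq_iff] at h
        rcases h with ⟨rfl, rfl⟩ | ⟨rfl, rfl⟩
        · exact hne hpq
        · exact hne hpq.symm
      · obtain ⟨e, he1, he2⟩ := phi_pair h1 h2 hpq
        refine ⟨e, fun p' q' h _ => ⟨he1, ?_⟩⟩
        rw [Sym2.eq_iff] at h
        rcases h with ⟨rfl, rfl⟩ | ⟨rfl, rfl⟩
        · exact he2
        · rw [Finset.pair_comm]
          exact he2
  choose e he using h3
  exact ⟨fun p q => e s(p, q), fun p q h => (he _ p q rfl h).1, fun p q h => (he _ p q rfl h).2,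
    fun p q => by show e s(p, q) = e s(q, p); rw [Sym2.eq_swap]⟩

theorem clsC_pair_le {A : Type} [DecidableEq A] {x y : A} {t : Setoid A} :
    clsC {x, y} ≤ t ↔ t x y := by
  constructor
  · intro h
    exact h (Or.inr ⟨by simp, by simp⟩ : clsC {x, y} x y)
  · intro h u v huv
    rcases huv with rfl | ⟨hu, hv⟩
    · exact Setoid.refl' _ _
    · simp only [Finset.mem_insert, Finset.mem_singleton] at hu hv
      rcases hu with rfl | rfl <;> rcases hv with rfl | rfl
      · exact Setoid.refl' _ _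
      · exact h
      · exact Setoid.symm' _ h
      · exact Setoid.refl' _ _

theorem pair_eq {B : Type} [DecidableEq B] {e : Finset B} (he : e.card = 2) {x y : B}
    (hx : x ∈ e) (hy : y ∈ e) (hxy : x ≠ y) : e = {x, y} := by
  symm
  apply Finset.eq_of_subset_of_card_le
  · intro u hu
    simp only [Finset.mem_insert, Finset.mem_singleton] at hu
    rcases hu with rfl | rfl <;> assumption
  · rw [he, Finset.card_pair hxy]

variable {g : A → A → Finset B} (hc : ∀ p q, p ≠ q → (g p q).card = 2)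
  (hf : ∀ p q, p ≠ q → φ (clsC {p, q}) = clsC (g p q)) (hs : ∀ p q, g p q = g q p)

include h1 hf in
theorem g_ne {p q r : A} (hpq : p ≠ q) (hpr : p ≠ r) (hqr : q ≠ r) : g p q ≠ g p r := by
  intro h
  have h3 : φ (clsC {p, q}) ≤ φ (clsC {p, r}) := by rw [hf p q hpq, hf p r hpr, h]
  have h4 := clsC_pair_le.1 ((h1 _ _).1 h3)
  rcases h4 with h5 | ⟨_, h5⟩
  · exact hpq h5
  · simp only [Finset.mem_insert, Finset.mem_singleton] at h5
    rcases h5 with h5 | h5
    · exact hpq h5.symm
    · exact hqr h5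

include h1 h2 hc hf in
theorem g_tri {p q r : A} (hpq : p ≠ q) (hpr : p ≠ r) (hqr : q ≠ r) :
    g p r ⊆ g p q ∪ g q r := by
  have h3 : clsC (g p q) ⊔ clsC (g q r) ≤ φ ⊤ := by
    rw [← hf p q hpq, ← hf q r hqr]
    exact sup_le ((h1 _ _).2 le_top) ((h1 _ _).2 le_top)
  obtain ⟨t, ht⟩ := h2 _ h3
  have h4 : t p q := by
    rw [← clsC_pair_le, ← h1, ht, hf p q hpq]
    exact le_sup_left
  have h5 : t q r := by
    rw [← clsC_pair_le, ← h1, ht, hf q r hqr]
    exact le_sup_right
  have h6 : t p r := Setoid.trans' _ h4 h5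
  rw [← clsC_pair_le, ← h1, ht, hf p r hpr] at h6
  rw [← clsC_le (hc p r hpr).ge]
  refine h6.trans (sup_le ?_ ?_)
  · rw [clsC_le (hc p q hpq).ge]
    exact Finset.subset_union_left
  · rw [clsC_le (hc q r hqr).ge]
    exact Finset.subset_union_right

include h1 h2 hc hf hs in
theorem g_share {p q r : A} (hpq : p ≠ q) (hpr : p ≠ r) (hqr : q ≠ r) :
    ∃ x, x ∈ g p q ∧ x ∈ g p r := by
  by_contra hcon
  push Not at hcon
  have h3 := g_tri h1 h2 hc hf hpr hpq hqr.symm
  have h4 : g p q ⊆ g r q := by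
    intro x hx
    rcases Finset.mem_union.1 (h3 hx) with h5 | h5
    · exact absurd h5 (hcon x hx)
    · exact h5
  have h5 : g p q = g r q :=
    Finset.eq_of_subset_of_card_le h4 (by rw [hc p q hpq, hc r q hqr.symm])
  rw [hs p q, hs r q] at h5
  exact g_ne h1 hf hpq.symm hqr hpr h5

include h1 h2 hc hf hs in
theorem g_four {p q r s : A} (hpq : p ≠ q) (hpr : p ≠ r) (hqr : q ≠ r) (hps : p ≠ s)
    (hqs : q ≠ s) (hrs : r ≠ s) : ¬ g p s ⊆ g p q ∪ g p r := by
  intro hsub
  obtain ⟨x, hx1, hx2⟩ := g_share h1 h2 hc hf hs hpq hpr hqr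
  have h3 : ∀ u ∈ g p q ∪ g p r, φ (clsC {p, q, r}) u x := by
    intro u hu
    rcases Finset.mem_union.1 hu with hu | hu
    · have h4 : φ (clsC {p, q}) ≤ φ (clsC {p, q, r}) := by
        rw [h1, clsC_pair_le]
        exact Or.inr ⟨by simp, by simp⟩
      apply h4
      rw [hf p q hpq]
      exact Or.inr ⟨hu, hx1⟩
    · have h4 : φ (clsC {p, r}) ≤ φ (clsC {p, q, r}) := by
        rw [h1, clsC_pair_le]
        exact Or.inr ⟨by simp, by simp⟩
      apply h4
      rw [hf p r hpr]
      exact Or.inr ⟨hu, hx2⟩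
  have h5 : φ (clsC {p, s}) ≤ φ (clsC {p, q, r}) := by
    rw [hf p s hps]
    intro u v huv
    rcases huv with rfl | ⟨hu, hv⟩
    · exact Setoid.refl' _ _
    · exact Setoid.trans' _ (h3 u (hsub hu)) (Setoid.symm' _ (h3 v (hsub hv)))
  rw [h1, clsC_pair_le] at h5
  rcases h5 with h5 | ⟨_, h5⟩
  · exact hps h5
  · simp only [Finset.mem_insert, Finset.mem_singleton] at h5
    rcases h5 with h5 | h5 | h5
    · exact hps h5.symm
    · exact hqs h5.symm
    · exact hrs h5.symm

include h1 h2 hc hf hs in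
theorem center {p q r : A} (hpq : p ≠ q) (hpr : p ≠ r) (hqr : q ≠ r) :
    ∃ x, ∀ s, s ≠ p → x ∈ g p s := by
  obtain ⟨x, hx1, hx2⟩ := g_share h1 h2 hc hf hs hpq hpr hqr
  refine ⟨x, fun s hsp => ?_⟩
  by_cases hsq : s = q
  · rw [hsq]; exact hx1
  by_cases hsr : s = r
  · rw [hsr]; exact hx2
  by_contra hxs
  obtain ⟨y, hy1, hy2⟩ := g_share h1 h2 hc hf hs (Ne.symm hsp) hpq hsq
  obtain ⟨z, hz1, hz2⟩ := g_share h1 h2 hc hf hs (Ne.symm hsp) hpr hsr
  have hyx : y ≠ x := fun h => hxs (h ▸ hy1)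
  have hzx : z ≠ x := fun h => hxs (h ▸ hz1)
  have hyz : y ≠ z := by
    intro h
    apply g_ne h1 hf hpq hpr hqr
    rw [pair_eq (hc p q hpq) hy2 hx1 hyx, pair_eq (hc p r hpr) hz2 hx2 hzx, h]
  apply g_four h1 h2 hc hf hs hpq hpr hqr (Ne.symm hsp) (Ne.symm hsq) (Ne.symm hsr)
  rw [pair_eq (hc p s (Ne.symm hsp)) hy1 hz1 hyz]
  intro u hu
  simp only [Finset.mem_insert, Finset.mem_singleton] at hu
  rcases hu with rfl | rfl
  · exact Finset.mem_union_left _ hy2
  · exact Finset.mem_union_right _ hz2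

include h1 h2 hc hf hs in
theorem exists_points [Nonempty B] :
    ∃ γ : A → B, ∀ p q, p ≠ q → γ p ≠ γ q ∧ g p q = {γ p, γ q} := by
  classical
  by_cases h3 : ∃ a b c : A, a ≠ b ∧ a ≠ c ∧ b ≠ c
  · obtain ⟨a, b, c, hab, hac, hbc⟩ := h3
    have third : ∀ p q : A, p ≠ q → ∃ r, p ≠ r ∧ q ≠ r := by
      intro p q hpq
      by_contra hcon
      push Not at hcon
      have ha := hcon a
      have hb := hcon b
      have hc' := hcon c
      by_cases e1 : p = a
      · by_cases e2 : p = b
        · exact hab (e1.symm.trans e2)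
        · have e3 := hb e2
          by_cases e4 : p = c
          · exact hac (e1.symm.trans e4)
          · exact hbc (e3.symm.trans (hc' e4))
      · have e2 := ha e1
        by_cases e3 : p = b
        · by_cases e4 : p = c
          · exact hbc (e3.symm.trans e4)
          · exact hac (e2.symm.trans (hc' e4))
        · exact hab (e2.symm.trans (hb e3))
    have hcen : ∀ p, ∃ x, ∀ s, s ≠ p → x ∈ g p s := by
      intro p
      obtain ⟨q, hpq⟩ : ∃ q, p ≠ q := by
        by_cases e : p = a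
        · exact ⟨b, fun h => hab (e.symm.trans h)⟩
        · exact ⟨a, e⟩
      obtain ⟨r, hpr, hqr⟩ := third p q hpq
      exact center h1 h2 hc hf hs hpq hpr hqr
    choose γ hγ using hcen
    refine ⟨γ, fun p q hpq => ?_⟩
    have hne : γ p ≠ γ q := by
      intro h
      obtain ⟨r, hpr, hqr⟩ := third p q hpq
      have k1 : γ p ∈ g p q := hγ p q hpq.symm
      have k2 : γ p ∈ g p r := hγ p r hpr.symm
      have k3 : γ p ∈ g q r := h ▸ hγ q r hqr.symm
      obtain ⟨y, hy, hyx⟩ := Finset.exists_mem_ne (by rw [hc p r hpr]; omega) (γ p)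
      have k4 := pair_eq (hc p r hpr) hy k2 hyx
      rcases Finset.mem_union.1 (g_tri h1 h2 hc hf hpq hpr hqr hy) with k5 | k5
      · apply g_ne h1 hf hpq hpr hqr
        rw [k4, pair_eq (hc p q hpq) k5 k1 hyx]
      · have k6 := pair_eq (hc q r hqr) k5 k3 hyx
        have k7 : g r p = g r q := by rw [hs r p, hs r q, k4, k6]
        exact g_ne h1 hf hpr.symm hqr.symm hpq k7
    refine ⟨hne, ?_⟩
    have k1 : γ p ∈ g p q := hγ p q hpq.symm
    have k2 : γ q ∈ g p q := by rw [hs]; exact hγ q p hpq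
    exact pair_eq (hc p q hpq) k1 k2 hne
  · push Not at h3
    by_cases h4 : ∃ a b : A, a ≠ b
    · obtain ⟨a, b, hab⟩ := h4
      obtain ⟨x, y, hxy, he⟩ := Finset.card_eq_two.1 (hc a b hab)
      have hA : ∀ p, p = a ∨ p = b := by
        intro p
        by_cases e1 : p = a
        · exact Or.inl e1
        · exact Or.inr (h3 a b p hab (Ne.symm e1)).symm
      refine ⟨fun p => if p = a then x else y, fun p q hpq => ?_⟩
      rcases hA p with hp | hp <;> rcases hA q with hq | hq
      · exact absurd (hp.trans hq.symm) hpq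
      · subst hp
        subst hq
        refine ⟨?_, ?_⟩
        · simp only [if_true, hab.symm, if_false]
          exact hxy
        · rw [he]
          simp only [if_true, hab.symm, if_false]
      · subst hp
        subst hq
        refine ⟨?_, ?_⟩
        · simp only [if_true, hab.symm, if_false]
          exact hxy.symm
        · rw [hs, he, Finset.pair_comm]
          simp only [if_true, hab.symm, if_false]
      · exact absurd (hp.trans hq.symm) hpq
    · push Not at h4
      exact ⟨fun _ => Classical.arbitrary B, fun p q hpq => absurd (h4 p q) hpq⟩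

include h1 h2 in
/-- **Isomorphisms with ideals of partition lattices are induced by injections.** -/
theorem induced [Nonempty B] : ∃ γ : A → B, (∀ r p q, r p q ↔ φ r (γ p) (γ q)) ∧
    (∀ p y, φ ⊤ (γ p) y → ∃ q, γ q = y) ∧ ∀ x y, x ≠ y → φ ⊤ x y → ∃ p, γ p = x := by
  classical
  obtain ⟨g, hc, hf, hs⟩ := exists_g h1 h2
  obtain ⟨γ, hγ⟩ := exists_points h1 h2 hc hf hs
  have hcov : ∀ x y, x ≠ y → φ ⊤ x y → ∃ p, γ p = x := by
    intro x y hxy h
    obtain ⟨r, hr⟩ := h2 _ (clsC_pair_le.2 h)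
    obtain ⟨p, q, hpq, hne⟩ : ∃ p q, r p q ∧ p ≠ q := by
      by_contra hcon
      push Not at hcon
      have h3 : r ≤ ⊥ := fun {p q} h => hcon p q h
      obtain ⟨r0, hr0⟩ := h2 ⊥ bot_le
      have h4 : φ r ≤ φ r0 := (h1 _ _).2 (h3.trans bot_le)
      rw [hr, hr0, clsC_pair_le] at h4
      exact hxy h4
    have h3 : clsC {p, q} ≤ r := clsC_pair_le.2 hpq
    rw [← h1, hr, hf p q hne, clsC_le (hc p q hne).ge] at h3
    have h4 : g p q = {x, y} := Finset.eq_of_subset_of_card_le h3 (by
      rw [Finset.card_pair hxy, hc p q hne])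
    rw [(hγ p q hne).2] at h4
    have h5 : x ∈ ({γ p, γ q} : Finset B) := by rw [h4]; simp
    simp only [Finset.mem_insert, Finset.mem_singleton] at h5
    rcases h5 with h5 | h5
    · exact ⟨p, h5.symm⟩
    · exact ⟨q, h5.symm⟩
  refine ⟨γ, ?_, ?_, hcov⟩
  · intro r p q
    by_cases hpq : p = q
    · subst hpq
      exact ⟨fun _ => Setoid.refl' _ _, fun _ => Setoid.refl' _ _⟩
    · rw [← clsC_pair_le, ← h1, hf p q hpq, (hγ p q hpq).2, clsC_pair_le]
  · intro p y h
    by_cases hy : γ p = y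
    · exact ⟨p, hy⟩
    · exact hcov y (γ p) (Ne.symm hy) (Setoid.symm' _ h)

end

/-- Overlaps of two full partition lattices are glued by one chart. -/
theorem glues_part {L X X' : Type} [Lattice L] [Nonempty X'] {a b a' b' : L}
    {F : L → Setoid X} {F' : L → Setoid X'} (hB : UBlock {id} F a b) (hB' : UBlock {id} F' a' b')
    (haa : a ≤ a') (hab : a' ≤ b) (hbb : b ≤ b') :
    Glues ({id} : Set (X → X)) F ({id} : Set (X' → X')) F' a' b := by
  classical
  have hall : ∀ r : Setoid X, ∀ m ∈ ({id} : Set (X → X)), Keeps m r := by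
    rintro r m rfl x y h
    exact h
  have hall' : ∀ r : Setoid X', ∀ m ∈ ({id} : Set (X' → X')), Keeps m r := by
    rintro r m rfl x y h
    exact h
  have hfull := fun r => hB.full r (hall r)
  choose e he1 he2 he3 using hfull
  have he : ∀ x, a ≤ x → x ≤ b → e (F x) = x := by
    intro x hx hx'
    apply le_antisymm
    · exact (hB.le _ _ (he1 _) (he2 _) hx hx').1 (he3 _).le
    · exact (hB.le _ _ hx hx' (he1 _) (he2 _)).1 (he3 _).ge
  let c : Setoid X := F a'
  let mk : X → Quotient c := Quotient.mk c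
  have hmk : Function.Surjective mk := Quotient.mk_surjective
  have hcmp : ∀ r : Setoid (Quotient c), c ≤ r.comap mk := by
    intro r x y h
    show r (mk x) (mk y)
    have : mk x = mk y := Quotient.sound h
    rw [this]
  have hge : ∀ r : Setoid (Quotient c), a' ≤ e (r.comap mk) := by
    intro r
    refine (hB.le _ _ haa hab (he1 _) (he2 _)).1 ?_
    rw [he3]
    exact hcmp r
  let φ : Setoid (Quotient c) → Setoid X' := fun r => F' (e (r.comap mk))
  have h1 : ∀ r s, φ r ≤ φ s ↔ r ≤ s := by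
    intro r s
    show F' _ ≤ F' _ ↔ _
    rw [hB'.le _ _ (hge r) ((he2 _).trans hbb) (hge s) ((he2 _).trans hbb),
      ← hB.le _ _ (he1 _) (he2 _) (he1 _) (he2 _), he3, he3]
    constructor
    · intro h x y hxy
      obtain ⟨x, rfl⟩ := hmk x
      obtain ⟨y, rfl⟩ := hmk y
      exact h (show r.comap mk x y from hxy)
    · intro h x y hxy
      exact h hxy
  have hout : ∀ x, a' ≤ x → x ≤ b → ∃ r : Setoid (Quotient c), r.comap mk = F x := by
    intro x hx hx'
    have hcx : c ≤ F x := (hB.le _ _ haa hab (haa.trans hx) hx').2 hx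
    have ho : ∀ p, F x (Quotient.out (mk p)) p := fun p => hcx (Quotient.mk_out (s := c) p)
    refine ⟨(F x).comap Quotient.out, ?_⟩
    ext p q
    show F x (Quotient.out (mk p)) (Quotient.out (mk q)) ↔ F x p q
    constructor
    · intro h
      exact Setoid.trans' _ (Setoid.trans' _ (Setoid.symm' _ (ho p)) h) (ho q)
    · intro h
      exact Setoid.trans' _ (Setoid.trans' _ (ho p) h) (Setoid.symm' _ (ho q))
  have hφ : ∀ x, a' ≤ x → x ≤ b → ∀ r : Setoid (Quotient c), r.comap mk = F x → φ r = F' x := by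
    intro x hx hx' r hr
    show F' (e (r.comap mk)) = F' x
    rw [hr, he x (haa.trans hx) hx']
  have htop : φ ⊤ = F' b := by
    refine hφ b hab le_rfl ⊤ ?_
    ext p q
    exact ⟨fun _ => hB.top p q, fun _ => trivial⟩
  have h2 : ∀ t, t ≤ φ ⊤ → ∃ r, φ r = t := by
    intro t ht
    obtain ⟨y, hy1, hy2, hy3⟩ := hB'.full t (hall' t)
    rw [htop, ← hy3, hB'.le _ _ hy1 hy2 hab hbb] at ht
    obtain ⟨r, hr⟩ := hout y hy1 ht
    exact ⟨r, (hφ y hy1 ht r hr).trans hy3⟩
  obtain ⟨γ, k1, k2, k3⟩ := induced h1 h2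
  refine ⟨Unit, inferInstance, fun _ x => γ (mk x), ?_, ?_, ?_, ?_, ?_, ?_, ?_⟩
  · intro _ x hx hx' p q
    obtain ⟨r, hr⟩ := hout x hx hx'
    rw [← hφ x hx hx' r hr, ← k1, ← hr]
    exact Iff.rfl
  · intro _ _ _ _ _
    rfl
  · intro _ p q h
    rw [← htop] at h
    obtain ⟨y, hy⟩ := k2 _ _ h
    obtain ⟨p', rfl⟩ := hmk y
    exact ⟨p', hy⟩
  · intro p q hne h
    rw [← htop] at h
    obtain ⟨y, hy⟩ := k3 _ _ hne h
    obtain ⟨s, rfl⟩ := hmk y
    exact ⟨(), s, hy⟩
  · intro _ _
    exact ⟨id, rfl, fun _ => rfl⟩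
  · rintro m rfl _
    exact Or.inr ⟨(), id, rfl, fun _ => rfl⟩
  · rintro h rfl _
    exact Or.inr ⟨id, rfl, fun _ => rfl⟩

/-- **Ladders of partition lattices, arbitrary overlaps.** -/
theorem part_ladder {L : Type} [Lattice L] {k : ℕ} (S : Ladder L k)
    (h : ∀ i, IsPart (S.a i) (S.b i)) : Representable L := by
  choose X iF iN f using h
  have hF : ∀ i, ∃ F : L → Setoid (X i), UBlock {id} F (S.a i) (S.b i) := by
    intro i
    obtain ⟨f⟩ := f i
    let e : Setoid (X i) ≃o {r : Setoid (X i) // ∀ m ∈ ({id} : Set (X i → X i)), Keeps m r} :=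
      { toFun := fun r => ⟨r, by rintro m rfl x y h; exact h⟩
        invFun := fun r => r.1
        left_inv := fun _ => rfl
        right_inv := fun _ => rfl
        map_rel_iff' := Iff.rfl }
    obtain ⟨F, hB, _⟩ := ublock_of_iso (M := {id}) (fun r => Iff.rfl) (f.trans e)
    exact ⟨F, hB⟩
  choose F hB using hF
  exact alg_ladder (X := X) (M := fun _ => {id}) (F := F) S.mono_a S.mono_b S.overlap S.cover hB
    (fun i => glues_part (hB i.castSucc) (hB i.succ) (S.mono_a Fin.castSucc_lt_succ.le)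
      (S.overlap i) (S.mono_b Fin.castSucc_lt_succ.le))

end Vale.Agent.P183.R2.H139
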