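import Vale.Agent.P183.R2.H139.Part

/-!
# Blocks of ordered type, edges, and arbitrary overlaps of partition lattices
-/

namespace Vale.Agent.P183.R2.H139

open Vale.Agent.P183 Vale.Agent.P183.R2.H332

/-- A representation of ordered type, with no maps when `[a, b]` is a partition lattice. -/
theorem exists_rep {L : Type} [Lattice L] {a b : L} (hab : a ≤ b)
    (h : IsDistr a b ∨ IsSemiCon a b ∨ IsPart a b ∨ (Set.Icc a b).encard ≤ 5) :
    ∃ (X : Type) (_ : Finite X) (_ : Nonempty X) (M : Set (X → X)) (F : L → Setoid X),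
      UBlock M F a b ∧ (∀ c, a ⋖ c → c ≤ b → BotT M (F c) Bool {id}) ∧
      (∀ c, a ≤ c → c ⋖ b → TopT M (F c) Bool {id}) ∧ (IsPart a b → M = {id}) := by
  classical
  by_cases hp : IsPart a b
  · obtain ⟨X, iF, iN, ⟨f⟩⟩ := hp
    let e : Setoid X ≃o {r : Setoid X // ∀ m ∈ ({id} : Set (X → X)), Keeps m r} :=
      { toFun := fun r => ⟨r, by rintro m rfl x y h; exact h⟩
        invFun := fun r => r.1
        left_inv := fun _ => rfl
        right_inv := fun _ => rfl
        map_rel_iff' := Iff.rfl }
    obtain ⟨F, hB, _⟩ := ublock_of_iso (M := {id}) (fun r => Iff.rfl) (f.trans e)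
    have hall : ∀ r : Setoid X, ∀ m ∈ ({id} : Set (X → X)), Keeps m r := by
      rintro r m rfl x y h
      exact h
    refine ⟨X, iF, iN, {id}, F, hB, ?_, ?_, fun _ => rfl⟩
    · intro c hc hcb
      obtain ⟨⟨p, q, hne, hpq⟩, h2⟩ := hB.mini hc hcb
      have hle : pairC p q ≤ F c := by
        intro x y h
        rcases h with rfl | ⟨rfl, rfl⟩ | ⟨rfl, rfl⟩
        · exact Setoid.refl' _ _
        · exact hpq
        · exact Setoid.symm' _ hpq
      have hge := h2 _ (hall _) hle ⟨p, q, hne, Or.inr (Or.inl ⟨rfl, rfl⟩)⟩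
      refine botT_two (M := {id}) ⟨id, rfl, fun _ => rfl⟩ hne
        (fun x y => ⟨fun h => hge h, fun h => hle h⟩) (hall _) ?_
      rintro m rfl ⟨h, _⟩
      exact hne h
    · intro c hc hcb
      obtain ⟨⟨p, q, hpq⟩, h2⟩ := hB.maxi hc hcb
      have hle : F c ≤ twoC (fun x => F c p x) := fun {x y} h =>
        ⟨fun h' => Setoid.trans' _ h' h, fun h' => Setoid.trans' _ h' (Setoid.symm' _ h)⟩
      have hge := h2 _ (hall _) hle ⟨p, q, fun h => hpq (h.1 (Setoid.refl' _ _))⟩
      refine topT_two (M := {id}) (fun x => ⟨id, rfl, rfl, fun _ => rfl⟩) (fun x => F c p x)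
        (fun x y => ⟨fun h => hle h, fun h => hge h⟩) ⟨p, Setoid.refl' _ _⟩ ⟨q, hpq⟩ (hall _) ?_
      rintro m rfl x y hx _ h
      exact absurd h hx
  · have ht : TBlock a b (fun _ => True) Bool {id} (fun _ => True) Bool {id} := by
      rcases h with h | h | h | h
      · exact tblock_dist h _ _
      · exact tblock_semi h _ _
      · exact absurd h hp
      · have hfin : (Set.Icc a b).Finite := Set.finite_of_encard_le_coe (k := 5) h
        have hc : (Set.Icc a b).ncard ≤ 5 := by
          rw [← hfin.cast_ncard_eq] at h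
          exact_mod_cast h
        exact tblock_five hab hfin hc _ _
    obtain ⟨X, iF, iN, M, F, hB, h1, h2⟩ := ht
    exact ⟨X, iF, iN, M, F, hB, fun c hc hc' => h1 c hc hc' trivial,
      fun c hc hc' => h2 c hc hc' trivial, fun h => absurd h hp⟩

/-- **Ladders of ordered type**: each block is distributive, the congruence lattice of a finite
semilattice, a full partition lattice, or has at most five elements; each overlap is an edge, or an
arbitrary overlap of two full partition lattices. -/
theorem order_ladder6 {L : Type} [Lattice L] {k : ℕ} (S : Ladder L k)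
    (hB : ∀ i, IsDistr (S.a i) (S.b i) ∨ IsSemiCon (S.a i) (S.b i) ∨ IsPart (S.a i) (S.b i) ∨
      (Set.Icc (S.a i) (S.b i)).encard ≤ 5)
    (he : ∀ i : Fin k, S.a i.succ ⋖ S.b i.castSucc ∨
      (IsPart (S.a i.castSucc) (S.b i.castSucc) ∧ IsPart (S.a i.succ) (S.b i.succ))) :
    Representable L := by
  have hr := fun i => exists_rep (ladder_le S i) (hB i)
  choose X iF iN M F hU hb ht hp using hr
  refine alg_ladder (X := X) (M := M) (F := F) S.mono_a S.mono_b S.overlap S.cover hU ?_
  intro i
  rcases he i with h | ⟨h1, h2⟩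
  · exact glues_of_types (hU i.castSucc) (hU i.succ) h
      (ht i.castSucc _ (S.mono_a Fin.castSucc_lt_succ.le) h)
      (hb i.succ _ h (S.mono_b Fin.castSucc_lt_succ.le))
  · have e1 := hp i.castSucc h1
    have e2 := hp i.succ h2
    have u1 := hU i.castSucc
    have u2 := hU i.succ
    rw [e1] at u1
    rw [e2] at u2
    rw [e1, e2]
    exact glues_part u1 u2 (S.mono_a Fin.castSucc_lt_succ.le) (S.overlap i)
      (S.mono_b Fin.castSucc_lt_succ.le)

end Vale.Agent.P183.R2.H139
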