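import Vale.Agent.P183.R2.H139.Types
import Vale.Agent.P183.R2.H332.LadderDefs

/-!
# Mixed ladders, in terms of the structure `Ladder`
-/

namespace Vale.Agent.P183.R2.H139

open Vale.Agent.P183 Vale.Agent.P183.R2.H332

theorem finite_of_pInt {L : Type} [Lattice L] {r : ℕ} {a b : L} (h : PInt r a b) :
    Finite {x : L // a ≤ x ∧ x ≤ b} := by
  obtain ⟨G, _, _, H, _, ⟨f⟩⟩ := h
  exact Finite.of_equiv _ f.symm.toEquiv

theorem finite_of_isM {L : Type} [Lattice L] {m : ℕ} {a b : L} (h : IsM (m + 1) a b) :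
    Finite {x : L // a ≤ x ∧ x ≤ b} := by
  have h1 : Finite {x : L // a < x ∧ x < b} := by
    apply Nat.finite_of_card_ne_zero
    rw [h.2.2]
    omega
  have h2 : ({x : L | a < x ∧ x < b} : Set L).Finite := h1
  have h3 : ({x : L | a ≤ x ∧ x ≤ b} : Set L).Finite := by
    refine ((h2.insert a).insert b).subset ?_
    intro x hx
    rcases eq_or_lt_of_le hx.2 with h | h
    · exact Or.inl h
    · rcases eq_or_lt_of_le hx.1 with h' | h'
      · exact Or.inr (Or.inl h'.symm)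
      · exact Or.inr (Or.inr ⟨h', h⟩)
  exact h3

theorem mixed_ladder {L : Type} [Lattice L] {k : ℕ} (S : Ladder L k) {r : ℕ} (hr : r.Prime)
    (he : ∀ i : Fin k, S.a i.succ ⋖ S.b i.castSucc)
    (hB : ∀ i, (∃ (G : Type) (_ : Group G) (_ : Finite G) (H : Subgroup G), IsPGroup r G ∧
        Nonempty (Set.Icc (S.a i) (S.b i) ≃o Set.Ici H)) ∨
      ∃ p : ℕ, p.Prime ∧ r ∣ p - 1 ∧ IsAntichain (· ≤ ·) (Set.Ioo (S.a i) (S.b i)) ∧
        (Set.Ioo (S.a i) (S.b i)).ncard = p + 1 ∧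
        ∀ j l : Fin k, j.succ = i → l.castSucc = i → S.b j.castSucc ≠ S.a l.succ) :
    Representable L := by
  have h0 : ∀ x, S.a 0 ≤ x := by
    intro x
    obtain ⟨i, h1, _⟩ := S.cover x
    exact (S.mono_a (Fin.zero_le _)).trans h1
  have h1 : ∀ x, x ≤ S.b (Fin.last k) := by
    intro x
    obtain ⟨i, _, h2⟩ := S.cover x
    exact h2.trans (S.mono_b (Fin.le_last _))
  have hB' : ∀ i, PInt r (S.a i) (S.b i) ∨ ∃ p : ℕ, p.Prime ∧ r ∣ p - 1 ∧
      IsM (p + 1) (S.a i) (S.b i) ∧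
      ∀ j k' : Fin k, j.succ = i → k'.castSucc = i → S.b j.castSucc ≠ S.a k'.succ := by
    intro i
    rcases hB i with ⟨G, iG, iF, H, hG, f⟩ | ⟨p, hp, hrp, hA, hc, hne⟩
    · exact Or.inl ⟨G, iG, iF, H, hG, f⟩
    · refine Or.inr ⟨p, hp, hrp, ⟨?_, ?_, hc⟩, hne⟩
      · have hne' : (Set.Ioo (S.a i) (S.b i)).Nonempty := by
          apply Set.nonempty_of_ncard_ne_zero
          rw [hc]
          omega
        obtain ⟨x, hx⟩ := hne'
        exact hx.1.trans hx.2
      · intro x y hx hxy hy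
        exact hA.eq ⟨hx, hxy.trans_lt hy⟩ ⟨hx.trans_le hxy, hy⟩ hxy
  have hfin : Finite L := by
    have h2 : ∀ i, ({x : L | S.a i ≤ x ∧ x ≤ S.b i} : Set L).Finite := by
      intro i
      rcases hB' i with h | ⟨p, _, _, h, _⟩
      · exact finite_of_pInt h
      · exact finite_of_isM h
    have h3 : (⋃ i, {x : L | S.a i ≤ x ∧ x ≤ S.b i}) = Set.univ := by
      ext x
      simpa using S.cover x
    have h4 : (Set.univ : Set L).Finite := by
      rw [← h3]
      exact Set.finite_iUnion h2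
    exact Set.finite_univ_iff.1 h4
  exact mixed S.a S.b S.mono_a S.mono_b h0 h1 he S.cover hr hB'

end Vale.Agent.P183.R2.H139
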