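import Vale.Agent.P183.R2.H139.Ord
import Vale.Agent.P183.R2.H332.LadderDefs
import Vale.Agent.P183.R2.H139.GlueDefs

/-!
# Ladders of congruence lattices of semilattices and partition lattices
-/

namespace Vale.Agent.P183.R2.H139

open Vale.Agent.P183 Vale.Agent.P183.R2.H332

/-- An isomorphism of `[a, b]` with the lattice of all equivalence relations preserved by `M`,
as a map. -/
theorem ublock_of_iso {L X : Type} [Lattice L] {a b : L} {M : Set (X → X)}
    {P : Setoid X → Prop} (hP : ∀ r, P r ↔ ∀ m ∈ M, Keeps m r)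
    (f : Set.Icc a b ≃o {r : Setoid X // P r}) :
    ∃ F : L → Setoid X, UBlock M F a b ∧ ∀ x (h : x ∈ Set.Icc a b), F x = (f ⟨x, h⟩).1 := by
  classical
  let F : L → Setoid X := fun x => if h : x ∈ Set.Icc a b then (f ⟨x, h⟩).1 else ⊤
  have hF : ∀ x (h : x ∈ Set.Icc a b), F x = (f ⟨x, h⟩).1 := fun x h => dif_pos h
  refine ⟨F, ⟨?_, ?_, ?_⟩, hF⟩
  · intro x y hx hx' hy hy'
    rw [hF x ⟨hx, hx'⟩, hF y ⟨hy, hy'⟩]
    exact f.le_iff_le
  · intro x hx hx'
    rw [hF x ⟨hx, hx'⟩]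
    exact (hP _).1 (f ⟨x, hx, hx'⟩).2
  · intro r hr
    refine ⟨(f.symm ⟨r, (hP r).2 hr⟩).1, (f.symm ⟨r, (hP r).2 hr⟩).2.1,
      (f.symm ⟨r, (hP r).2 hr⟩).2.2, ?_⟩
    rw [hF _ (f.symm ⟨r, (hP r).2 hr⟩).2]
    simp

theorem UBlock.maxi {L X : Type} [Lattice L] {M : Set (X → X)} {F : L → Setoid X} {a b c : L}
    (h : UBlock M F a b) (hac : a ≤ c) (hcb : c ⋖ b) :
    (∃ p q, ¬ F c p q) ∧
    ∀ r : Setoid X, (∀ m ∈ M, Keeps m r) → F c ≤ r → (∃ p q, ¬ r p q) → r ≤ F c := by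
  constructor
  · by_contra hcon
    push Not at hcon
    have h1 : F b ≤ F c := fun {p q} _ => hcon p q
    exact hcb.lt.not_ge ((h.le _ _ (hac.trans hcb.le) le_rfl hac hcb.le).1 h1)
  · rintro r hr hle ⟨p, q, hpq⟩
    obtain ⟨x, hx1, hx2, hx3⟩ := h.full r hr
    have h1 : c ≤ x := (h.le _ _ hac hcb.le hx1 hx2).1 (hx3 ▸ hle)
    rcases hcb.eq_or_eq h1 hx2 with h2 | h2
    · rw [← hx3, h2]
    · exfalso
      apply hpq
      rw [← hx3, h2]
      exact h.top p q

theorem UBlock.mini {L X : Type} [Lattice L] {M : Set (X → X)} {F : L → Setoid X} {a b d : L}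
    (h : UBlock M F a b) (had : a ⋖ d) (hdb : d ≤ b) :
    (∃ p q, p ≠ q ∧ F d p q) ∧
    ∀ r : Setoid X, (∀ m ∈ M, Keeps m r) → r ≤ F d → (∃ p q, p ≠ q ∧ r p q) → F d ≤ r := by
  constructor
  · by_contra hcon
    push Not at hcon
    have h1 : F d ≤ F a := fun {p q} hpq => by
      by_cases hne : p = q
      · subst hne
        exact Setoid.refl' _ _
      · exact absurd hpq (hcon p q hne)
    exact had.lt.not_ge ((h.le _ _ had.le hdb le_rfl (had.le.trans hdb)).1 h1)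
  · rintro r hr hle ⟨p, q, hne, hpq⟩
    obtain ⟨x, hx1, hx2, hx3⟩ := h.full r hr
    have h1 : x ≤ d := (h.le _ _ hx1 hx2 had.le hdb).1 (hx3 ▸ hle)
    rcases had.eq_or_eq hx1 h1 with h2 | h2
    · exfalso
      apply hne
      apply h.bot
      rw [← h2, hx3]
      exact hpq
    · rw [← hx3, h2]

theorem semiM_iff {X : Type} [SemilatticeInf X] (r : Setoid X) :
    (∀ x y z w, r x y → r z w → r (x ⊓ z) (y ⊓ w)) ↔ ∀ m ∈ semiM X, Keeps m r := by
  constructor
  · rintro h m (rfl | ⟨s, rfl⟩) x y hxy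
    · exact hxy
    · exact h x y s s hxy (Setoid.refl' _ _)
  · intro h x y z w hxy hzw
    have h1 : r (x ⊓ z) (y ⊓ z) := h _ (Or.inr ⟨z, rfl⟩) _ _ hxy
    have h2 : r (z ⊓ y) (w ⊓ y) := h _ (Or.inr ⟨y, rfl⟩) _ _ hzw
    rw [inf_comm z y, inf_comm w y] at h2
    exact Setoid.trans' _ h1 h2

theorem tblock_semi {L : Type} [Lattice L] {a b : L} (h : IsSemiCon a b)
    (inn out : L → Prop) : TBlock a b inn Bool {id} out Bool {id} := by
  obtain ⟨X, iX, iF, iN, ⟨f⟩⟩ := h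
  obtain ⟨F, hB, _⟩ := ublock_of_iso (M := semiM X) semiM_iff f
  refine ⟨X, iF, iN, semiM X, F, hB, ?_, ?_⟩
  · intro c hc hcb _
    have h1 := hB.mini hc hcb
    exact semi_bot (hB.keep c hc.le hcb) h1.1 h1.2
  · intro c hc hcb _
    have h1 := hB.maxi hc hcb
    exact semi_top (hB.keep c hc hcb.le) h1.1 h1.2

theorem tblock_id {L X : Type} [Lattice L] {a b : L} [Finite X] [Nonempty X]
    {F : L → Setoid X} (hB : UBlock {id} F a b) (inn out : L → Prop) :
    TBlock a b inn Bool {id} out Bool {id} := by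
  have hall : ∀ r : Setoid X, ∀ m ∈ ({id} : Set (X → X)), Keeps m r := by
    rintro r m rfl x y h
    exact h
  refine ⟨X, inferInstance, inferInstance, {id}, F, hB, ?_, ?_⟩
  · intro c hc hcb _
    obtain ⟨⟨p, q, hne, hpq⟩, h2⟩ := hB.mini hc hcb
    have hle : pairC p q ≤ F c := by
      intro x y h
      rcases h with rfl | ⟨rfl, rfl⟩ | ⟨rfl, rfl⟩
      · exact Setoid.refl' _ _
      · exact hpq
      · exact Setoid.symm' _ hpq
    have hge := h2 _ (hall _) hle ⟨p, q, hne, Or.inr (Or.inl ⟨rfl, rfl⟩)⟩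
    refine botT_two (M := {id}) ⟨id, rfl, fun _ => rfl⟩ hne
      (fun x y => ⟨fun h => hge h, fun h => hle h⟩) (hall _) ?_
    rintro m rfl ⟨h, _⟩
    exact hne h
  · intro c hc hcb _
    obtain ⟨⟨p, q, hpq⟩, h2⟩ := hB.maxi hc hcb
    have hle : F c ≤ twoC (fun x => F c p x) := fun {x y} h =>
      ⟨fun h' => Setoid.trans' _ h' h, fun h' => Setoid.trans' _ h' (Setoid.symm' _ h)⟩
    have hge := h2 _ (hall _) hle ⟨p, q, fun h => hpq (h.1 (Setoid.refl' _ _))⟩
    refine topT_two (M := {id}) (fun x => ⟨id, rfl, rfl, fun _ => rfl⟩) (fun x => F c p x)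
      (fun x y => ⟨fun h => hle h, fun h => hge h⟩) ⟨p, Setoid.refl' _ _⟩ ⟨q, hpq⟩ (hall _) ?_
    rintro m rfl x y hx _ h
    exact absurd h hx

theorem tblock_part {L : Type} [Lattice L] {a b : L} (h : IsPart a b)
    (inn out : L → Prop) : TBlock a b inn Bool {id} out Bool {id} := by
  obtain ⟨X, iF, iN, ⟨f⟩⟩ := h
  let e : Setoid X ≃o {r : Setoid X // ∀ m ∈ ({id} : Set (X → X)), Keeps m r} :=
    { toFun := fun r => ⟨r, by rintro m rfl x y h; exact h⟩
      invFun := fun r => r.1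
      left_inv := fun _ => rfl
      right_inv := fun _ => rfl
      map_rel_iff' := Iff.rfl }
  obtain ⟨F, hB, _⟩ := ublock_of_iso (M := {id}) (fun r => Iff.rfl) (f.trans e)
  exact tblock_id hB inn out

/-- **Ladders of congruence lattices of semilattices and partition lattices.** -/
theorem semi_ladder {L : Type} [Lattice L] {k : ℕ} (S : Ladder L k)
    (he : ∀ i : Fin k, S.a i.succ ⋖ S.b i.castSucc)
    (hB : ∀ i, IsSemiCon (S.a i) (S.b i) ∨ IsPart (S.a i) (S.b i)) : Representable L := by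
  refine typed_ladder S.mono_a S.mono_b he S.cover Bool {id} ?_
  intro i
  rcases hB i with h | h
  · exact tblock_semi h _ _
  · exact tblock_part h _ _

end Vale.Agent.P183.R2.H139
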