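import Vale.Agent.P183.R2.H139.PGrp
import Vale.Agent.P183.R2.H139.Aff

/-!
# Ladders of intervals of finite `r`-groups and of lattices `M_(p+1)`, `p ≡ 1` modulo `r`
-/

namespace Vale.Agent.P183.R2.H139

open Vale.Agent.P183

section Glue

variable {L : Type} [Lattice L] {n : ℕ} {a b : Fin (n + 1) → L}
  {G : Fin (n + 1) → Type} [∀ i, Group (G i)] {F : ∀ i, L → Subgroup (G i)}

/-- Overlaps that are edges, of prime index on both sides. -/
theorem glueAt_of_index (i : Fin n) (hab : a i.succ ⋖ b i.castSucc) {q : ℕ} (hq : q.Prime)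
    (hT : F i.castSucc (b i.castSucc) = ⊤)
    (hHK : F i.succ (a i.succ) ≤ F i.succ (b i.castSucc))
    (n1 : (F i.castSucc (a i.succ)).Normal) (c1 : (F i.castSucc (a i.succ)).index = q)
    (n2 : ((F i.succ (a i.succ)).subgroupOf (F i.succ (b i.castSucc))).Normal)
    (c2 : (F i.succ (a i.succ)).relIndex (F i.succ (b i.castSucc)) = q) :
    GlueAt a b G F i := by
  have : Fact q.Prime := ⟨hq⟩
  let M := F i.castSucc (a i.succ)
  let K := F i.succ (b i.castSucc)
  let H := F i.succ (a i.succ)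
  have n1' : M.Normal := n1
  have n2' : (H.subgroupOf K).Normal := n2
  let e : (G i.castSucc ⧸ M) ≃* (K ⧸ H.subgroupOf K) := mulEquivOfPrimeCardEq (p := q) c1 c2
  refine ⟨K ⧸ H.subgroupOf K, inferInstance, e.toMonoidHom.comp (QuotientGroup.mk' M),
    QuotientGroup.mk' _, e.surjective.comp (QuotientGroup.mk'_surjective M),
    QuotientGroup.mk'_surjective _, ?_⟩
  intro x hx hx'
  rcases hab.eq_or_eq hx hx' with rfl | rfl
  · refine ⟨⊥, ?_, ?_⟩
    · ext u
      simp [M]
    · have : ((⊥ : Subgroup (K ⧸ H.subgroupOf K)).comap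
          (QuotientGroup.mk' (H.subgroupOf K))) = H.subgroupOf K := by
        ext u
        simp
      rw [this, Subgroup.map_subgroupOf_eq_of_le hHK]
  · refine ⟨⊤, ?_, ?_⟩
    · rw [Subgroup.comap_top, hT]
    · rw [Subgroup.comap_top]
      ext u
      simp

end Glue

/-- The interval `[a, b]` is the lattice `M_m` of length two with `m` atoms. -/
def IsM {L : Type} [Lattice L] (m : ℕ) (a b : L) : Prop :=
  a < b ∧ (∀ x y, a < x → x ≤ y → y < b → x = y) ∧ Nat.card {x : L // a < x ∧ x < b} = m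

/-- The interval `[a, b]` is isomorphic to an interval of the subgroup lattice of a finite
`r`-group. -/
def PInt {L : Type} [Lattice L] (r : ℕ) (a b : L) : Prop :=
  ∃ (G : Type) (_ : Group G) (_ : Finite G) (H : Subgroup G), IsPGroup r G ∧
    Nonempty ({x : L // a ≤ x ∧ x ≤ b} ≃o {S : Subgroup G // H ≤ S})

/-- Block data: a representation of `[a, b]` as an interval of the subgroup lattice of a finite
group, such that the given lower covers `c` of `b` (`out c`) give normal subgroups of index `r`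
and the given upper covers `c` of `a` (`inn c`) give overgroups of index `r`. -/
def Block {L : Type} [Lattice L] (r : ℕ) (a b : L) (out inn : L → Prop) : Prop :=
  ∃ (G : Type) (_ : Group G) (_ : Finite G) (F : L → Subgroup G),
    (∀ x y, a ≤ x → x ≤ b → a ≤ y → y ≤ b → (F x ≤ F y ↔ x ≤ y)) ∧
    (∀ S, F a ≤ S → ∃ x, a ≤ x ∧ x ≤ b ∧ F x = S) ∧
    F b = ⊤ ∧
    (∀ c, a ≤ c → c ⋖ b → out c → (F c).Normal ∧ (F c).index = r) ∧
    (∀ c, a ⋖ c → c ≤ b → inn c → ((F a).subgroupOf (F c)).Normal ∧ (F a).relIndex (F c) = r)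

theorem block_pInt {L : Type} [Lattice L] {r : ℕ} (hr : r.Prime) {a b : L} (h : PInt r a b)
    (hab : a ≤ b) (out inn : L → Prop) : Block r a b out inn := by
  classical
  obtain ⟨G, iG, iGf, H, hG, ⟨f⟩⟩ := h
  have : Fact r.Prime := ⟨hr⟩
  let F : L → Subgroup G := fun x => if h : a ≤ x ∧ x ≤ b then (f ⟨x, h⟩).1 else ⊤
  have hFv : ∀ x (h : a ≤ x ∧ x ≤ b), F x = (f ⟨x, h⟩).1 := fun x h => dif_pos h
  have hle : ∀ x y, a ≤ x → x ≤ b → a ≤ y → y ≤ b → (F x ≤ F y ↔ x ≤ y) := by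
    intro x y hx hx' hy hy'
    rw [hFv x ⟨hx, hx'⟩, hFv y ⟨hy, hy'⟩]
    exact f.le_iff_le
  have hs : ∀ S, F a ≤ S → ∃ x, a ≤ x ∧ x ≤ b ∧ F x = S := by
    intro S hS
    rw [hFv a ⟨le_rfl, hab⟩] at hS
    have hHS : H ≤ S := (f ⟨a, le_rfl, hab⟩).2.trans hS
    refine ⟨(f.symm ⟨S, hHS⟩).1, (f.symm ⟨S, hHS⟩).2.1, (f.symm ⟨S, hHS⟩).2.2, ?_⟩
    rw [hFv _ (f.symm ⟨S, hHS⟩).2]
    simp
  have htop : F b = ⊤ := by
    obtain ⟨x, hx, hx', hxS⟩ := hs ⊤ le_top
    rw [← top_le_iff, ← hxS]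
    exact (hle _ _ hx hx' hab le_rfl).2 hx'
  refine ⟨G, iG, iGf, F, hle, hs, htop, ?_, ?_⟩
  · intro c hac hcb _
    refine pg_coatom hG _ ⟨?_, ?_⟩
    · intro h
      rw [← htop] at h
      exact hcb.lt.not_ge ((hle _ _ hab le_rfl hac hcb.le).1 h.ge)
    · intro S hS
      obtain ⟨x, hx, hx', rfl⟩ := hs S (((hle _ _ le_rfl hab hac hcb.le).2 hac).trans hS.le)
      have h1 : c ≤ x := (hle _ _ hac hcb.le hx hx').1 hS.le
      rcases hcb.eq_or_eq h1 hx' with h2 | h2
      · exact absurd (by rw [h2]) hS.ne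
      · rw [h2, htop]
  · intro c hac hcb _
    have hHK : F a ≤ F c := (hle _ _ le_rfl hab hac.le hcb).2 hac.le
    refine pg_coatom (hG.to_subgroup (F c)) _ ⟨?_, ?_⟩
    · intro h
      rw [Subgroup.subgroupOf_eq_top] at h
      exact hac.lt.not_ge ((hle _ _ hac.le hcb le_rfl hab).1 h)
    · intro S hS
      have hHS : F a ≤ S.map (F c).subtype := by
        have := Subgroup.map_mono (f := (F c).subtype) hS.le
        rwa [Subgroup.map_subgroupOf_eq_of_le hHK] at this
      have hSK : S.map (F c).subtype ≤ F c := by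
        rintro _ ⟨v, _, rfl⟩
        exact v.2
      obtain ⟨x, hx, hx', hxS⟩ := hs _ hHS
      have h1 : x ≤ c := (hle _ _ hx hx' hac.le hcb).1 (by rw [hxS]; exact hSK)
      rcases hac.eq_or_eq hx h1 with h2 | h2
      · exfalso
        apply hS.ne
        rw [h2] at hxS
        have h6 : (F a).subgroupOf (F c) = S := by
          rw [hxS]
          exact Subgroup.comap_map_eq_self_of_injective (F c).subtype_injective S
        exact h6
      · rw [h2] at hxS
        rw [← top_le_iff]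
        intro v _
        have h5 : (v : G) ∈ S.map (F c).subtype := by rw [← hxS]; exact v.2
        obtain ⟨w, hw, hwv⟩ := h5
        have : w = v := Subtype.ext hwv
        rwa [← this]

section

variable {L : Type} [Lattice L] {a b : L} {p : ℕ} [Fact p.Prime] {C : Subgroup (ZMod p)ˣ}

open Classical in
/-- the map to the subgroups of the affine group -/
noncomputable def toA (C : Subgroup (ZMod p)ˣ)
    (σ : {x : L // a < x ∧ x < b} ≃ Option (ZMod p)) (x : L) :
    Subgroup (Aff (ZMod p) (ZMod p) C) :=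
  if h : a < x ∧ x < b then fsub C (σ ⟨x, h⟩) else if x ≤ a then ⊥ else ⊤

theorem toA_mid (σ : {x : L // a < x ∧ x < b} ≃ Option (ZMod p)) (x : {x : L // a < x ∧ x < b}) :
    toA C σ x.1 = fsub C (σ x) := by
  unfold toA
  rw [dif_pos x.2]

theorem toA_bot (σ : {x : L // a < x ∧ x < b} ≃ Option (ZMod p)) : toA C σ a = ⊥ := by
  unfold toA
  rw [dif_neg (fun h => lt_irrefl _ h.1), if_pos le_rfl]

theorem toA_top (hab : a < b) (σ : {x : L // a < x ∧ x < b} ≃ Option (ZMod p)) :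
    toA C σ b = ⊤ := by
  unfold toA
  rw [dif_neg (fun h => lt_irrefl _ h.2), if_neg hab.not_ge]

theorem tri {L : Type} [Lattice L] {a b x : L} (h1 : a ≤ x) (h2 : x ≤ b) :
    x = a ∨ x = b ∨ (a < x ∧ x < b) := by
  rcases eq_or_lt_of_le h1 with h | h
  · exact Or.inl h.symm
  · rcases eq_or_lt_of_le h2 with h' | h'
    · exact Or.inr (Or.inl h')
    · exact Or.inr (Or.inr ⟨h, h'⟩)

theorem toA_le_iff {r : ℕ} (hr : r.Prime) (hC : Nat.card C = r) (hab : a < b)
    (hM : ∀ x y, a < x → x ≤ y → y < b → x = y)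
    (σ : {x : L // a < x ∧ x < b} ≃ Option (ZMod p)) {x y : L}
    (hx : a ≤ x) (hx' : x ≤ b) (hy : a ≤ y) (hy' : y ≤ b) : toA C σ x ≤ toA C σ y ↔ x ≤ y := by
  rcases tri hx hx' with rfl | rfl | hxm
  · rw [toA_bot]
    exact ⟨fun _ => hy, fun _ => bot_le⟩
  · rw [toA_top hab]
    rcases tri hy hy' with rfl | rfl | hym
    · rw [toA_bot]
      constructor
      · intro h
        have h1 : fsub C none ≤ (⊥ : Subgroup (Aff (ZMod p) (ZMod p) C)) := le_top.trans h
        exact absurd (le_bot_iff.1 h1) (fsub_ne_bot hr hC none)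
      · intro h
        exact absurd h hab.not_ge
    · exact ⟨fun _ => le_rfl, fun _ => by rw [toA_top hab]⟩
    · rw [toA_mid σ ⟨y, hym⟩]
      constructor
      · intro h
        exact absurd (top_le_iff.1 h) (fsub_ne_top hr hC _)
      · intro h
        exact absurd h hym.2.not_ge
  · rw [toA_mid σ ⟨x, hxm⟩]
    rcases tri hy hy' with rfl | rfl | hym
    · rw [toA_bot]
      constructor
      · intro h
        exact absurd (le_bot_iff.1 h) (fsub_ne_bot hr hC _)
      · intro h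
        exact absurd h hxm.1.not_ge
    · rw [toA_top hab]
      exact ⟨fun _ => hxm.2.le, fun _ => le_top⟩
    · rw [toA_mid σ ⟨y, hym⟩]
      constructor
      · intro h
        have h1 := σ.injective (fsub_le hr hC h)
        exact (congrArg Subtype.val h1).le
      · intro h
        have h1 : x = y := hM x y hxm.1 h hym.2
        subst h1
        exact le_rfl

theorem toA_surj {r : ℕ} (hr : r.Prime) (hC : Nat.card C = r) (hab : a < b)
    (σ : {x : L // a < x ∧ x < b} ≃ Option (ZMod p))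
    (S : Subgroup (Aff (ZMod p) (ZMod p) C)) : ∃ x, a ≤ x ∧ x ≤ b ∧ toA C σ x = S := by
  rcases fsub_cases hr hC S with rfl | rfl | ⟨o, rfl⟩
  · exact ⟨a, le_rfl, hab.le, toA_bot σ⟩
  · exact ⟨b, hab.le, le_rfl, toA_top hab σ⟩
  · refine ⟨(σ.symm o).1, (σ.symm o).2.1.le, (σ.symm o).2.2.le, ?_⟩
    rw [toA_mid, Equiv.apply_symm_apply]

end

theorem block_M {L : Type} [Lattice L] [Finite L] {a b : L} {p r : ℕ} (hp : p.Prime)
    (hr : r.Prime) (hrp : r ∣ p - 1)
    (hM : IsM (p + 1) a b) (out inn : L → Prop)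
    (h1 : ∀ c c', a < c → c < b → a < c' → c' < b → out c → out c' → c = c')
    (h2 : ∀ c c', a < c → c < b → out c → inn c' → c ≠ c')
    (h3 : ∀ c c', a < c → c < b → a < c' → c' < b → inn c → inn c' → c = c') :
    Block r a b out inn := by
  classical
  have hpf : Fact p.Prime := ⟨hp⟩
  obtain ⟨C, hC⟩ := exists_scalars (p := p) hr hrp
  have hnt : Nontrivial {x : L // a < x ∧ x < b} := by
    rw [← Finite.one_lt_card_iff_nontrivial, hM.2.2]
    have := hp.two_le
    omega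
  have hx0 : ∃ x0 : {x : L // a < x ∧ x < b},
      (∀ c, a < c → c < b → out c → x0.1 = c) ∧ (∀ c, inn c → x0.1 ≠ c) := by
    by_cases hi : ∃ c, a < c ∧ c < b ∧ out c
    · obtain ⟨c, hc1, hc2, hc3⟩ := hi
      exact ⟨⟨c, hc1, hc2⟩, fun c' h4 h5 h6 => h1 _ _ hc1 hc2 h4 h5 hc3 h6,
        fun c' h4 => h2 _ _ hc1 hc2 hc3 h4⟩
    · have hi' : ∀ c, a < c → c < b → ¬ out c := fun c h4 h5 h6 => hi ⟨c, h4, h5, h6⟩
      by_cases hj : ∃ c, a < c ∧ c < b ∧ inn c
      · obtain ⟨c, hc1, hc2, hc3⟩ := hj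
        obtain ⟨x0, hx0⟩ := exists_ne (⟨c, hc1, hc2⟩ : {x : L // a < x ∧ x < b})
        refine ⟨x0, fun c' h4 h5 h6 => absurd h6 (hi' c' h4 h5), ?_⟩
        intro c' h4 h5
        apply hx0
        apply Subtype.ext
        have := x0.2
        exact h3 _ _ this.1 this.2 hc1 hc2 (h5 ▸ h4) hc3
      · obtain ⟨x0, _, _⟩ := hnt.exists_pair_ne
        refine ⟨x0, fun c' h4 h5 h6 => absurd h6 (hi' c' h4 h5), ?_⟩
        intro c' h4 h5
        exact hj ⟨x0.1, x0.2.1, x0.2.2, h5 ▸ h4⟩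
  obtain ⟨x0, hxa, hxb⟩ := hx0
  have hcard : Nat.card {x : L // a < x ∧ x < b} = Nat.card (Option (ZMod p)) := by
    rw [hM.2.2, Finite.card_option, Nat.card_zmod]
  obtain ⟨σ0⟩ := Finite.card_eq.1 hcard
  let σ : {x : L // a < x ∧ x < b} ≃ Option (ZMod p) := σ0.trans (Equiv.swap (σ0 x0) none)
  have hσ : σ x0 = none := by simp [σ]
  refine ⟨Aff (ZMod p) (ZMod p) C, inferInstance, inferInstance, toA C σ,
    fun x y hx hx' hy hy' => toA_le_iff hr hC hM.1 hM.2.1 σ hx hx' hy hy',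
    fun S _ => toA_surj hr hC hM.1 σ S, toA_top hM.1 σ, ?_, ?_⟩
  · intro c hac hcb hc
    have hac' : a < c := by
      refine lt_of_le_of_ne hac ?_
      rintro rfl
      exact hcb.2 x0.2.1 x0.2.2
    rw [← hxa c hac' hcb.lt hc, toA_mid, hσ]
    refine ⟨(inferInstance : (Aff.tr (ZMod p) (ZMod p) C).Normal), ?_⟩
    exact Aff.tr_index.trans hC
  · intro c hac hcb hc
    have hcb' : c < b := by
      refine lt_of_le_of_ne hcb ?_
      rintro rfl
      exact hac.2 x0.2.1 x0.2.2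
    have h4 : σ ⟨c, hac.lt, hcb'⟩ ≠ none := by
      intro h
      rw [← hσ] at h
      exact hxb c hc (congrArg Subtype.val (σ.injective h)).symm
    obtain ⟨j, hj⟩ := Option.ne_none_iff_exists'.1 h4
    have h5 : toA C σ c = Aff.st C j := by
      have := toA_mid (C := C) σ ⟨c, hac.lt, hcb'⟩
      rw [hj] at this
      exact this
    rw [toA_bot, Subgroup.bot_subgroupOf, Subgroup.relIndex_bot_left, h5]
    exact ⟨inferInstance, (Aff.st_card j).trans hC⟩

/-- **Mixed ladders.**  Let `r` be a prime.  A finite lattice covered by a ladder of intervals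
`[a i, b i]`, consecutive ones overlapping in an edge, where each `[a i, b i]` is an interval of
the subgroup lattice of a finite `r`-group, or a lattice `M_(p+1)` (`p` a prime, `r` divides
`p - 1`) whose two gluing atoms are different, is representable. -/
theorem mixed {L : Type} [Lattice L] [Finite L] {n : ℕ} (a b : Fin (n + 1) → L)
    (ha : Monotone a) (hb : Monotone b) (h0 : ∀ x, a 0 ≤ x)
    (h1 : ∀ x, x ≤ b (Fin.last n))
    (hab : ∀ i : Fin n, a i.succ ⋖ b i.castSucc)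
    (hcov : ∀ x, ∃ i, a i ≤ x ∧ x ≤ b i) {r : ℕ} (hr : r.Prime)
    (hB : ∀ i, PInt r (a i) (b i) ∨ ∃ p : ℕ, p.Prime ∧ r ∣ p - 1 ∧ IsM (p + 1) (a i) (b i) ∧
      ∀ j k : Fin n, j.succ = i → k.castSucc = i → b j.castSucc ≠ a k.succ) :
    Representable L := by
  have hlt : ∀ i, a i ≤ b i := by
    intro i
    induction i using Fin.induction with
    | zero => exact h0 _
    | succ i _ => exact (hab i).le.trans (hb Fin.castSucc_lt_succ.le)
  have hblock : ∀ i, Block r (a i) (b i) (fun c => ∃ k : Fin n, k.castSucc = i ∧ c = a k.succ)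
      (fun c => ∃ j : Fin n, j.succ = i ∧ c = b j.castSucc) := by
    intro i
    rcases hB i with h | ⟨p, hp, hrp, hM, hne⟩
    · exact block_pInt hr h (hlt i) _ _
    · refine block_M hp hr hrp hM _ _ ?_ ?_ ?_
      · rintro c c' _ _ _ _ ⟨k, hk, rfl⟩ ⟨k', hk', rfl⟩
        rw [Fin.castSucc_injective _ (hk.trans hk'.symm)]
      · rintro c c' _ _ ⟨k, hk, rfl⟩ ⟨j, hj, rfl⟩
        exact (hne j k hj hk).symm
      · rintro c c' _ _ _ _ ⟨k, hk, rfl⟩ ⟨k', hk', rfl⟩
        rw [Fin.succ_injective _ (hk.trans hk'.symm)]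
  choose G iG iGf F hF hFs hT hout hinn using hblock
  refine ladder_core a b G F ha hb h0 h1 (fun i => (hab i).le) hcov hF hFs ?_
  intro i
  have hac : a i.succ ≤ b i.succ := hlt _
  have hcov1 : a i.castSucc ≤ a i.succ := ha Fin.castSucc_lt_succ.le
  have hcov2 : b i.castSucc ≤ b i.succ := hb Fin.castSucc_lt_succ.le
  obtain ⟨n1, c1⟩ := hout i.castSucc (a i.succ) hcov1 (hab i) ⟨i, rfl, rfl⟩
  obtain ⟨n2, c2⟩ := hinn i.succ (b i.castSucc) (hab i) hcov2 ⟨i, rfl, rfl⟩
  exact glueAt_of_index (q := r) i (hab i) hr (hT _)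
    ((hF _ _ _ le_rfl hac (hab i).le hcov2).2 (hab i).le) n1 c1 n2 c2

end Vale.Agent.P183.R2.H139
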